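import Crest.Agent.R278.Defs

/-!
# Row 278: Krull dimension, non-regularity, conductor
-/

set_option autoImplicit false

namespace Crest.Agent.R278

open MvPolynomial

/-- Upper bound for the dimension.
Proof: `PrimeSpectrum.comap (algebraMap Rr A)` is strictly monotone: for `P < Q`, `a ∈ Q \ P`,
`u * a ∈ Q \ P` is integral, `Ideal.comap_lt_comap_of_integral_mem_sdiff`. Then
`Order.krullDim_le_of_strictMono` and `MvPolynomial.ringKrullDim_of_isNoetherianRing`
(with `ringKrullDim_eq_zero_of_field`). -/
theorem ringKrullDim_le_two {A : Type*} [CommRing A] [Algebra Rr A] (hA : LocInt Rr A) :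
    ringKrullDim A ≤ 2 := by
  have hmono : StrictMono (PrimeSpectrum.comap (algebraMap Rr A)) := by
    intro P Q hPQ
    have hlt : P.asIdeal < Q.asIdeal := hPQ
    obtain ⟨a, haQ, haP⟩ := SetLike.exists_of_lt hlt
    obtain ⟨u, hu, -, hua⟩ := hA a
    have hP := P.isPrime
    have hmem : u * a ∈ (Q.asIdeal : Set A) \ P.asIdeal := by
      refine ⟨Q.asIdeal.mul_mem_left u haQ, fun h => ?_⟩
      rcases hP.mem_or_mem h with h | h
      · exact hP.ne_top (P.asIdeal.eq_top_of_isUnit_mem h hu)
      · exact haP h
    exact Ideal.comap_lt_comap_of_integral_mem_sdiff hlt.le hmem hua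
  have h1 : ringKrullDim A ≤ ringKrullDim Rr := Order.krullDim_le_of_strictMono _ hmono
  refine h1.trans (le_of_eq ?_)
  rw [MvPolynomial.ringKrullDim_of_isNoetherianRing, ringKrullDim_eq_zero_of_field]
  simp

/-- Lower bound for the dimension.
Proof: `ringKrullDim_quotient_succ_le_of_nonZeroDivisor` for `f` in `A`, then for the class of `t`
in `A ⧸ (f)`; the last quotient is nontrivial because `ε` kills `f` and `t`
(or: exhibit `⊥ < P < ker ε` directly). -/
theorem two_le_ringKrullDim {A : Type*} [CommRing A] [IsDomain A] (f t : A) (hf0 : f ≠ 0)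
    (hreg : ∀ a b : A, t * a = f * b → f ∣ a) (ε : A →+* ℂ) (hf : ε f = 0) (ht : ε t = 0) :
    2 ≤ ringKrullDim A := by
  have h1 := ringKrullDim_quotient_succ_le_of_nonZeroDivisor
    (mem_nonZeroDivisors_of_ne_zero hf0)
  set I : Ideal A := Ideal.span {f} with hI
  have ht0 : Ideal.Quotient.mk I t ∈ nonZeroDivisors (A ⧸ I) := by
    rw [mem_nonZeroDivisors_iff_right]
    intro x hx
    obtain ⟨a, rfl⟩ := Ideal.Quotient.mk_surjective x
    rw [← map_mul, Ideal.Quotient.eq_zero_iff_mem, hI, Ideal.mem_span_singleton] at hx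
    obtain ⟨b, hb⟩ := hx
    rw [Ideal.Quotient.eq_zero_iff_mem, hI, Ideal.mem_span_singleton]
    exact hreg a b (by rw [← hb, mul_comm])
  have h2 := ringKrullDim_quotient_succ_le_of_nonZeroDivisor ht0
  let ε₁ : A ⧸ I →+* ℂ := Ideal.Quotient.lift I ε (by
    intro a ha
    rw [hI, Ideal.mem_span_singleton] at ha
    obtain ⟨b, rfl⟩ := ha
    rw [map_mul, hf, zero_mul])
  let ε₂ : (A ⧸ I) ⧸ Ideal.span {Ideal.Quotient.mk I t} →+* ℂ :=
    Ideal.Quotient.lift _ ε₁ (by
      intro a ha
      rw [Ideal.mem_span_singleton] at ha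
      obtain ⟨b, rfl⟩ := ha
      rw [map_mul]
      have : ε₁ (Ideal.Quotient.mk I t) = 0 := by simp [ε₁, ht]
      rw [this, zero_mul])
  have hnt : Nontrivial ((A ⧸ I) ⧸ Ideal.span {Ideal.Quotient.mk I t}) := ε₂.domain_nontrivial
  have h3 : (0 : WithBot ℕ∞) ≤ ringKrullDim ((A ⧸ I) ⧸ Ideal.span {Ideal.Quotient.mk I t}) :=
    ringKrullDim_nonneg_of_nontrivial
  calc (2 : WithBot ℕ∞) = 0 + 1 + 1 := by norm_num
    _ ≤ ringKrullDim ((A ⧸ I) ⧸ Ideal.span {Ideal.Quotient.mk I t}) + 1 + 1 := by gcongr
    _ ≤ ringKrullDim (A ⧸ I) + 1 := by gcongr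
    _ ≤ ringKrullDim A := h1

/-- Three independent point derivations at a point of a ring of dimension `≤ 2`: not regular.
Proof: `m = ker (fst ∘ η)` is maximal (surjection onto `ℂ`). `η` extends to
`η' : Localization.AtPrime m →+* TrivSqZeroExt ℂ (Fin 3 → ℂ)` (`IsLocalization.lift`,
`TrivSqZeroExt.isUnit_iff_isUnit_fst`), and `fst (η' x) = 0` on the maximal ideal. If the local ring
is regular, `spanFinrank maximalIdeal = ringKrullDim ≤ ringKrullDim A ≤ 2`
(`IsLocalization.AtPrime.ringKrullDim_eq_height`, `Ideal.height_le_ringKrullDim_of_ne_top`, or strict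
monotonicity of comap), so the maximal ideal is spanned by a finset of at most two elements
(`Submodule.FG.exists_span_finset_card_eq_spanFinrank` / `generators`). Then
every `snd (η' x)`, `x` in the maximal ideal, is in the `ℂ`-span of two vectors, while surjectivity of
`η` gives all of `Fin 3 → ℂ`; `finrank_span_finset_le_card` gives `3 ≤ 2`. -/
theorem exists_not_regular {A : Type*} [CommRing A] [Algebra ℂ A]
    (η : A →ₐ[ℂ] TrivSqZeroExt ℂ (Fin 3 → ℂ)) (hη : Function.Surjective η)
    (hdim : ringKrullDim A ≤ 2) :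
    ∃ (m : Ideal A) (_ : m.IsMaximal), ¬ IsRegularLocalRing (Localization.AtPrime m) := by
  classical
  let φ : A →+* ℂ := ((TrivSqZeroExt.fstHom ℂ ℂ (Fin 3 → ℂ)).comp η).toRingHom
  have hφ : ∀ a, φ a = (η a).fst := fun a => rfl
  have hφs : Function.Surjective φ := by
    intro c
    obtain ⟨a, ha⟩ := hη (TrivSqZeroExt.inl c)
    exact ⟨a, by rw [hφ, ha, TrivSqZeroExt.fst_inl]⟩
  have hmax : (RingHom.ker φ).IsMaximal := RingHom.ker_isMaximal_of_surjective φ hφs
  refine ⟨RingHom.ker φ, hmax, fun hreg => ?_⟩
  set m : Ideal A := RingHom.ker φ with hm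
  set S := Localization.AtPrime m with hS
  have hunit : ∀ y : m.primeCompl, IsUnit (η.toRingHom y) := by
    rintro ⟨y, hy⟩
    have hy' : φ y ≠ 0 := hy
    have : IsUnit (η y) := by
      rw [TrivSqZeroExt.isUnit_iff_isUnit_fst, ← hφ]
      exact isUnit_iff_ne_zero.mpr hy'
    exact this
  let η' : S →+* TrivSqZeroExt ℂ (Fin 3 → ℂ) := IsLocalization.lift (M := m.primeCompl) hunit
  have hη' : ∀ a : A, η' (algebraMap A S a) = η a := fun a => IsLocalization.lift_eq hunit a
  -- `fst ∘ η'` kills the maximal ideal
  have hfst : ∀ x ∈ IsLocalRing.maximalIdeal S, (η' x).fst = 0 := by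
    intro x hx
    rw [← Localization.AtPrime.map_eq_maximalIdeal] at hx
    let ψ : S →+* ℂ := (TrivSqZeroExt.fstHom ℂ ℂ (Fin 3 → ℂ)).toRingHom.comp η'
    have hle : Ideal.map (algebraMap A S) m ≤ RingHom.ker ψ := by
      rw [Ideal.map_le_iff_le_comap]
      intro a ha
      have ha' : φ a = 0 := ha
      show ψ (algebraMap A S a) = 0
      show (η' (algebraMap A S a)).fst = 0
      rw [hη', ← hφ, ha']
    exact hle hx
  -- the maximal ideal has at most two generators
  have hd : ringKrullDim S ≤ 2 := by
    rw [IsLocalization.AtPrime.ringKrullDim_eq_height m S]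
    exact (Ideal.height_le_ringKrullDim_of_ne_top hmax.ne_top).trans hdim
  have hsp : (IsLocalRing.maximalIdeal S).spanFinrank ≤ 2 := by
    have h := hreg.spanFinrank_maximalIdeal
    rw [← h] at hd
    exact_mod_cast hd
  obtain ⟨s, hscard, hspan⟩ := Submodule.FG.exists_span_finset_card_eq_spanFinrank
    (IsNoetherian.noetherian (IsLocalRing.maximalIdeal S))
  let W : Submodule ℂ (Fin 3 → ℂ) :=
    Submodule.span ℂ ((s.image fun x => (η' x).snd : Finset (Fin 3 → ℂ)) : Set (Fin 3 → ℂ))
  have hW : ∀ x ∈ IsLocalRing.maximalIdeal S, (η' x).snd ∈ W := by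
    intro x hx
    have hx' : x ∈ Submodule.span S (s : Set S) := by rw [hspan]; exact hx
    clear hx
    induction hx' using Submodule.span_induction with
    | mem x hx =>
      exact Submodule.subset_span (by
        simp only [Finset.coe_image, Set.mem_image, Finset.mem_coe]
        exact ⟨x, hx, rfl⟩)
    | zero => simp
    | add x y _ _ hx hy => rw [map_add, TrivSqZeroExt.snd_add]; exact W.add_mem hx hy
    | smul r x hxs hx =>
      have hxm : x ∈ IsLocalRing.maximalIdeal S := by rw [← hspan]; exact hxs
      rw [smul_eq_mul, map_mul, TrivSqZeroExt.snd_mul, hfst x hxm]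
      simp only [MulOpposite.op_zero, zero_smul, add_zero]
      exact W.smul_mem _ hx
  have htop : W = ⊤ := by
    rw [eq_top_iff]
    intro v _
    obtain ⟨a, ha⟩ := hη (TrivSqZeroExt.inr v)
    have ham : a ∈ m := by
      show φ a = 0
      rw [hφ, ha, TrivSqZeroExt.fst_inr]
    have hmem : algebraMap A S a ∈ IsLocalRing.maximalIdeal S := by
      rw [← Localization.AtPrime.map_eq_maximalIdeal]
      exact Ideal.mem_map_of_mem _ ham
    have := hW _ hmem
    rwa [hη', ha, TrivSqZeroExt.snd_inr] at this
  have h3 : Module.finrank ℂ W = 3 := by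
    rw [htop, finrank_top]
    simp
  have h2 : Module.finrank ℂ W ≤ 2 := by
    refine (finrank_span_finset_le_card (R := ℂ) _).trans ?_
    exact Finset.card_image_le.trans (hscard.le.trans hsp)
  omega

/-- The conductor of a domain finite over `ℂ[f,t]` is nonzero.
Proof: `K = FractionRing Rr`, `L = FractionRing B` is a finite separable extension of `K`
(`FractionRing.liftAlgebra`, needs `FaithfulSMul Rr B` from injectivity; char 0). `IsIntegralClosure.finite`
(`Rr` is an integrally closed Noetherian domain) makes `integralClosure Rr L` a finite `Rr`-module;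
a common denominator `d ∈ B` of finitely many generators works
(`IsLocalization.exist_integer_multiples_of_finset`); integral over `B` implies integral over `Rr`
(`isIntegral_trans`). -/
theorem exists_conductor {B : Type*} [CommRing B] [IsDomain B] [Algebra Rr B]
    [Module.Finite Rr B] (hinj : Function.Injective (algebraMap Rr B)) :
    ∃ d : B, d ≠ 0 ∧ ∀ z : FractionRing B, IsIntegral B z →
      ∃ b : B, algebraMap B (FractionRing B) b = algebraMap B (FractionRing B) d * z := by
  classical
  have hfs : FaithfulSMul Rr B := (faithfulSMul_iff_algebraMap_injective Rr B).mpr hinj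
  let _ : Algebra (FractionRing Rr) (FractionRing B) := FractionRing.liftAlgebra Rr _
  have hst : IsScalarTower Rr (FractionRing Rr) (FractionRing B) :=
    FractionRing.isScalarTower_liftAlgebra Rr (FractionRing B)
  have hfd : FiniteDimensional (FractionRing Rr) (FractionRing B) :=
    Module.Finite.of_isLocalization Rr B (nonZeroDivisors Rr)
  have hfin : Module.Finite Rr (integralClosure Rr (FractionRing B)) :=
    IsIntegralClosure.finite Rr (FractionRing Rr) (FractionRing B) _
  obtain ⟨s, hs⟩ := hfin.fg_top
  obtain ⟨d, hd⟩ := IsLocalization.exist_integer_multiples_of_finset (nonZeroDivisors B)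
    (s.image fun x : integralClosure Rr (FractionRing B) => (x : FractionRing B))
  refine ⟨d, nonZeroDivisors.coe_ne_zero d, fun z hz => ?_⟩
  have hz' : IsIntegral Rr z := isIntegral_trans z hz
  have key : ∀ y : integralClosure Rr (FractionRing B), y ∈ Submodule.span Rr (s : Set _) →
      ∃ b : B, algebraMap B (FractionRing B) b =
        algebraMap B (FractionRing B) d * (y : FractionRing B) := by
    intro y hy
    induction hy using Submodule.span_induction with
    | mem x hx =>
      obtain ⟨b, hb⟩ := hd (x : FractionRing B) (Finset.mem_image_of_mem _ (Finset.mem_coe.mp hx))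
      exact ⟨b, by rw [hb, Algebra.smul_def]⟩
    | zero => exact ⟨0, by simp⟩
    | add x y _ _ hx hy =>
      obtain ⟨b, hb⟩ := hx
      obtain ⟨c, hc⟩ := hy
      exact ⟨b + c, by rw [map_add, hb, hc, Subalgebra.coe_add, mul_add]⟩
    | smul r x _ hx =>
      obtain ⟨b, hb⟩ := hx
      refine ⟨algebraMap Rr B r * b, ?_⟩
      rw [map_mul, hb, Subalgebra.coe_smul, Algebra.smul_def,
        ← IsScalarTower.algebraMap_apply Rr B (FractionRing B)]
      ring
  exact key ⟨z, hz'⟩ (by rw [hs]; trivial)

/-- The conductor of a localisation. `L` is a common fraction field.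
Proof: `FractionRing A` is also a fraction ring of `B`
(`IsFractionRing.isFractionRing_of_isDomain_of_isLocalization` goes the other way round; use it to see
`FractionRing B` as a fraction ring of `A`, or transport along the `AlgEquiv`);
`z` integral over `A` gives `s ^ n • z` integral over `B`
(`IsIntegral.exists_multiple_integral_of_isLocalization`). -/
theorem exists_conductor_away {B : Type*} [CommRing B] [IsDomain B] (s : B) (hs : s ≠ 0)
    (A : Type*) [CommRing A] [IsDomain A] [Algebra B A] [IsLocalization.Away s A]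
    (h : ∃ d : B, d ≠ 0 ∧ ∀ z : FractionRing B, IsIntegral B z →
      ∃ b : B, algebraMap B (FractionRing B) b = algebraMap B (FractionRing B) d * z) :
    ∃ d : A, d ≠ 0 ∧ ∀ z : FractionRing A, IsIntegral A z →
      ∃ a : A, algebraMap A (FractionRing A) a = algebraMap A (FractionRing A) d * z := by
  obtain ⟨d, hd0, hd⟩ := h
  have hle : Submonoid.powers s ≤ nonZeroDivisors B := powers_le_nonZeroDivisors_of_noZeroDivisors hs
  have hinj : Function.Injective (algebraMap B A) := IsLocalization.injective A hle
  -- `FractionRing B` is an `A`-algebra and a fraction ring of `A`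
  have hunit : ∀ y : Submonoid.powers s, IsUnit (algebraMap B (FractionRing B) y) := fun y =>
    IsLocalization.map_units (FractionRing B) (⟨y, hle y.2⟩ : nonZeroDivisors B)
  let _ : Algebra A (FractionRing B) :=
    (IsLocalization.lift (M := Submonoid.powers s) (S := A) hunit).toAlgebra
  have hst : IsScalarTower B A (FractionRing B) :=
    IsScalarTower.of_algebraMap_eq fun x => (IsLocalization.lift_eq hunit x).symm
  have hfr : IsFractionRing A (FractionRing B) :=
    IsFractionRing.isFractionRing_of_isLocalization (Submonoid.powers s) A (FractionRing B) hle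
  let e : FractionRing A ≃ₐ[A] FractionRing B := FractionRing.algEquiv A (FractionRing B)
  refine ⟨algebraMap B A d, fun h0 => hd0 (hinj (by rw [h0, map_zero])), fun z hz => ?_⟩
  have hz' : IsIntegral A (e z) := hz.map e.toAlgHom
  obtain ⟨⟨m, hm⟩, hint⟩ :=
    IsIntegral.exists_multiple_integral_of_isLocalization (Submonoid.powers s) (e z) hz'
  obtain ⟨b, hb⟩ := hd _ hint
  obtain ⟨u, hu⟩ := IsLocalization.map_units A (⟨m, hm⟩ : Submonoid.powers s)
  refine ⟨algebraMap B A b * ↑u⁻¹, e.injective ?_⟩
  have hu' : algebraMap A (FractionRing B) (↑u⁻¹ : A) * algebraMap B (FractionRing B) m = 1 := by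
    rw [IsScalarTower.algebraMap_apply B A (FractionRing B) m, ← map_mul]
    have : (algebraMap B A m) = u := hu.symm
    rw [this, Units.inv_mul, map_one]
  rw [map_mul e, e.commutes, e.commutes, map_mul,
    ← IsScalarTower.algebraMap_apply B A (FractionRing B),
    ← IsScalarTower.algebraMap_apply B A (FractionRing B), hb]
  have : (⟨m, hm⟩ : Submonoid.powers s) • e z = algebraMap B (FractionRing B) m * e z := by
    rw [Submonoid.smul_def, Algebra.smul_def]
  rw [this]
  linear_combination (algebraMap B (FractionRing B) d * e z) * hu'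

end Crest.Agent.R278
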