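import Crest.Agent.R278.Normal
import Crest.Agent.R278.DimReg

/-!
# Row 278: the abstract theorem. A finite free domain over `ℂ[f,t]` with two derivations whose
minors generate an `(f,t)`-primary ideal near a point of embedding dimension `≥ 3` gives the example.
-/

set_option autoImplicit false

namespace Crest.Agent.R278

open MvPolynomial

/-- `f, t` is a regular sequence in a free `ℂ[f,t]`-algebra. -/
theorem hreg_of_free (B : Type) [CommRing B] [Algebra Rr B] [Module.Free Rr B] (a b : B)
    (h : algebraMap Rr B (X 1) * a = algebraMap Rr B (X 0) * b) : algebraMap Rr B (X 0) ∣ a := by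
  classical
  let bs := Module.Free.chooseBasis Rr B
  have h1 : (X 1 : Rr) • a = (X 0 : Rr) • b := by simpa [Algebra.smul_def] using h
  have h2 : ∀ i, (X 0 : Rr) ∣ bs.repr a i := by
    intro i
    have h3 : (X 1 : Rr) * bs.repr a i = X 0 * bs.repr b i := by
      have := congrArg (fun x => bs.repr x i) h1
      simpa using this
    have h4 : (X 0 : Rr) ∣ X 1 * bs.repr a i := ⟨_, h3⟩
    rcases (X_prime (R := ℂ) (i := (0 : Fin 2))).dvd_or_dvd h4 with h5 | h5
    · rw [X_dvd_X] at h5
      exact absurd h5 (by decide)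
    · exact h5
  rw [← bs.linearCombination_repr a, Finsupp.linearCombination_apply, Finsupp.sum]
  refine Finset.dvd_sum fun i _ => ?_
  rw [Algebra.smul_def]
  exact Dvd.dvd.mul_right (map_dvd _ (h2 i)) _

/-- Proof: `A = Localization.Away s` (a domain: `IsLocalization.isDomain_localization`, `s ≠ 0` because
`(η s).fst ≠ 0`), with `Algebra ℂ A`, `Algebra Rr A` the existing `Localization` instances.
* `Rr → B` is injective (free + nontrivial), so `f ≠ 0` in `B` and in `A` (`IsLocalization.injective`).
* `hreg` in `B`: coordinates in a basis, `X 0` is prime in `Rr` and does not divide `X 1`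
  (`MvPolynomial.X_prime`, `X_dvd_X`/`X_dvd_mul_iff`); `hreg` in `A`: clear denominators.
* `LocInt Rr A`: `a = b / s^n`, `u = algebraMap (s^n)`; elements of `B` are integral (finite).
* finite type: `B` finite over `Rr`, `IsLocalization.finiteType_of_monoid_fg` /
  `IsLocalization.Away.finitePresentation`; Noetherian: `Algebra.FiniteType.isNoetherianRing`.
* extend `D₁ D₂` (`exists_der_localization`); the image of `deltaIdeal` lies in `deltaIdeal`,
  `s` is a unit so `f^N, t^N ∈ deltaIdeal`.
* `η` extends to `A` (`IsLocalization.Away.lift`/`liftAlgHom`), still surjective;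
  `ε = fstHom ∘ η`.
Then use `free_of_delta` (+ `der_eq_zero`), `isIntegrallyClosed_of_delta` (+ `exists_conductor`,
`exists_conductor_away`), `ringKrullDim_le_two`, `two_le_ringKrullDim`, `exists_not_regular`. -/
theorem abs_main (B : Type) [CommRing B] [IsDomain B] [Algebra ℂ B] [Algebra Rr B]
    [IsScalarTower ℂ Rr B] [Module.Finite Rr B] [Module.Free Rr B]
    (D₁ D₂ : Derivation ℂ B B)
    (η : B →ₐ[ℂ] TrivSqZeroExt ℂ (Fin 3 → ℂ)) (hη : Function.Surjective η)
    (hηf : (η (algebraMap Rr B (X 0))).fst = 0) (hηt : (η (algebraMap Rr B (X 1))).fst = 0)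
    (s : B) (hs : (η s).fst ≠ 0) (N : ℕ)
    (hf : s * algebraMap Rr B (X 0) ^ N ∈ deltaIdeal D₁ D₂)
    (ht : s * algebraMap Rr B (X 1) ^ N ∈ deltaIdeal D₁ D₂) :
    ∃ (A : Type) (_ : CommRing A) (_ : Algebra ℂ A),
      IsDomain A ∧ Algebra.FiniteType ℂ A ∧ IsIntegrallyClosed A ∧
      ringKrullDim A = 2 ∧
      Nonempty (Derivation ℂ A A ≃ₗ[A] (Fin 2 → A)) ∧
      ∃ (m : Ideal A) (_ : m.IsMaximal), ¬ IsRegularLocalRing (Localization.AtPrime m) := by
  have hs0 : s ≠ 0 := by
    rintro rfl
    simp at hs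
  have hM : Submonoid.powers s ≤ nonZeroDivisors B :=
    powers_le_nonZeroDivisors_of_noZeroDivisors hs0
  let A := Localization.Away s
  have : IsDomain A := IsLocalization.isDomain_localization hM
  have hinjA : Function.Injective (algebraMap B A) := IsLocalization.injective A hM
  have hinjB : Function.Injective (algebraMap Rr B) := FaithfulSMul.algebraMap_injective Rr B
  have hmap : ∀ r : Rr, algebraMap Rr A r = algebraMap B A (algebraMap Rr B r) := fun r =>
    IsScalarTower.algebraMap_apply Rr B A r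
  have hf0 : algebraMap Rr A (X 0) ≠ 0 := by
    rw [hmap]
    intro h
    have h1 : algebraMap Rr B (X 0) = 0 := hinjA (by simpa using h)
    have h2 : (X 0 : Rr) = 0 := hinjB (by simpa using h1)
    exact X_ne_zero _ h2
  have hsu : IsUnit (algebraMap B A s) := IsLocalization.Away.algebraMap_isUnit s
  have hsurj : ∀ a : A, ∃ (n : ℕ) (b : B), a * algebraMap B A s ^ n = algebraMap B A b :=
    fun a => IsLocalization.Away.surj s a
  have hreg : ∀ a b : A, algebraMap Rr A (X 1) * a = algebraMap Rr A (X 0) * b →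
      algebraMap Rr A (X 0) ∣ a := by
    intro a b h
    obtain ⟨n, a', ha⟩ := hsurj a
    obtain ⟨m, b', hb⟩ := hsurj b
    have h1 : algebraMap Rr B (X 1) * (a' * s ^ m) = algebraMap Rr B (X 0) * (b' * s ^ n) := by
      apply hinjA
      simp only [map_mul, map_pow, ← hmap, ← ha, ← hb]
      linear_combination (algebraMap B A s ^ n * algebraMap B A s ^ m) * h
    have h2 := map_dvd (algebraMap B A) (hreg_of_free B _ _ h1)
    rw [← hmap, map_mul, map_pow, ← ha, mul_assoc, ← pow_add] at h2
    exact ((hsu.pow _).dvd_mul_right).mp h2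
  have hint : ∀ b : B, IsIntegral Rr (algebraMap B A b) := fun b =>
    (Algebra.IsIntegral.isIntegral (R := Rr) b).map (IsScalarTower.toAlgHom Rr B A)
  have hA : LocInt Rr A := by
    intro a
    obtain ⟨n, b, hb⟩ := hsurj a
    refine ⟨algebraMap B A s ^ n, hsu.pow _, (hint s).pow _, ?_⟩
    rw [mul_comm, hb]; exact hint b
  have hft : Algebra.FiniteType ℂ A := by
    have h1 : Algebra.FiniteType ℂ B := Algebra.FiniteType.trans (S := Rr) inferInstance inferInstance
    have h2 : Algebra.FiniteType B A := IsLocalization.finiteType_of_monoid_fg (Submonoid.powers s) A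
    exact h1.trans h2
  have : IsNoetherianRing A := Algebra.FiniteType.isNoetherianRing ℂ A
  obtain ⟨E₁, hE₁⟩ := exists_der_localization (Submonoid.powers s) A D₁
  obtain ⟨E₂, hE₂⟩ := exists_der_localization (Submonoid.powers s) A D₂
  have hdelta : ∀ x ∈ deltaIdeal D₁ D₂, algebraMap B A x ∈ deltaIdeal E₁ E₂ := by
    intro x hx
    have : deltaIdeal D₁ D₂ ≤ (deltaIdeal E₁ E₂).comap (algebraMap B A) := by
      refine Ideal.span_le.mpr ?_
      rintro _ ⟨a, b, rfl⟩
      simp only [SetLike.mem_coe, Ideal.mem_comap, map_sub, map_mul, ← hE₁, ← hE₂]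
      exact delta_mem _ _ _ _
    exact this hx
  have hpow : ∀ r : Rr, s * algebraMap Rr B r ^ N ∈ deltaIdeal D₁ D₂ →
      algebraMap Rr A r ^ N ∈ deltaIdeal E₁ E₂ := by
    intro r hr
    have := hdelta _ hr
    rw [map_mul, map_pow, ← hmap] at this
    exact (Ideal.unit_mul_mem_iff_mem _ hsu).mp this
  have hfA := hpow _ hf
  have htA := hpow _ ht
  have hηs : IsUnit (η s) := TrivSqZeroExt.isUnit_iff_isUnit_fst.mpr (isUnit_iff_ne_zero.mpr hs)
  let η' : A →ₐ[ℂ] TrivSqZeroExt ℂ (Fin 3 → ℂ) :=
    IsLocalization.liftAlgHom (M := Submonoid.powers s) (f := η) (by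
      rintro ⟨_, n, rfl⟩
      simpa using hηs.pow n)
  have hη' : ∀ b : B, η' (algebraMap B A b) = η b := fun b => by
    simp [η', IsLocalization.liftAlgHom_apply]
  have hη'surj : Function.Surjective η' := fun y => by
    obtain ⟨b, rfl⟩ := hη y
    exact ⟨_, hη' b⟩
  have hle := ringKrullDim_le_two hA
  have hge := two_le_ringKrullDim (algebraMap Rr A (X 0)) (algebraMap Rr A (X 1)) hf0 hreg
    ((TrivSqZeroExt.fstHom ℂ ℂ (Fin 3 → ℂ)).comp η').toRingHom
    (by simpa [hmap, hη'] using hηf) (by simpa [hmap, hη'] using hηt)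
  obtain ⟨d, hd, hcond⟩ := exists_conductor_away s hs0 A (exists_conductor hinjB)
  exact ⟨A, inferInstance, inferInstance, inferInstance, hft,
    isIntegrallyClosed_of_delta hA E₁ E₂ hf0 hreg N hfA htA d hd hcond, le_antisymm hle hge,
    free_of_delta _ _ E₁ E₂ (der_eq_zero hA) hf0 hreg N hfA htA,
    exists_not_regular η' hη'surj hle⟩

end Crest.Agent.R278
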