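import Crest.Agent.R278.Gen

/-!
# Row 278: the Pfaffian format and the multiplication table
-/

set_option autoImplicit false
set_option linter.unusedTactic false
set_option linter.unreachableTactic false

namespace Crest.Agent.R278

/-- A skew `5 × 5` matrix. -/
structure Sk (α : Type*) where
  (m12 m13 m14 m15 m23 m24 m25 m34 m35 m45 : α)

/-- Five coordinates. -/
@[ext] structure V5 (α : Type*) where
  (x1 x2 x3 x4 x5 : α)

section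
variable {α : Type*} [CommRing α]

def V5.zero : V5 α := ⟨0, 0, 0, 0, 0⟩

/-- The (signed) `4 × 4` Pfaffians. -/
def Sk.pf (M : Sk α) : V5 α :=
  ⟨M.m23 * M.m45 - M.m24 * M.m35 + M.m25 * M.m34,
   -(M.m13 * M.m45 - M.m14 * M.m35 + M.m15 * M.m34),
   M.m12 * M.m45 - M.m14 * M.m25 + M.m15 * M.m24,
   -(M.m12 * M.m35 - M.m13 * M.m25 + M.m15 * M.m23),
   M.m12 * M.m34 - M.m13 * M.m24 + M.m14 * M.m23⟩

/-- The differential of `pf` at `M` in the direction `N`. -/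
def Sk.pol (M N : Sk α) : V5 α :=
  ⟨M.m23 * N.m45 + N.m23 * M.m45 - (M.m24 * N.m35 + N.m24 * M.m35) + (M.m25 * N.m34 + N.m25 * M.m34),
   -(M.m13 * N.m45 + N.m13 * M.m45 - (M.m14 * N.m35 + N.m14 * M.m35) + (M.m15 * N.m34 + N.m15 * M.m34)),
   M.m12 * N.m45 + N.m12 * M.m45 - (M.m14 * N.m25 + N.m14 * M.m25) + (M.m15 * N.m24 + N.m15 * M.m24),
   -(M.m12 * N.m35 + N.m12 * M.m35 - (M.m13 * N.m25 + N.m13 * M.m25) + (M.m15 * N.m23 + N.m15 * M.m23)),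
   M.m12 * N.m34 + N.m12 * M.m34 - (M.m13 * N.m24 + N.m13 * M.m24) + (M.m14 * N.m23 + N.m14 * M.m23)⟩

/-- Matrix times vector. -/
def Sk.app (M : Sk α) (v : V5 α) : V5 α :=
  ⟨M.m12 * v.x2 + M.m13 * v.x3 + M.m14 * v.x4 + M.m15 * v.x5,
   -(M.m12 * v.x1) + M.m23 * v.x3 + M.m24 * v.x4 + M.m25 * v.x5,
   -(M.m13 * v.x1) - M.m23 * v.x2 + M.m34 * v.x4 + M.m35 * v.x5,
   -(M.m14 * v.x1) - M.m24 * v.x2 - M.m34 * v.x3 + M.m45 * v.x5,
   -(M.m15 * v.x1) - M.m25 * v.x2 - M.m35 * v.x3 - M.m45 * v.x4⟩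

/-- The direction `∂/∂s`. -/
def eS : Sk α := ⟨0, 0, 1, 0, 0, 0, 1, 0, 0, 0⟩

/-- The direction `∂/∂y`. -/
def eY : Sk α := ⟨0, 0, 0, 0, 0, 1, 0, 0, 1, 0⟩

/-- The skew form of `eS`. -/
def formS (v w : V5 α) : α := v.x1 * w.x4 - v.x4 * w.x1 + v.x2 * w.x5 - v.x5 * w.x2

/-- The skew form of `eY`. -/
def formY (v w : V5 α) : α := v.x2 * w.x4 - v.x4 * w.x2 + v.x3 * w.x5 - v.x5 * w.x3

/-- The functional on the normal module that kills `∂/∂s` and `∂/∂y`. -/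
def ell (M : Sk α) (v : V5 α) : α := formY v (M.pol eS)

/-- The matrix of the format. -/
def mat (p : Par α) (g s y : α) : Sk α :=
  ⟨g - p.f ^ 2, p.f ^ 2, s, p.f * (g - p.f ^ 2) + p.C, p.t - g - p.f ^ 2,
   y - (p.B - p.E - p.F) + (p.f ^ 3 - p.f * p.t), s - (p.C - p.E) + (p.f ^ 3 - p.f * p.t),
   p.f * (p.t - g - p.f ^ 2) + p.B, y,
   -((p.t - g - p.f ^ 2) * (g - p.f ^ 2)) + p.f * (p.B + p.C) + (p.m * g + p.n)⟩

/-- The differential of `mat`. -/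
def dmat (p d : Par α) (g dg ds dy : α) : Sk α :=
  ⟨dg - 2 * p.f * d.f, 2 * p.f * d.f, ds, d.f * (g - p.f ^ 2) + p.f * (dg - 2 * p.f * d.f) + d.C,
   d.t - dg - 2 * p.f * d.f,
   dy - (d.B - d.E - d.F) + (3 * p.f ^ 2 * d.f - (d.f * p.t + p.f * d.t)),
   ds - (d.C - d.E) + (3 * p.f ^ 2 * d.f - (d.f * p.t + p.f * d.t)),
   d.f * (p.t - g - p.f ^ 2) + p.f * (d.t - dg - 2 * p.f * d.f) + d.B, dy,
   -((d.t - dg - 2 * p.f * d.f) * (g - p.f ^ 2) + (p.t - g - p.f ^ 2) * (dg - 2 * p.f * d.f)) +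
     (d.f * (p.B + p.C) + p.f * (d.B + d.C)) + (d.m * g + p.m * dg + d.n)⟩

def Par.zero : Par α := ⟨0, 0, 0, 0, 0, 0, 0, 0⟩

def uu (p : Par α) (g s y : α) : α := p.f * (s + y + p.E) - g * (p.t - g)

/-- The basis `1, g, s, y, u, g u`. -/
def bas (p : Par α) (g s y : α) : V6 α := ⟨1, g, s, y, uu p g s y, g * uu p g s y⟩

theorem app_pol (M N : Sk α) (h : M.pf = V5.zero) : M.app (M.pol N) = V5.zero := by
  have h1 := congrArg V5.x1 h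
  have h2 := congrArg V5.x2 h
  have h3 := congrArg V5.x3 h
  have h4 := congrArg V5.x4 h
  have h5 := congrArg V5.x5 h
  simp only [Sk.pf, V5.zero] at h1 h2 h3 h4 h5
  ext <;> simp only [Sk.app, Sk.pol, V5.zero]
  · linear_combination -(N.m12 * h2 + N.m13 * h3 + N.m14 * h4 + N.m15 * h5)
  · linear_combination -(-N.m12 * h1 + N.m23 * h3 + N.m24 * h4 + N.m25 * h5)
  · linear_combination -(-N.m13 * h1 - N.m23 * h2 + N.m34 * h4 + N.m35 * h5)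
  · linear_combination -(-N.m14 * h1 - N.m24 * h2 - N.m34 * h3 + N.m45 * h5)
  · linear_combination -(-N.m15 * h1 - N.m25 * h2 - N.m35 * h3 - N.m45 * h4)

/-- Four vectors in the kernel of a skew matrix of rank two are dependent. -/
theorem four_dep (M : Sk α) (v w : V5 α) (hv : M.app v = V5.zero) (hw : M.app w = V5.zero) :
    ell M w * v.x1 - ell M v * w.x1 + formY v w * (M.pol eS).x1 - formS v w * (M.pol eY).x1 = 0 ∧
    ell M w * v.x2 - ell M v * w.x2 + formY v w * (M.pol eS).x2 - formS v w * (M.pol eY).x2 = 0 ∧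
    ell M w * v.x3 - ell M v * w.x3 + formY v w * (M.pol eS).x3 - formS v w * (M.pol eY).x3 = 0 ∧
    ell M w * v.x4 - ell M v * w.x4 + formY v w * (M.pol eS).x4 - formS v w * (M.pol eY).x4 = 0 ∧
    ell M w * v.x5 - ell M v * w.x5 + formY v w * (M.pol eS).x5 - formS v w * (M.pol eY).x5 = 0 := by
  have a1 := congrArg V5.x1 hv
  have a2 := congrArg V5.x2 hv
  have a3 := congrArg V5.x3 hv
  have a4 := congrArg V5.x4 hv
  have a5 := congrArg V5.x5 hv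
  have b1 := congrArg V5.x1 hw
  have b2 := congrArg V5.x2 hw
  have b3 := congrArg V5.x3 hw
  have b4 := congrArg V5.x4 hw
  have b5 := congrArg V5.x5 hw
  simp only [Sk.app, V5.zero] at a1 a2 a3 a4 a5 b1 b2 b3 b4 b5
  simp only [ell, formY, formS, Sk.pol, eS, eY]
  refine ⟨?_, ?_, ?_, ?_, ?_⟩
  · linear_combination -w.x2 * a3 + v.x2 * b3 + v.x5 * b4 - w.x5 * a4 - w.x1 * a2 + v.x1 * b2
  · linear_combination -w.x3 * a3 - w.x5 * a5 - v.x4 * b4 - w.x2 * a2 - v.x1 * b1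
  · linear_combination -v.x4 * b5 + w.x4 * a5 + w.x2 * a1 - v.x2 * b1
  · linear_combination -w.x4 * a2 + v.x4 * b2 - v.x5 * b1 + w.x5 * a1
  · linear_combination -w.x4 * a3 + v.x4 * b3

variable {p : Par α} {g s y : α}

theorem rels (h : (mat p g s y).pf = V5.zero) :
    p.f^2*p.E + p.f^2*s + p.f^2*y - p.f*p.t*g + p.f*g^2 - p.t*p.C + p.C*g - g*y = 0 ∧
    p.f^2*p.E + p.f^2*p.F + p.f^2*s + p.f^2*y - p.f*p.t*g + p.f*g^2 - p.t*s - p.B*g + g*s = 0 ∧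
    p.f*p.t*p.E + p.f*p.t*s + p.f*p.t*y - p.f*p.E*g - p.f*g*s - p.f*g*y - p.t^2*g + p.t*p.m*g + p.t*p.n + 2*p.t*g^2 + p.B*p.E + p.B*s + p.B*y - p.E*y - p.F*y - p.m*g^2 - p.n*g - g^3 - s*y - y^2 = 0 ∧
    p.f*p.E*g + p.f*p.F*g + p.f*g*s + p.f*g*y - p.t*g^2 + p.C*p.E + p.C*p.F + p.C*s + p.C*y - p.E*s + p.m*g^2 + p.n*g + g^3 - s^2 - s*y = 0 ∧
    -p.f^2*p.m*g - p.f^2*p.n - p.f*p.t*p.C - p.f*p.B*g + p.f*p.C*g - p.B*p.C + s*y = 0 := by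
  have h1 := congrArg V5.x1 h
  have h2 := congrArg V5.x2 h
  have h3 := congrArg V5.x3 h
  have h4 := congrArg V5.x4 h
  have h5 := congrArg V5.x5 h
  simp only [Sk.pf, V5.zero, mat] at h1 h2 h3 h4 h5
  refine ⟨?_, ?_, ?_, ?_, ?_⟩
  · linear_combination h4
  · linear_combination -h5
  · linear_combination h1 - h2 + p.f * h4
  · linear_combination h3 - h2 - p.f * h5
  · linear_combination h2

theorem dot_rgg (h : (mat p g s y).pf = V5.zero) :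
    (rgg p).dot (bas p g s y) = g * g := by
  obtain ⟨h1, h2, h3, h4, h5⟩ := rels h
  simp only [rgg, V6.dot, bas, uu]; push_cast
  ring

theorem dot_rgs (h : (mat p g s y).pf = V5.zero) :
    (rgs p).dot (bas p g s y) = g * s := by
  obtain ⟨h1, h2, h3, h4, h5⟩ := rels h
  simp only [rgs, V6.dot, bas, uu]; push_cast
  linear_combination (-1) * h2

theorem dot_rgy (h : (mat p g s y).pf = V5.zero) :
    (rgy p).dot (bas p g s y) = g * y := by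
  obtain ⟨h1, h2, h3, h4, h5⟩ := rels h
  simp only [rgy, V6.dot, bas, uu]; push_cast
  linear_combination (1) * h1

theorem dot_rgz (h : (mat p g s y).pf = V5.zero) :
    (rgz p).dot (bas p g s y) = g * (g * uu p g s y) := by
  obtain ⟨h1, h2, h3, h4, h5⟩ := rels h
  simp only [rgz, V6.dot, bas, uu]; push_cast
  linear_combination (p.f*p.m - p.C + s) * h1 + (-p.f*p.m - p.B - p.E - s) * h2 + (p.t - g) * h4 + (p.t) * h5

theorem dot_rss (h : (mat p g s y).pf = V5.zero) :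
    (rss p).dot (bas p g s y) = s * s := by
  obtain ⟨h1, h2, h3, h4, h5⟩ := rels h
  simp only [rss, V6.dot, bas, uu]; push_cast
  linear_combination (1) * h4 + (1) * h5

theorem dot_rsy (h : (mat p g s y).pf = V5.zero) :
    (rsy p).dot (bas p g s y) = s * y := by
  obtain ⟨h1, h2, h3, h4, h5⟩ := rels h
  simp only [rsy, V6.dot, bas, uu]; push_cast
  linear_combination (-1) * h5

theorem dot_rsu (h : (mat p g s y).pf = V5.zero) :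
    (rsu p).dot (bas p g s y) = s * uu p g s y := by
  obtain ⟨h1, h2, h3, h4, h5⟩ := rels h
  simp only [rsu, V6.dot, bas, uu]; push_cast
  linear_combination (-g) * h2 + (p.f) * h4

theorem dot_ryy (h : (mat p g s y).pf = V5.zero) :
    (ryy p).dot (bas p g s y) = y * y := by
  obtain ⟨h1, h2, h3, h4, h5⟩ := rels h
  simp only [ryy, V6.dot, bas, uu]; push_cast
  linear_combination (1) * h3 + (1) * h5

theorem dot_ryu (h : (mat p g s y).pf = V5.zero) :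
    (ryu p).dot (bas p g s y) = y * uu p g s y := by
  obtain ⟨h1, h2, h3, h4, h5⟩ := rels h
  simp only [ryu, V6.dot, bas, uu]; push_cast
  linear_combination (-p.t + g) * h1 + (p.f) * h3

theorem dot_piG (h : (mat p g s y).pf = V5.zero) :
    (piG p).dot (bas p g s y) =
      ell (mat p g s y) ((mat p g s y).pol (dmat p Par.zero g 1 0 0)) := by
  obtain ⟨h1, h2, h3, h4, h5⟩ := rels h
  simp only [piG, V6.dot, bas, uu, ell, formY, Sk.pol, mat, dmat, eS, Par.zero]; push_cast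
  linear_combination (p.f) * h2 + (1) * h3 + (-2) * h4 + (-1) * h5

theorem dot_piD (h : (mat p g s y).pf = V5.zero) (d : Par α) :
    (piD p d).dot (bas p g s y) =
      ell (mat p g s y) ((mat p g s y).pol (dmat p d g 0 0 0)) := by
  obtain ⟨h1, h2, h3, h4, h5⟩ := rels h
  simp only [piD, V6.add, V6.smul, lamf, lamt, lamB, lamC, lamE, lamF, lamm, lamn, V6.dot, bas, uu, ell, formY, Sk.pol, mat, dmat, eS]; push_cast
  linear_combination d.f * ((2*p.t - 2*g) * h1 + (-p.f^2 + p.t + 2*g) * h2 + (-2*p.f) * h3 + (-4*p.f) * h4) +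
    d.t * ((2) * h4 + (2) * h5) +
    d.B * ((-2) * h2) +
    d.C * ((-2) * h1 + (1) * h2) +
    d.E * ((-1) * h2) +
    d.m * ((p.f) * h1 + (-p.f) * h2)

theorem ell_eY (h : (mat p g s y).pf = V5.zero) :
    ell (mat p g s y) ((mat p g s y).pol eY) = 0 := by
  obtain ⟨h1, h2, h3, h4, h5⟩ := rels h
  simp only [ell, formY, Sk.pol, mat, eS, eY]
  linear_combination (-1) * h1

theorem ell_eS (M : Sk α) : ell M (M.pol eS) = 0 := by
  simp only [ell, formY]; ring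

theorem dot_comb (x b : V6 α) (T : V6 (V6 α)) :
    (x.comb T).dot b = x.dot (T.map fun v => v.dot b) := by
  simp only [V6.comb, V6.dot, V6.map]; ring

theorem dot_add (x x' b : V6 α) : (x.add x').dot b = x.dot b + x'.dot b := by
  simp only [V6.add, V6.dot]; ring

theorem dot_smul (r : α) (x b : V6 α) : (V6.smul r x).dot b = r * x.dot b := by
  simp only [V6.smul, V6.dot]; ring

theorem dot_tabG (h : (mat p g s y).pf = V5.zero) (x : V6 α) :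
    (x.comb (tabG p)).dot (bas p g s y) = g * x.dot (bas p g s y) := by
  rw [dot_comb]
  simp only [tabG, V6.map, dot_rgg h, dot_rgs h, dot_rgy h, dot_rgz h]
  simp only [V6.dot, bas]; push_cast; ring

theorem dot_tabS (h : (mat p g s y).pf = V5.zero) (x : V6 α) :
    (x.comb (tabS p)).dot (bas p g s y) = s * x.dot (bas p g s y) := by
  rw [dot_comb]
  simp only [tabS, V6.map, dot_rgs h, dot_rss h, dot_rsy h, dot_rsu h, dot_tabG h]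
  simp only [V6.dot, bas]; push_cast; ring

theorem dot_tabY (h : (mat p g s y).pf = V5.zero) (x : V6 α) :
    (x.comb (tabY p)).dot (bas p g s y) = y * x.dot (bas p g s y) := by
  rw [dot_comb]
  simp only [tabY, V6.map, dot_rgy h, dot_rsy h, dot_ryy h, dot_ryu h, dot_tabG h]
  simp only [V6.dot, bas]; push_cast; ring

theorem dot_mulU (h : (mat p g s y).pf = V5.zero) (x : V6 α) :
    (mulU p x).dot (bas p g s y) = uu p g s y * x.dot (bas p g s y) := by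
  simp only [mulU, dot_add, dot_smul, dot_tabG h, dot_tabS h, dot_tabY h, uu]; ring

theorem dot_six (h : (mat p g s y).pf = V5.zero) (c x : V6 α) :
    (c.comb (six p x)).dot (bas p g s y) = c.dot (bas p g s y) * x.dot (bas p g s y) := by
  rw [dot_comb]
  simp only [six, V6.map, dot_tabG h, dot_tabS h, dot_tabY h, dot_mulU h]
  generalize x.dot (bas p g s y) = z
  simp only [V6.dot, bas]; ring

theorem dot_resid (h : (mat p g s y).pf = V5.zero) (df dt : Par α) (cf ct cg : V6 α) :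
    (resid p df dt cf ct cg).dot (bas p g s y) =
      cf.dot (bas p g s y) * (piD p df).dot (bas p g s y) +
      ct.dot (bas p g s y) * (piD p dt).dot (bas p g s y) +
      cg.dot (bas p g s y) * (piG p).dot (bas p g s y) := by
  simp only [resid, dot_add, dot_six h]

/-! ### Elimination of `s` and `y` -/

def kap (p : Par α) (g : α) : α := g ^ 2 - p.t * g + p.f ^ 2 * p.t

def numS (p : Par α) (g : α) : α :=
  p.f^4*p.F + p.f^2*p.t*p.C - p.f^2*p.B*g - p.f^2*p.C*g - p.f^2*p.E*g - p.f^2*p.F*g + p.f*p.t*g^2 - p.f*g^3 + p.B*g^2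

def numY (p : Par α) (g : α) : α :=
  -p.f^4*p.F - p.f^2*p.t*p.C - p.f^2*p.t*p.E + p.f^2*p.B*g + p.f^2*p.C*g + p.f^2*p.E*g + p.f*p.t^2*g - 2*p.f*p.t*g^2 + p.f*g^3 + p.t^2*p.C - 2*p.t*p.C*g + p.C*g^2

def chi0 (p : Par α) : α :=
  p.f^6*p.F^2 + p.f^4*p.t^2*p.n + 2*p.f^4*p.t*p.C*p.F + p.f^4*p.t*p.E*p.F + p.f^3*p.t^3*p.C + p.f^2*p.t^2*p.B*p.C + p.f^2*p.t^2*p.C^2 + p.f^2*p.t^2*p.C*p.E - p.f^2*p.t^2*p.C*p.F - p.t^3*p.C^2

def chi1 (p : Par α) : α :=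
  p.f^4*p.t^2*p.m - 2*p.f^4*p.B*p.F - 2*p.f^4*p.C*p.F - 2*p.f^4*p.E*p.F - p.f^4*p.F^2 + p.f^3*p.t^2*p.B - p.f^3*p.t^2*p.C - p.f^3*p.t^2*p.F - 2*p.f^2*p.t^2*p.n - 2*p.f^2*p.t*p.B*p.C - p.f^2*p.t*p.B*p.E - 2*p.f^2*p.t*p.C^2 - 3*p.f^2*p.t*p.C*p.E + p.f^2*p.t*p.C*p.F - p.f^2*p.t*p.E^2 - p.f^2*p.t*p.E*p.F - 3*p.f*p.t^3*p.C - p.t^2*p.B*p.C + 3*p.t^2*p.C^2 + p.t^2*p.C*p.E + p.t^2*p.C*p.F

def chi2 (p : Par α) : α :=
  3*p.f^3*p.t*p.F - 2*p.f^2*p.t^2*p.m + 2*p.f^2*p.t*p.n + p.f^2*p.B^2 + 2*p.f^2*p.B*p.C + 2*p.f^2*p.B*p.E + 2*p.f^2*p.B*p.F + p.f^2*p.C^2 + 2*p.f^2*p.C*p.E + p.f^2*p.E^2 + p.f^2*p.E*p.F - p.f*p.t^2*p.B + 8*p.f*p.t^2*p.C + 2*p.f*p.t^2*p.E + p.f*p.t^2*p.F + p.t^2*p.n + p.t*p.B*p.C + p.t*p.B*p.E - 3*p.t*p.C^2 - 2*p.t*p.C*p.E - 2*p.t*p.C*p.F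

def chi3 (p : Par α) : α :=
  -2*p.f^3*p.F + 2*p.f^2*p.t*p.m - p.f*p.t*p.B - 7*p.f*p.t*p.C - 4*p.f*p.t*p.E - 2*p.f*p.t*p.F - p.t^3 + p.t^2*p.m - 2*p.t*p.n - p.B^2 - p.B*p.E + p.C^2 + p.C*p.E + p.C*p.F

def chi4 (p : Par α) : α :=
  2*p.f*p.B + 2*p.f*p.C + 2*p.f*p.E + p.f*p.F + 3*p.t^2 - 2*p.t*p.m + p.n

def chi5 (p : Par α) : α :=
  -3*p.t + p.m

def chi (p : Par α) (g : α) : α :=
  g ^ 6 + chi5 p * g ^ 5 + chi4 p * g ^ 4 + chi3 p * g ^ 3 + chi2 p * g ^ 2 + chi1 p * g + chi0 p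

/-- Cramer's rule: a root `g` of `chi` with `kap` invertible gives a solution of the equations. -/
theorem pf_of_root (p : Par α) (g k : α) (hk : kap p g * k = 1) (hg : chi p g = 0) :
    (mat p g (numS p g * k) (numY p g * k)).pf = V5.zero := by
  simp only [chi, chi0, chi1, chi2, chi3, chi4, chi5] at hg
  simp only [kap] at hk
  ext <;> simp only [Sk.pf, mat, V5.zero, numS, numY]
  · linear_combination (k ^ 2 * (-p.f^2 + p.t - g)) * hg -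
      ((p.f^5*p.t*p.E - p.f^4*p.t^2*g + p.f^4*p.t*g^2 + p.f^4*p.E*p.F + p.f^4*p.F^2 - p.f^3*p.t^2*p.C - p.f^3*p.t^2*p.E + p.f^3*p.t*p.C*g - p.f^3*p.t*p.F*g + p.f^3*p.E*g^2 + p.f^3*p.F*g^2 + p.f^2*p.t^3*g - p.f^2*p.t^2*g^2 - p.f^2*p.t*p.B*p.E + p.f^2*p.t*p.C*p.E + p.f^2*p.t*p.C*p.F + p.f^2*p.t*p.E^2 + p.f^2*p.t*p.E*p.F - p.f^2*p.t*g^3 - p.f^2*p.B*p.E*g - 2*p.f^2*p.B*p.F*g - p.f^2*p.C*p.E*g - p.f^2*p.C*p.F*g - p.f^2*p.E^2*g - p.f^2*p.E*p.F*g + p.f^2*g^4 + p.f*p.t^3*p.C + p.f*p.t^2*p.B*g - 2*p.f*p.t^2*p.C*g - p.f*p.t^2*p.E*g - p.f*p.t^2*p.F*g + p.f*p.t*p.C*g^2 + 2*p.f*p.t*p.E*g^2 + 2*p.f*p.t*p.F*g^2 - p.f*p.B*g^3 - p.f*p.E*g^3 - p.f*p.F*g^3 + p.t^2*p.B*p.C - p.t^2*p.C*p.E - p.t^2*p.C*p.F - 2*p.t*p.B*p.C*g + 2*p.t*p.C*p.E*g + 2*p.t*p.C*p.F*g + p.B^2*g^2 + p.B*p.C*g^2 - p.C*p.E*g^2 - p.C*p.F*g^2) * k + (-p.f^3*p.E + p.f^2*p.t*g - p.f^2*p.m*g - p.f^2*p.n - p.f^2*g^2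 + p.f*p.t*p.E - p.f*p.B*g - p.f*p.E*g - p.t^2*g + p.t*p.m*g + p.t*p.n + 2*p.t*g^2 - p.B*p.C + p.B*p.E - p.m*g^2 - p.n*g - g^3) * (1 + (p.f^2*p.t - p.t*g + g^2) * k)) * hk
  · linear_combination (k ^ 2 * (-p.f^2)) * hg -
      ((0) * k + (-p.f^2*p.m*g - p.f^2*p.n - p.f*p.t*p.C - p.f*p.B*g + p.f*p.C*g - p.B*p.C) * (1 + (p.f^2*p.t - p.t*g + g^2) * k)) * hk
  · linear_combination (k ^ 2 * (-p.f^2 + g)) * hg -
      ((p.f^5*p.t*p.E + p.f^5*p.t*p.F - p.f^4*p.t^2*g + p.f^4*p.t*g^2 - p.f^4*p.E*p.F - p.f^3*p.t*p.B*g - 2*p.f^3*p.t*p.E*g - p.f^3*p.t*p.F*g + p.f^3*p.E*g^2 + 2*p.f^2*p.t^2*g^2 - 2*p.f^2*p.t*p.C*p.E - 3*p.f^2*p.t*g^3 + p.f^2*p.B*p.E*g + p.f^2*p.C*p.E*g - p.f^2*p.C*p.F*g + p.f^2*p.E^2*g + p.f^2*p.E*p.F*g + p.f^2*g^4 + 2*p.f*p.t^2*p.C*g + p.f*p.t*p.B*g^2 - 3*p.f*p.t*p.C*g^2 - p.f*p.t*p.E*g^2 + p.f*p.C*g^3 + p.f*p.E*g^3 + p.t^2*p.C^2 - 2*p.t*p.C^2*g + p.B*p.C*g^2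 - p.B*p.E*g^2 + p.C^2*g^2) * k + (-p.f^3*p.E - p.f^3*p.F + p.f^2*p.t*g - p.f^2*p.m*g - p.f^2*p.n - p.f^2*g^2 - p.f*p.t*p.C + p.f*p.C*g + p.f*p.E*g + p.f*p.F*g - p.t*g^2 - p.B*p.C + p.C*p.E + p.C*p.F + p.m*g^2 + p.n*g + g^3) * (1 + (p.f^2*p.t - p.t*g + g^2) * k)) * hk
  · linear_combination -(p.f^2*p.E - p.f*p.t*g + p.f*g^2 - p.t*p.C + p.C*g) * hk
  · linear_combination -(-p.f^2*p.E - p.f^2*p.F + p.f*p.t*g - p.f*g^2 + p.B*g) * hk


end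

end Crest.Agent.R278
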