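import Crest.Agent.R278.Data

/-!
# Row 278: the checkers run by the kernel
-/

set_option autoImplicit false

namespace Crest.Agent.R278

def residK (e K n : ℕ) (c : W3) : V6 (KN e K n) :=
  resid (parD.map KN.ofD) ((parD.map dF).map KN.ofD) ((parD.map dT).map KN.ofD)
    (c.cf.map KN.ofD) (c.ct.map KN.ofD) (c.cg.map KN.ofD)

/-- The approximate syzygy lies in the filtration step `26`. -/
def chk1 (c : W3) : Bool :=
  (residK 2624 9 26 c).c0.isZero 26 && (residK 2624 9 26 c).c1.isZero 23 &&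
    (residK 2624 9 26 c).c2.isZero 21 && (residK 2624 9 26 c).c3.isZero 21 &&
    (residK 2624 9 26 c).c4.isZero 19 && (residK 2624 9 26 c).c5.isZero 16

def slotD (code c w : ℕ) : Dat :=
  ((List.range 3).flatMap fun r => (List.range ((w + r) / 3 + 1)).map fun j =>
    (w + r - 3 * j, j, Int.ofNat (Nat.land (Nat.shiftRight code (4 * ((c * 3 + r) * 8 + j))) 15))).filter
    fun x => x.2.2 != 0

def decV (code c w : ℕ) : V6 Dat :=
  ⟨slotD code c w, slotD code (c + 1) (w - 3), slotD code (c + 2) (w - 5), slotD code (c + 3) (w - 5),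
    slotD code (c + 4) (w - 7), slotD code (c + 5) (w - 10)⟩

def decC (code : ℕ) : W3 := ⟨decV code 0 14, decV code 6 16, decV code 12 16⟩

def V6.all {α : Type*} (h : α → Bool) (x : V6 α) : Bool :=
  h x.c0 && h x.c1 && h x.c2 && h x.c3 && h x.c4 && h x.c5

/-- Minus the generator number `b` of the filtration step in the coordinate `k`. -/
def genD (k : Fin 6) (j b : ℕ) : V6 Dat :=
  ⟨if k = 0 then [(j - 3 * b, b, -1)] else [], if k = 1 then [(j - 3 * b, b, -1)] else [],
   if k = 2 then [(j - 3 * b, b, -1)] else [], if k = 3 then [(j - 3 * b, b, -1)] else [],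
   if k = 4 then [(j - 3 * b, b, -1)] else [], if k = 5 then [(j - 3 * b, b, -1)] else []⟩

def thr : V6 ℕ := ⟨26, 23, 21, 21, 19, 16⟩

def chkRows (z : V6 (KN 2336 10 29)) : Bool :=
  z.c0.chkRow 26 13 && z.c1.chkRow 23 13 && z.c2.chkRow 21 13 && z.c3.chkRow 21 13 &&
    z.c4.chkRow 19 13 && z.c5.chkRow 16 13

def chk2 (k : Fin 6) (b : ℕ) : Bool :=
  (decC ((codes.get k).getD b 0)).cf.all (wtOK 1) && (decC ((codes.get k).getD b 0)).ct.all (wtOK 1) &&
    (decC ((codes.get k).getD b 0)).cg.all (wtOK 1) &&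
    chkRows ((residK 2336 10 29 (decC ((codes.get k).getD b 0))).add
      ((genD k (thr.get k) b).map KN.ofD))

end Crest.Agent.R278
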