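import Mathlib

/-!
# Row 278 (Lipman–Zariski counterexample): shared definitions for the abstract part

`Rr = ℂ[f,t]` with `f = X 0`, `t = X 1`.
-/

set_option autoImplicit false

namespace Crest.Agent.R278

/-- The base polynomial ring `ℂ[f,t]`. -/
abbrev Rr : Type := MvPolynomial (Fin 2) ℂ

/-- The ideal spanned by the `2 × 2` minors `D₁ a · D₂ b − D₁ b · D₂ a`. -/
def deltaIdeal {k A : Type*} [CommRing k] [CommRing A] [Algebra k A]
    (D₁ D₂ : Derivation k A A) : Ideal A :=
  Ideal.span {x | ∃ a b : A, x = D₁ a * D₂ b - D₁ b * D₂ a}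

theorem delta_mem {k A : Type*} [CommRing k] [CommRing A] [Algebra k A]
    (D₁ D₂ : Derivation k A A) (a b : A) : D₁ a * D₂ b - D₁ b * D₂ a ∈ deltaIdeal D₁ D₂ :=
  Ideal.subset_span ⟨a, b, rfl⟩

/-- Every element is a quotient of two elements integral over `R`, the denominator being a unit
(true for a localisation of an integral extension of `R`, and for all quotients of it). -/
def LocInt (R A : Type*) [CommRing R] [CommRing A] [Algebra R A] : Prop :=
  ∀ a : A, ∃ u : A, IsUnit u ∧ IsIntegral R u ∧ IsIntegral R (u * a)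

end Crest.Agent.R278
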