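import Crest.Agent.R278.Ring

/-!
# Row 278: derivations of `Bq p` from vectors in the kernel of the Jacobian; the singular point
-/

set_option autoImplicit false

noncomputable section

namespace Crest.Agent.R278

open MvPolynomial

/-- A `ℂ`-algebra map out of `Bq p` from a map on `Rr` and a solution of the equations. -/
theorem derAux_lift (p : Par Rr) {K : Type*} [CommRing K] [Algebra ℂ K] (φ₀ : Rr →ₐ[ℂ] K)
    (g s y : K) (h : (mat (p.map φ₀) g s y).pf = V5.zero) :
    ∃ φ : Bq p →ₐ[ℂ] K, (∀ r, φ (algebraMap Rr (Bq p) r) = φ₀ r) ∧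
      φ (gq p) = g ∧ φ (sq p) = s ∧ φ (yq p) = y := by
  have h1 := congrArg V5.x1 h
  have h2 := congrArg V5.x2 h
  have h3 := congrArg V5.x3 h
  have h4 := congrArg V5.x4 h
  have h5 := congrArg V5.x5 h
  simp only [Sk.pf, V5.zero, mat, Par.map] at h1 h2 h3 h4 h5
  have hk : ∀ a ∈ pfIdeal p, (aevalTower φ₀ ![g, s, y] : MvPolynomial (Fin 3) Rr →ₐ[ℂ] K) a = 0 := by
    intro a ha
    have hle : pfIdeal p ≤ RingHom.ker
        (aevalTower φ₀ ![g, s, y] : MvPolynomial (Fin 3) Rr →ₐ[ℂ] K) := by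
      rw [pfIdeal, Ideal.span_le]
      intro x hx
      simp only [Set.mem_insert_iff, Set.mem_singleton_iff] at hx
      rw [SetLike.mem_coe, RingHom.mem_ker]
      rcases hx with rfl | rfl | rfl | rfl | rfl <;>
        simp only [Sk.pf, mat, Par.map, map_add, map_sub, map_mul, map_neg, map_pow, aevalTower_C,
          aevalTower_X, Matrix.cons_val_zero, Matrix.cons_val_one, Matrix.cons_val]
      · exact h1
      · exact h2
      · exact h3
      · exact h4
      · exact h5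
    exact hle ha
  refine ⟨Ideal.Quotient.liftₐ (pfIdeal p) (aevalTower φ₀ ![g, s, y]) hk, fun r => ?_, ?_, ?_, ?_⟩
  · change (aevalTower φ₀ ![g, s, y] : MvPolynomial (Fin 3) Rr →ₐ[ℂ] K) (C r) = _
    rw [aevalTower_C]
  · change (aevalTower φ₀ ![g, s, y] : MvPolynomial (Fin 3) Rr →ₐ[ℂ] K) (X 0) = _
    rw [aevalTower_X]; rfl
  · change (aevalTower φ₀ ![g, s, y] : MvPolynomial (Fin 3) Rr →ₐ[ℂ] K) (X 1) = _
    rw [aevalTower_X]; rfl
  · change (aevalTower φ₀ ![g, s, y] : MvPolynomial (Fin 3) Rr →ₐ[ℂ] K) (X 2) = _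
    rw [aevalTower_X]; rfl

/-- The equations over the dual numbers. -/
theorem derAux_pf {B : Type*} [CommRing B] (P : Par (TrivSqZeroExt B B))
    (G S Y : TrivSqZeroExt B B)
    (h : (mat (P.map TrivSqZeroExt.fst) G.fst S.fst Y.fst).pf = V5.zero)
    (h' : (mat (P.map TrivSqZeroExt.fst) G.fst S.fst Y.fst).pol
      (dmat (P.map TrivSqZeroExt.fst) (P.map TrivSqZeroExt.snd) G.fst G.snd S.snd Y.snd) =
        V5.zero) : (mat P G S Y).pf = V5.zero := by
  have h1 := congrArg V5.x1 h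
  have h2 := congrArg V5.x2 h
  have h3 := congrArg V5.x3 h
  have h4 := congrArg V5.x4 h
  have h5 := congrArg V5.x5 h
  have k1 := congrArg V5.x1 h'
  have k2 := congrArg V5.x2 h'
  have k3 := congrArg V5.x3 h'
  have k4 := congrArg V5.x4 h'
  have k5 := congrArg V5.x5 h'
  simp only [Sk.pf, Sk.pol, V5.zero, mat, dmat, Par.map] at h1 h2 h3 h4 h5 k1 k2 k3 k4 k5
  have hm : ∀ x y : TrivSqZeroExt B B, (x * y).snd = x.fst * y.snd + x.snd * y.fst := by
    intro x y
    rw [TrivSqZeroExt.snd_mul]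
    simp [mul_comm]
  ext <;> simp only [Sk.pf, V5.zero, mat, pow_succ, pow_zero, one_mul, hm, TrivSqZeroExt.fst_add,
    TrivSqZeroExt.fst_sub, TrivSqZeroExt.fst_mul, TrivSqZeroExt.fst_neg, TrivSqZeroExt.fst_zero,
    TrivSqZeroExt.snd_add, TrivSqZeroExt.snd_sub, TrivSqZeroExt.snd_neg, TrivSqZeroExt.snd_zero]
  · linear_combination h1
  · linear_combination k1
  · linear_combination h2
  · linear_combination k2
  · linear_combination h3
  · linear_combination k3
  · linear_combination h4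
  · linear_combination k4
  · linear_combination h5
  · linear_combination k5

theorem derAux_ind (p : Par Rr) {Q : Bq p → Prop} (h0 : ∀ r, Q (algebraMap Rr (Bq p) r))
    (hadd : ∀ x y, Q x → Q y → Q (x + y)) (hmul : ∀ x y, Q x → Q y → Q (x * y))
    (hg : Q (gq p)) (hs : Q (sq p)) (hy : Q (yq p)) (x : Bq p) : Q x := by
  obtain ⟨x, rfl⟩ := Ideal.Quotient.mk_surjective x
  induction x using MvPolynomial.induction_on with
  | C r => exact h0 r
  | add x y hx hy => rw [map_add]; exact hadd _ _ hx hy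
  | mul_X x i hx =>
    rw [map_mul]
    refine hmul _ _ hx ?_
    fin_cases i
    · exact hg
    · exact hs
    · exact hy

theorem derAux_main {B : Type} [CommRing B] [Algebra ℂ B] [Algebra Rr B] [IsScalarTower ℂ Rr B]
    (p : Par Rr) (g s y a b c d e : B)
    (hpf : (mat (p.map (algebraMap Rr B)) g s y).pf = V5.zero)
    (h : (mat (p.map (algebraMap Rr B)) g s y).pol
      (dmat (p.map (algebraMap Rr B)) (p.map fun r => a * algebraMap Rr B (pderiv 0 r) +
        b * algebraMap Rr B (pderiv 1 r)) g c d e) = V5.zero)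
    (hlift : ∀ (K : Type) [CommRing K] [Algebra ℂ K] (φ₀ : Rr →ₐ[ℂ] K) (G S Y : K),
      (mat (p.map φ₀) G S Y).pf = V5.zero → ∃ φ : B →ₐ[ℂ] K,
        (∀ r, φ (algebraMap Rr B r) = φ₀ r) ∧ φ g = G ∧ φ s = S ∧ φ y = Y)
    (hind : ∀ Q : B → Prop, (∀ r, Q (algebraMap Rr B r)) → (∀ x y, Q x → Q y → Q (x + y)) →
      (∀ x y, Q x → Q y → Q (x * y)) → Q g → Q s → Q y → ∀ x, Q x) :
    ∃ D : Derivation ℂ B B, D (algebraMap Rr B (X 0)) = a ∧
      D (algebraMap Rr B (X 1)) = b ∧ D g = c := by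
  have hm : ∀ x y : TrivSqZeroExt B B, (x * y).snd = x.fst * y.snd + x.snd * y.fst := by
    intro x y
    rw [TrivSqZeroExt.snd_mul]
    simp [mul_comm]
  let φ₀ : Rr →ₐ[ℂ] TrivSqZeroExt B B := aeval
    ![TrivSqZeroExt.inl (algebraMap Rr B (X 0)) + TrivSqZeroExt.inr a,
      TrivSqZeroExt.inl (algebraMap Rr B (X 1)) + TrivSqZeroExt.inr b]
  have hX1 : ∀ i, (φ₀ (X i)).fst = algebraMap Rr B (X i) := by
    intro i
    fin_cases i <;> simp [φ₀]
  have hX2 : ∀ i, (φ₀ (X i)).snd = a * algebraMap Rr B (pderiv 0 (X i)) +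
      b * algebraMap Rr B (pderiv 1 (X i)) := by
    intro i
    fin_cases i <;> simp [φ₀, pderiv_X]
  have hφ₀ : ∀ r, (φ₀ r).fst = algebraMap Rr B r ∧
      (φ₀ r).snd = a * algebraMap Rr B (pderiv 0 r) + b * algebraMap Rr B (pderiv 1 r) := by
    intro r
    induction r using MvPolynomial.induction_on with
    | C c =>
      have h1 : φ₀ (C c) = algebraMap ℂ _ c := φ₀.commutes c
      rw [h1, TrivSqZeroExt.algebraMap_eq_inl', TrivSqZeroExt.fst_inl, TrivSqZeroExt.snd_inl,
        pderiv_C, pderiv_C, map_zero, mul_zero, mul_zero, add_zero]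
      exact ⟨IsScalarTower.algebraMap_apply ℂ Rr B c, rfl⟩
    | add x y hx hy =>
      simp only [map_add, TrivSqZeroExt.fst_add, TrivSqZeroExt.snd_add, hx.1, hx.2, hy.1, hy.2]
      exact ⟨trivial, by ring⟩
    | mul_X x i hx =>
      rw [map_mul, TrivSqZeroExt.fst_mul, hm, hx.1, hx.2, hX1, hX2]
      simp only [Derivation.leibniz, smul_eq_mul, map_add, map_mul]
      exact ⟨trivial, by ring⟩
  have hP1 : (p.map φ₀).map TrivSqZeroExt.fst = p.map (algebraMap Rr B) := by
    simp only [Par.map, (hφ₀ _).1]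
  have hP2 : (p.map φ₀).map TrivSqZeroExt.snd =
      p.map fun r => a * algebraMap Rr B (pderiv 0 r) + b * algebraMap Rr B (pderiv 1 r) := by
    simp only [Par.map, (hφ₀ _).2]
  obtain ⟨φ, hr, hg, hs, hy⟩ := hlift _ φ₀
    (TrivSqZeroExt.inl g + TrivSqZeroExt.inr c)
    (TrivSqZeroExt.inl s + TrivSqZeroExt.inr d)
    (TrivSqZeroExt.inl y + TrivSqZeroExt.inr e) (derAux_pf _ _ _ _
      (by rw [hP1]; simpa using hpf) (by rw [hP1, hP2]; simpa using h))
  have hfst : ∀ x, (φ x).fst = x := by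
    refine hind _ (fun r => by rw [hr, (hφ₀ r).1]) (fun x y hx hy => ?_)
      (fun x y hx hy => ?_) (by rw [hg]; simp) (by rw [hs]; simp) (by rw [hy]; simp)
    · rw [map_add, TrivSqZeroExt.fst_add, hx, hy]
    · rw [map_mul, TrivSqZeroExt.fst_mul, hx, hy]
  let L : B →ₗ[ℂ] B :=
    { toFun := fun x => (φ x).snd
      map_add' := fun x y => by rw [map_add, TrivSqZeroExt.snd_add]
      map_smul' := fun c x => by rw [map_smul, TrivSqZeroExt.snd_smul]; rfl }
  refine ⟨Derivation.mk' L fun x y => ?_, ?_, ?_, ?_⟩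
  · change (φ (x * y)).snd = x • (φ y).snd + y • (φ x).snd
    rw [map_mul, hm, hfst, hfst, smul_eq_mul, smul_eq_mul, mul_comm y]
  · change (φ _).snd = a
    rw [hr, hX2]
    simp [pderiv_X]
  · change (φ _).snd = b
    rw [hr, hX2]
    simp [pderiv_X]
  · change (φ _).snd = c
    rw [hg]
    simp

/-- Proof: let `T = TrivSqZeroExt (Bq p) (Bq p)`. `φ₀ : Rr →ₐ[ℂ] T := aeval ![inl f + inr a, inl t + inr b]`
has `fst (φ₀ r) = algebraMap r`, `snd (φ₀ r) = a * algebraMap (pderiv 0 r) + b * algebraMap (pderiv 1 r)`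
(induction on `r`). `φ₁ = MvPolynomial.aevalTower φ₀ ![inl g + inr c, inl s + inr d, inl y + inr e]` kills the five
generators of `pfIdeal p`: `fst` by `pf_q`, `snd` by `h` (general lemma: for `M : Sk T`,
`snd` of `M.pf` is `pol` of the `fst` and `snd` parts, and the `snd` part of `mat` is `dmat`). Descend with
`Ideal.Quotient.liftₐ`; `fst ∘ φ = id` (`Ideal.Quotient.algHom_ext`, `MvPolynomial.algHom_ext'`), so
`snd ∘ φ` is a derivation (see the proof of `exists_der_localization` in `Ext.lean`, or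
`derivationToSquareZeroEquivLift`). Alternative route: build a derivation of `MvPolynomial (Fin 3) Rr`
and use `Derivation.liftOfSurjective`. -/
theorem exists_der (p : Par Rr) (a b c d e : Bq p)
    (h : (mat (parq p) (gq p) (sq p) (yq p)).pol
      (dmat (parq p) (p.map fun r => a * algebraMap Rr (Bq p) (pderiv 0 r) +
        b * algebraMap Rr (Bq p) (pderiv 1 r)) (gq p) c d e) = V5.zero) :
    ∃ D : Derivation ℂ (Bq p) (Bq p), D (algebraMap Rr (Bq p) (X 0)) = a ∧
      D (algebraMap Rr (Bq p) (X 1)) = b ∧ D (gq p) = c := by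
  exact derAux_main (B := Bq p) p (gq p) (sq p) (yq p) a b c d e (pf_q p) h
    (fun K _ _ φ₀ g s y hh => derAux_lift p φ₀ g s y hh) (fun Q => derAux_ind p)

theorem derAux_zero {K : Type*} [CommRing K] (g s y : K) (h1 : g * g = 0) (h2 : g * s = 0)
    (h3 : g * y = 0) (h4 : s * s = 0) (h5 : s * y = 0) (h6 : y * y = 0) :
    (mat Par.zero g s y).pf = V5.zero := by
  ext <;> simp only [Sk.pf, V5.zero, mat, Par.zero]
  · linear_combination (-g) * h1 - h6
  · linear_combination h5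
  · linear_combination g * h1 - h4
  · linear_combination -h3
  · linear_combination -h2

/-- The tangent directions at the origin. Proof: make `T = TrivSqZeroExt ℂ (Fin 3 → ℂ)` an `Rr`-algebra through
`constantCoeff` (`RingHom.toAlgebra`), all parameters go to `0`, `g, s, y ↦ inr (Pi.single i 1)`; all Pfaffians are
products of two `inr` (`TrivSqZeroExt.inr_mul_inr`); `exists_lift` (or lift `aevalTower` directly). -/
theorem exists_eta (p : Par Rr) (hp : p.map constantCoeff = Par.zero) :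
    ∃ η : Bq p →ₐ[ℂ] TrivSqZeroExt ℂ (Fin 3 → ℂ), Function.Surjective η ∧
      (∀ r : Rr, (η (algebraMap Rr (Bq p) r)).fst = constantCoeff r) ∧
      (η (gq p)).fst = 0 ∧ (η (sq p)).fst = 0 ∧ (η (yq p)).fst = 0 := by
  let φ₀ : Rr →ₐ[ℂ] TrivSqZeroExt ℂ (Fin 3 → ℂ) := aeval fun _ => 0
  have hφ₀ : ∀ r, φ₀ r = algebraMap ℂ _ (constantCoeff r) := fun r => aeval_zero' r
  have hP : p.map φ₀ = Par.zero := by
    have h1 : p.map φ₀ = (p.map constantCoeff).map (algebraMap ℂ _) := by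
      simp only [Par.map, hφ₀]
    rw [h1, hp]
    simp only [Par.map, Par.zero, map_zero]
  obtain ⟨φ, hr, hg, hs, hy⟩ := derAux_lift p φ₀
    (TrivSqZeroExt.inr (Pi.single 0 1)) (TrivSqZeroExt.inr (Pi.single 1 1))
    (TrivSqZeroExt.inr (Pi.single 2 1)) (by
      rw [hP]
      refine derAux_zero _ _ _ ?_ ?_ ?_ ?_ ?_ ?_ <;> exact TrivSqZeroExt.inr_mul_inr _ _ _)
  refine ⟨φ, fun z => ?_, fun r => ?_, ?_, ?_, ?_⟩
  · refine ⟨algebraMap ℂ _ z.fst + (z.snd 0 • gq p + z.snd 1 • sq p + z.snd 2 • yq p), ?_⟩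
    simp only [map_add, map_smul, AlgHom.commutes, hg, hs, hy]
    rw [TrivSqZeroExt.algebraMap_eq_inl]
    ext i
    · simp
    · fin_cases i <;> simp
  · rw [hr, hφ₀, TrivSqZeroExt.algebraMap_eq_inl, TrivSqZeroExt.fst_inl]
  · rw [hg, TrivSqZeroExt.fst_inr]
  · rw [hs, TrivSqZeroExt.fst_inr]
  · rw [hy, TrivSqZeroExt.fst_inr]

end Crest.Agent.R278
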