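import Crest.Agent.R278.Free

/-!
# Row 278: derivations on (localised) integral extensions of `ℂ[f,t]`; stable primes
-/

set_option autoImplicit false

namespace Crest.Agent.R278

open MvPolynomial

theorem extAux_chain {A : Type*} [CommRing A] [Algebra ℂ A] [Algebra Rr A]
    [IsScalarTower ℂ Rr A] (D : Derivation ℂ A A) (p : Rr) :
    D (algebraMap Rr A p) = algebraMap Rr A (pderiv 0 p) * D (algebraMap Rr A (X 0)) +
      algebraMap Rr A (pderiv 1 p) * D (algebraMap Rr A (X 1)) := by
  induction p using MvPolynomial.induction_on with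
  | C c =>
    have h : algebraMap Rr A (C c) = algebraMap ℂ A c :=
      (IsScalarTower.algebraMap_apply ℂ Rr A c).symm
    rw [h, D.map_algebraMap]
    simp
  | add p q hp hq =>
    simp only [map_add, hp, hq]
    ring
  | mul_X p i hp =>
    rw [map_mul, D.leibniz, hp]
    fin_cases i <;> simp [pderiv_X] <;> ring

theorem extAux_root {A : Type*} [CommRing A] [IsDomain A] [Algebra ℂ A] (D : Derivation ℂ A A)
    (b : A) (n : ℕ) : ∀ p : Polynomial A, p.natDegree = n → p ≠ 0 → (∀ i, D (p.coeff i) = 0) →
      p.eval b = 0 → D b = 0 := by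
  have : CharZero A := charZero_of_injective_algebraMap (algebraMap ℂ A).injective
  induction n using Nat.strong_induction_on with
  | _ n ih =>
    intro p hn hp hc hb
    have h1 := D.apply_eval_eq b p
    have h2 : D.mapCoeffs p = 0 := by
      ext i
      rw [Derivation.mapCoeffs_apply, hc]
      rfl
    rw [hb, h2, map_zero, map_zero, zero_add, smul_eq_mul] at h1
    rcases mul_eq_zero.1 h1.symm with h3 | h3
    · have h4 : p.natDegree ≠ 0 := by
        intro h0
        rw [Polynomial.eq_C_of_natDegree_eq_zero h0] at hb hp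
        rw [Polynomial.eval_C] at hb
        exact hp (by rw [hb, map_zero])
      refine ih _ (hn ▸ Polynomial.natDegree_derivative_lt h4) (Polynomial.derivative p) rfl ?_ ?_ h3
      · intro h0
        exact h4 (Polynomial.derivative_eq_zero.1 h0)
      · intro i
        rw [Polynomial.coeff_derivative, D.leibniz, hc]
        have : D ((i : A) + 1) = 0 := by
          rw [map_add, D.map_natCast, D.map_one_eq_zero, add_zero]
        rw [this]
        simp
    · exact h3

theorem extAux_totalDegree (H : Rr) (i : Fin 2) (h : pderiv i H ≠ 0) :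
    (pderiv i H).totalDegree < H.totalDegree := by
  obtain ⟨m, hm, e⟩ := Finset.exists_mem_eq_sup (pderiv i H).support
    (MvPolynomial.support_nonempty.2 h) (fun s => s.sum fun _ e => e)
  have h1 : m + Finsupp.single i 1 ∈ H.support := by
    rw [mem_support_iff] at hm ⊢
    rw [coeff_pderiv] at hm
    exact left_ne_zero_of_mul hm
  have h2 := le_totalDegree h1
  rw [Finsupp.sum_add_index' (fun _ => rfl) (fun _ _ _ => rfl), Finsupp.sum_single_index rfl] at h2
  have h3 : (pderiv i H).totalDegree = m.sum fun _ e => e := e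
  omega

theorem extAux_const (H : Rr) (h : ∀ i, pderiv i H = 0) : H = C (coeff 0 H) := by
  ext m
  rw [coeff_C]
  split_ifs with hm
  · rw [hm]
  · obtain ⟨i, hi⟩ : ∃ i, m i ≠ 0 := by
      by_contra hcon
      push Not at hcon
      exact hm (Finsupp.ext fun i => (hcon i).symm)
    have h1 := coeff_pderiv (i := i) H (m - Finsupp.single i 1)
    have h2 : m - Finsupp.single i 1 + Finsupp.single i 1 = m := by
      ext j
      by_cases hj : i = j
      · subst hj
        simp
        omega
      · simp [hj]
    rw [h i, h2, coeff_zero] at h1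
    refine (mul_eq_zero.1 h1.symm).resolve_right ?_
    exact Nat.cast_add_one_ne_zero _

/-- A derivation killing `f, t` is zero (no injectivity of `Rr → A` is assumed).
Proof: `D` kills the image of `Rr` (induction on `MvPolynomial`). For `b` integral over `Rr`,
take a polynomial `p` over `Rr` with `aeval b p = 0` and `p.map (algebraMap Rr A) ≠ 0`, with
`(p.map _).natDegree` minimal (or: a nonzero polynomial over `A` of least degree all of whose
coefficients are killed by `D` and having `b` as a root). Then `0 = D (p b) = p'(b) * D b`, and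
`p'(b) ≠ 0` by minimality (characteristic zero: `p` is not constant, so `p' ≠ 0`). So `D b = 0`.
For general `a`: `D (u * a) = 0 = D u` gives `u * D a = 0`. -/
theorem der_eq_zero {A : Type*} [CommRing A] [IsDomain A] [Algebra ℂ A] [Algebra Rr A]
    [IsScalarTower ℂ Rr A] (hA : LocInt Rr A) (D : Derivation ℂ A A)
    (hf : D (algebraMap Rr A (X 0)) = 0) (ht : D (algebraMap Rr A (X 1)) = 0) : D = 0 := by
  have h0 : ∀ p : Rr, D (algebraMap Rr A p) = 0 := fun p => by
    rw [extAux_chain, hf, ht, mul_zero, mul_zero, add_zero]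
  have h1 : ∀ b : A, IsIntegral Rr b → D b = 0 := by
    rintro b ⟨p, hp, e⟩
    refine extAux_root D b _ (p.map (algebraMap Rr A)) rfl (hp.map _).ne_zero (fun i => ?_) ?_
    · rw [Polynomial.coeff_map, h0]
    · rw [Polynomial.eval_map, e]
  ext a
  obtain ⟨u, hu, h2, h3⟩ := hA a
  have h4 := h1 _ h3
  rw [D.leibniz, h1 u h2, smul_zero, add_zero, smul_eq_mul] at h4
  exact (mul_eq_zero.1 h4).resolve_left hu.ne_zero

/-- If `Rr → A` is not injective then all minors of two derivations vanish.
Proof: take `H ≠ 0` in the kernel of least total degree. `H` is not constant. Chain rule: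
`H_f * D f + H_t * D t = 0` for `D = D₁, D₂` (images in `A` of `pderiv 0 H`, `pderiv 1 H`), so
`H_f * Δ_{ft} = 0 = H_t * Δ_{ft}`. One of `pderiv 0 H`, `pderiv 1 H` is nonzero (char 0) and of
smaller total degree, so its image is nonzero and `Δ_{ft} = 0`. Finish with `delta_eq_zero_of`
and `der_eq_zero`. -/
theorem delta_eq_zero_of_not_injective {A : Type*} [CommRing A] [IsDomain A] [Algebra ℂ A]
    [Algebra Rr A] [IsScalarTower ℂ Rr A] (hA : LocInt Rr A)
    (hinj : ¬ Function.Injective (algebraMap Rr A)) (D₁ D₂ : Derivation ℂ A A) (a b : A) :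
    D₁ a * D₂ b - D₁ b * D₂ a = 0 := by
  refine delta_eq_zero_of (algebraMap Rr A (X 0)) (algebraMap Rr A (X 1)) D₁ D₂
    (der_eq_zero hA) ?_ a b
  rw [injective_iff_map_eq_zero] at hinj
  push Not at hinj
  obtain ⟨H, hH, hH0⟩ := hinj
  induction hn : H.totalDegree using Nat.strong_induction_on generalizing H with
  | _ n ih =>
    have h1 := extAux_chain D₁ H
    have h2 := extAux_chain D₂ H
    rw [hH, map_zero] at h1 h2
    by_cases h3 : algebraMap Rr A (pderiv 0 H) = 0
    · by_cases h4 : algebraMap Rr A (pderiv 1 H) = 0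
      · by_cases h5 : pderiv 0 H = 0
        · by_cases h6 : pderiv 1 H = 0
          · exfalso
            have h7 := extAux_const H (fun i => by fin_cases i <;> assumption)
            rw [h7] at hH
            have h8 : algebraMap ℂ A (coeff 0 H) = 0 :=
              (IsScalarTower.algebraMap_apply ℂ Rr A _).trans hH
            have h9 : coeff 0 H = 0 := (algebraMap ℂ A).injective (by rw [h8, map_zero])
            rw [h9, map_zero] at h7
            exact hH0 h7
          · exact ih _ (hn ▸ extAux_totalDegree H 1 h6) _ h4 h6 rfl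
        · exact ih _ (hn ▸ extAux_totalDegree H 0 h5) _ h3 h5 rfl
      · refine (mul_eq_zero.1 ?_).resolve_left h4
        linear_combination D₂ (algebraMap Rr A (X 0)) * h1 - D₁ (algebraMap Rr A (X 0)) * h2
    · refine (mul_eq_zero.1 ?_).resolve_left h3
      linear_combination D₁ (algebraMap Rr A (X 1)) * h2 - D₂ (algebraMap Rr A (X 1)) * h1

/-- A nonzero prime stable under `D₁, D₂` contains all minors.
Proof: the derivations descend to `A ⧸ P` (build the `Derivation ℂ (A ⧸ P) (A ⧸ P)` by hand from
`Submodule.liftQ`/`Quotient.lift`, or `Derivation.liftOfSurjective`), `LocInt` passes to the quotient,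
and `Rr → A ⧸ P` is not injective: take `0 ≠ a ∈ P`, `u * a ≠ 0` is integral over `Rr` and lies in `P`,
so `P.comap (algebraMap Rr A) ≠ ⊥` (`Ideal.comap_ne_bot_of_integral_mem`, or if `Rr → A` itself
is not injective there is nothing to do). -/
theorem deltaIdeal_le_of_stable {A : Type*} [CommRing A] [IsDomain A] [Algebra ℂ A]
    [Algebra Rr A] [IsScalarTower ℂ Rr A] (hA : LocInt Rr A) (D₁ D₂ : Derivation ℂ A A)
    (P : Ideal A) [P.IsPrime] (hP : P ≠ ⊥) (h₁ : ∀ x ∈ P, D₁ x ∈ P) (h₂ : ∀ x ∈ P, D₂ x ∈ P) :
    deltaIdeal D₁ D₂ ≤ P := by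
  have hs : Function.Surjective (Ideal.Quotient.mkₐ ℂ P) := Ideal.Quotient.mkₐ_surjective ℂ P
  have hd : ∀ D : Derivation ℂ A A, (∀ x ∈ P, D x ∈ P) →
      ∀ x, Ideal.Quotient.mkₐ ℂ P x = 0 → Ideal.Quotient.mkₐ ℂ P (D x) = 0 := fun D h x hx =>
    Ideal.Quotient.eq_zero_iff_mem.2 (h x (Ideal.Quotient.eq_zero_iff_mem.1 hx))
  have hA' : LocInt Rr (A ⧸ P) := by
    intro a
    obtain ⟨a, rfl⟩ := Ideal.Quotient.mk_surjective a
    obtain ⟨u, hu, h2, h3⟩ := hA a
    refine ⟨Ideal.Quotient.mk P u, hu.map _, h2.map (Ideal.Quotient.mkₐ Rr P), ?_⟩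
    exact h3.map (Ideal.Quotient.mkₐ Rr P)
  have hinj : ¬ Function.Injective (algebraMap Rr (A ⧸ P)) := by
    obtain ⟨a, haP, ha0⟩ := Submodule.exists_mem_ne_zero_of_ne_bot hP
    obtain ⟨u, hu, -, h3⟩ := hA a
    have h4 := Ideal.comap_ne_bot_of_integral_mem (mul_ne_zero hu.ne_zero ha0)
      (P.mul_mem_left u haP) h3
    obtain ⟨r, hr, hr0⟩ := Submodule.exists_mem_ne_zero_of_ne_bot h4
    intro hinj
    apply hr0
    apply hinj
    rw [map_zero]
    exact Ideal.Quotient.eq_zero_iff_mem.2 hr
  refine Ideal.span_le.2 ?_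
  rintro _ ⟨a, b, rfl⟩
  have h := delta_eq_zero_of_not_injective hA' hinj (Derivation.liftOfSurjective hs (hd D₁ h₁))
    (Derivation.liftOfSurjective hs (hd D₂ h₂)) (Ideal.Quotient.mkₐ ℂ P a) (Ideal.Quotient.mkₐ ℂ P b)
  simp only [Derivation.liftOfSurjective_apply] at h
  rw [← map_mul, ← map_mul, ← map_sub] at h
  exact Ideal.Quotient.eq_zero_iff_mem.1 h

/-- Extension of a derivation to a localisation.
Proof: `b ↦ (algebraMap b, algebraMap (D b))` is an algebra map `B → TrivSqZeroExt A A` sending `M`
to units (`TrivSqZeroExt.isUnit_iff_isUnit_fst`); `IsLocalization.lift`; its `fst` is the identity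
(`IsLocalization.ringHom_ext`), its `snd` is the derivation. (Any other proof is fine, e.g.
through `KaehlerDifferential.isLocalizedModule_map`.) -/
theorem exists_der_localization {k B : Type*} [CommRing k] [CommRing B] [Algebra k B]
    (M : Submonoid B) (A : Type*) [CommRing A] [Algebra B A] [IsLocalization M A] [Algebra k A]
    [IsScalarTower k B A] (D : Derivation k B B) :
    ∃ D' : Derivation k A A, ∀ b : B, D' (algebraMap B A b) = algebraMap B A (D b) := by
  let D₀ : Derivation k B A := (Algebra.linearMap B A).compDer D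
  let φ : Ω[B⁄k] →ₗ[B] A := D₀.liftKaehlerDifferential
  have hu : ∀ x : M, IsUnit (algebraMap B (Module.End B A) x) :=
    IsLocalizedModule.map_units (S := M) (Algebra.linearMap B A)
  let ψ : Ω[A⁄k] →ₗ[B] A := IsLocalizedModule.lift M (KaehlerDifferential.map k k B A) φ hu
  let ψ' : Ω[A⁄k] →ₗ[A] A := ψ.extendScalarsOfIsLocalization M A
  refine ⟨KaehlerDifferential.linearMapEquivDerivation k A ψ', fun b => ?_⟩
  have h1 : KaehlerDifferential.linearMapEquivDerivation k A ψ' (algebraMap B A b) =
      ψ (KaehlerDifferential.D k A (algebraMap B A b)) := rfl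
  rw [h1, ← KaehlerDifferential.map_D k k B A b, IsLocalizedModule.lift_apply]
  exact D₀.liftKaehlerDifferential_comp_D b

end Crest.Agent.R278
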