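import Crest.Agent.R278.Ring

/-!
# Row 278: irreducibility of `chiP` by specialisation and Eisenstein's criterion
-/

set_option autoImplicit false

noncomputable section

namespace Crest.Agent.R278

open Polynomial

theorem irrAux_map {α β : Type*} [CommRing α] [CommRing β] (φ : α →+* β) (p : Par α) (g : α) :
    φ (chi p g) = chi (p.map φ) (φ g) := by
  simp only [chi, chi0, chi1, chi2, chi3, chi4, chi5, Par.map, map_add, map_sub, map_mul, map_pow,
    map_neg, map_ofNat]

theorem irrAux_irr (f : ℂ[X][X]) (hf : f.Monic) (hd : 0 < f.natDegree)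
    (h1 : f.map (evalRingHom (0 : ℂ)) = (X - C 1) ^ 6) (h2 : (f.eval 1).coeff 1 ≠ 0) :
    Irreducible f := by
  let _ : Algebra ℂ[X] ℂ := (evalRingHom (0 : ℂ)).toAlgebra
  have ha : algebraMap ℂ[X] ℂ = evalRingHom (0 : ℂ) := rfl
  have hq : (X - C (1 : ℂ[X])).map (algebraMap ℂ[X] ℂ) = X - C 1 := by simp
  refine generalizedEisenstein (K := ℂ) (q := X - C 1) (p := 6) ?_ (monic_X_sub_C 1)
    hf.isPrimitive hd ?_ ?_ ?_
  · rw [hq]; exact irreducible_X_sub_C 1
  · rw [hf.leadingCoeff, map_one]; exact one_ne_zero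
  · rw [hf.leadingCoeff, map_one, hq, ha, h1]; simp
  · rw [modByMonic_X_sub_C_eq_C_eval, map_C, ne_eq, C_eq_zero, Ideal.Quotient.eq_zero_iff_mem, ha,
      ker_evalRingHom, Ideal.span_singleton_pow, Ideal.mem_span_singleton]
    intro h
    rw [C_0, sub_zero, X_pow_dvd_iff] at h
    exact h2 (h 1 (by norm_num))

/-- Proof: `(chiP p).map ψ = chi (q.map C) X` with `q = ⟨X, -1, 8, 1, 1, -2, -9, 30⟩ : Par ℂ[X]`; it is monic of
degree `6` in `ℂ[z][g]`, equal to `(g - 1)^6` modulo `z`, and its value at `g = 1` is `36 z + O(z²)`.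
Either use `Polynomial.generalizedEisenstein` with `q = X - C 1` and `K = ℂ` through `evalRingHom 0`, or substitute
`g ↦ g + 1` (`Polynomial.algEquivAevalXAddC`/`taylor`, `MulEquiv.irreducible_iff`) and use
`Polynomial.IsEisensteinAt.irreducible` / `irreducible_of_eisenstein_criterion` at the prime `span {X}`.
Then `Polynomial.Monic.irreducible_of_irreducible_map` (needs `chiP_monic`). -/
theorem irreducible_chiP (p : Par Rr) (ψ : Rr →+* ℂ[X])
    (h : p.map ψ = ⟨X, -1, 8, 1, 1, -2, -9, 30⟩) : Irreducible (chiP p) := by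
  have hm : (chiP p).map ψ =
      chi ((⟨X, -1, 8, 1, 1, -2, -9, 30⟩ : Par ℂ[X]).map C) X := by
    rw [← h, chiP, ← coe_mapRingHom, irrAux_map]
    simp only [Par.map, coe_mapRingHom, map_C, map_X]
  refine Monic.irreducible_of_irreducible_map ψ _ (chiP_monic p) ?_
  refine irrAux_irr _ ((chiP_monic p).map ψ) ?_ ?_ ?_
  · rw [(chiP_monic p).natDegree_map, chiP_natDegree]; norm_num
  · rw [hm, ← coe_mapRingHom, irrAux_map]
    simp only [Par.map, coe_mapRingHom, map_C, map_X, coe_evalRingHom, eval_X,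
      map_zero, map_neg, map_one, map_ofNat, chi, chi0, chi1, chi2, chi3, chi4, chi5]
    ring
  · have he : ((chiP p).map ψ).eval 1 =
        36 * X + X ^ 2 * (24 + 18 * X + 63 * X ^ 2 + 4 * X ^ 4) := by
      rw [hm, ← coe_evalRingHom, irrAux_map]
      simp only [Par.map, coe_evalRingHom, eval_C, eval_X, chi, chi0, chi1, chi2, chi3, chi4, chi5]
      ring
    rw [he, coeff_add, coeff_X_pow_mul']
    simp

end Crest.Agent.R278
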