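import Crest.Agent.R278.Chk

/-!
# Row 278: the kernel computations
-/

set_option autoImplicit false

namespace Crest.Agent.R278

theorem chk1_w1 : chk1 w1 = true := by decide +kernel

theorem chk1_w2 : chk1 w2 = true := by decide +kernel

theorem chk2_0 : ∀ b : Fin 10, chk2 0 b = true := by decide +kernel

theorem chk2_1 : ∀ b : Fin 9, chk2 1 b = true := by decide +kernel

theorem chk2_2 : ∀ b : Fin 8, chk2 2 b = true := by decide +kernel

theorem chk2_3 : ∀ b : Fin 8, chk2 3 b = true := by decide +kernel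

theorem chk2_4 : ∀ b : Fin 8, chk2 4 b = true := by decide +kernel

theorem chk2_5 : ∀ b : Fin 7, chk2 5 b = true := by decide +kernel

theorem chk2_all (k : Fin 6) (b : ℕ) (hb : b ≤ (thr.get k + 2) / 3) : chk2 k b = true := by
  fin_cases k
  · exact chk2_0 ⟨b, by simp [thr, V6.get] at hb; omega⟩
  · exact chk2_1 ⟨b, by simp [thr, V6.get] at hb; omega⟩
  · exact chk2_2 ⟨b, by simp [thr, V6.get] at hb; omega⟩
  · exact chk2_3 ⟨b, by simp [thr, V6.get] at hb; omega⟩
  · exact chk2_4 ⟨b, by simp [thr, V6.get] at hb; omega⟩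
  · exact chk2_5 ⟨b, by simp [thr, V6.get] at hb; omega⟩

end Crest.Agent.R278
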