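import Crest.Agent.R278.Glue
import Crest.Agent.R278.Run
import Crest.Agent.R278.Irr
import Crest.Agent.R278.Der

/-!
# Row 278: the example
-/

set_option autoImplicit false

noncomputable section

namespace Crest.Agent.R278

open MvPolynomial

def ρ₀ : Rz →+* Rr := MvPolynomial.map (Int.castRingHom ℂ)

/-- The parameters of the example. -/
def pR : Par Rr := parD.map fun l => ρ₀ (ofD l)

def vR (x : V6 Dat) : V6 Rr := x.map fun l => ρ₀ (ofD l)

def residZ (c : W3) : V6 Rz :=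
  resid (parD.map ofD) ((parD.map dF).map ofD) ((parD.map dT).map ofD)
    (c.cf.map ofD) (c.ct.map ofD) (c.cg.map ofD)

theorem rel_par (e K n : ℕ) (p : Par Dat) : Par.Rel (KRel e K n) (p.map ofD) (p.map KN.ofD) :=
  ⟨KRel.ofD _ _ _ _, KRel.ofD _ _ _ _, KRel.ofD _ _ _ _, KRel.ofD _ _ _ _, KRel.ofD _ _ _ _,
    KRel.ofD _ _ _ _, KRel.ofD _ _ _ _, KRel.ofD _ _ _ _⟩

theorem rel_v6 (e K n : ℕ) (x : V6 Dat) : V6.Rel (KRel e K n) (x.map ofD) (x.map KN.ofD) :=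
  ⟨KRel.ofD _ _ _ _, KRel.ofD _ _ _ _, KRel.ofD _ _ _ _, KRel.ofD _ _ _ _, KRel.ofD _ _ _ _,
    KRel.ofD _ _ _ _⟩

theorem rel_resid (e K n : ℕ) (c : W3) : V6.Rel (KRel e K n) (residZ c) (residK e K n c) :=
  (opRel_KRel e K n).resid (rel_par e K n _) (rel_par e K n _) (rel_par e K n _) (rel_v6 e K n _)
    (rel_v6 e K n _) (rel_v6 e K n _)

theorem residZ_mem {c : W3} (h : chk1 c = true) (i : Fin 6) : (residZ c).get i ∈ W (thr.get i) := by
  simp only [chk1, Bool.and_eq_true] at h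
  obtain ⟨⟨⟨⟨⟨h0, h1⟩, h2⟩, h3⟩, h4⟩, h5⟩ := h
  have r := rel_resid 2624 9 26 c
  fin_cases i
  · exact r.h0.mem_W h0
  · exact r.h1.mem_W h1
  · exact r.h2.mem_W h2
  · exact r.h3.mem_W h3
  · exact r.h4.mem_W h4
  · exact r.h5.mem_W h5

theorem rows_of_chk {x : V6 Rz} {z : V6 (KN 2336 10 29)} (r : V6.Rel (KRel 2336 10 29) x z)
    (h : chkRows z = true) (i : Fin 6) : ∃ u v : Rz, u ∈ W (thr.get i) ∧ v ∈ W (thr.get i + 3) ∧
      x.get i = ((13 : ℕ) : ℤ) * u + v := by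
  simp only [chkRows, Bool.and_eq_true] at h
  obtain ⟨⟨⟨⟨⟨h0, h1⟩, h2⟩, h3⟩, h4⟩, h5⟩ := h
  fin_cases i
  · exact r.h0.chkRow h0
  · exact r.h1.chkRow h1
  · exact r.h2.chkRow h2
  · exact r.h3.chkRow h3
  · exact r.h4.chkRow h4
  · exact r.h5.chkRow h5

theorem pderiv_ρ₀ (i : Fin 2) (x : Rz) : pderiv i (ρ₀ x) = ρ₀ (pderiv i x) := pderiv_map

theorem map_pderiv_zero (p : Par Dat) :
    (p.map fun l => ρ₀ (ofD l)).map (pderiv 0) = ((p.map dF).map ofD).map ρ₀ := by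
  simp only [Par.map, pderiv_ρ₀, pderiv_zero_ofD]

theorem map_pderiv_one (p : Par Dat) :
    (p.map fun l => ρ₀ (ofD l)).map (pderiv 1) = ((p.map dT).map ofD).map ρ₀ := by
  simp only [Par.map, pderiv_ρ₀, pderiv_one_ofD]

/-- The constant coefficient of a list polynomial. -/
def ccD : Dat → ℤ
  | [] => 0
  | x :: l => (if x.1 = 0 ∧ x.2.1 = 0 then x.2.2 else 0) + ccD l

theorem cc_ofD (l : Dat) : constantCoeff (ρ₀ (ofD l)) = ((ccD l : ℤ) : ℂ) := by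
  induction l with
  | nil => simp [ofD, ccD]
  | cons x l ih =>
    obtain ⟨i, j, c⟩ := x
    simp only [ofD, ccD, map_add, ih, Int.cast_add]
    congr 1
    rcases i with _ | i <;> rcases j with _ | j <;> simp [ρ₀]

theorem ccD_par : ccD parD.f = 0 ∧ ccD parD.t = 0 ∧ ccD parD.B = 0 ∧ ccD parD.C = 0 ∧ ccD parD.E = 0 ∧
    ccD parD.F = 0 ∧ ccD parD.m = 0 ∧ ccD parD.n = 0 := by decide +kernel

theorem pR_cc : pR.map constantCoeff = Par.zero := by
  obtain ⟨h1, h2, h3, h4, h5, h6, h7, h8⟩ := ccD_par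
  simp only [pR, Par.map, cc_ofD, h1, h2, h3, h4, h5, h6, h7, h8, Par.zero, Int.cast_zero]

theorem pR_f : pR.f = X 0 := by
  change ρ₀ (ofD [(1, 0, 1)]) = X 0
  simp [ofD, ρ₀]

theorem pR_t : pR.t = X 1 := by
  change ρ₀ (ofD [(0, 1, 1)]) = X 1
  simp [ofD, ρ₀]

theorem pR_irreducible : Irreducible (chiP pR) := by
  let ψ : Rr →+* Polynomial ℂ :=
    (aeval (![Polynomial.X, -1] : Fin 2 → Polynomial ℂ) : Rr →ₐ[ℂ] Polynomial ℂ).toRingHom
  have h1 : (ψ.comp ρ₀) (X 1) = -1 := by simp [ψ, ρ₀]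
  have hf : ψ pR.f = Polynomial.X := by rw [pR_f]; simp [ψ]
  have ht : ψ pR.t = -1 := by rw [pR_t]; simp [ψ]
  have hB : ψ pR.B = ((8 : ℤ) : Polynomial ℂ) := map_fixD (ψ.comp ρ₀) h1 lowB 8
  have hC : ψ pR.C = ((1 : ℤ) : Polynomial ℂ) := map_fixD (ψ.comp ρ₀) h1 lowC 1
  have hE : ψ pR.E = ((1 : ℤ) : Polynomial ℂ) := map_fixD (ψ.comp ρ₀) h1 lowE 1
  have hF : ψ pR.F = ((-2 : ℤ) : Polynomial ℂ) := map_fixD (ψ.comp ρ₀) h1 lowF (-2)
  have hm : ψ pR.m = ((-9 : ℤ) : Polynomial ℂ) := map_fixD (ψ.comp ρ₀) h1 lowm (-9)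
  have hn : ψ pR.n = ((30 : ℤ) : Polynomial ℂ) := map_fixD (ψ.comp ρ₀) h1 lown 30
  refine irreducible_chiP pR ψ ?_
  simp only [Par.map, hf, ht, hB, hC, hE, hF, hm, hn]
  push_cast
  rfl

def socZ (a b : V6 Dat) : ℤ := ((a.map ccD).comb (six Par.zero (b.map ccD))).c5

theorem soc_ne : socZ w1.cf w2.ct - socZ w1.ct w2.cf ≠ 0 := by decide +kernel

theorem cc_comb (a b : V6 Dat) :
    constantCoeff ((vR a).comb (six pR (vR b))).c5 = ((socZ a b : ℤ) : ℂ) := by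
  have h1 := comb_six_map constantCoeff pR (vR a) (vR b)
  have h2 := comb_six_map (Int.castRingHom ℂ) Par.zero (a.map ccD) (b.map ccD)
  have e : ∀ x : V6 Dat, (vR x).map constantCoeff = (x.map ccD).map (Int.castRingHom ℂ) := by
    intro x
    simp only [vR, V6.map, cc_ofD, eq_intCast]
  have e0 : (Par.zero : Par ℤ).map (Int.castRingHom ℂ) = Par.zero := by
    simp only [Par.map, Par.zero, map_zero]
  rw [pR_cc, e, e] at h1
  rw [e0, h1] at h2
  exact congrArg V6.c5 h2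

section
variable {B : Type} [CommRing B] [Algebra Rr B] (g s y : B)

theorem sum_resid (h : (Pt.mk pR g s y).M.pf = V5.zero) (c : W3) :
    ∑ i, ((algebraMap Rr B).comp ρ₀) ((residZ c).get i) * (Pt.mk pR g s y).bs.get i =
      (Pt.mk pR g s y).ev (vR c.cf) * (Pt.mk pR g s y).piF +
      (Pt.mk pR g s y).ev (vR c.ct) * (Pt.mk pR g s y).piT +
      (Pt.mk pR g s y).ev (vR c.cg) * (Pt.mk pR g s y).piGq := by
  have e : ∀ i, ((algebraMap Rr B).comp ρ₀) ((residZ c).get i) =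
      ((residZ c).map ((algebraMap Rr B).comp ρ₀)).get i := by
    intro i; fin_cases i <;> rfl
  simp only [e]
  rw [dot_eq_sum, residZ, ← resid_map]
  unfold Pt.piF Pt.piT
  rw [show (Pt.mk pR g s y).p = parD.map fun l => ρ₀ (ofD l) from rfl, map_pderiv_zero,
    map_pderiv_one]
  exact dot_resid h _ _ _ _ _

theorem ρ_mem {x : Rz} (h : x ∈ W 1) : algebraMap Rr B (ρ₀ x) ∈ mB B := by
  obtain ⟨u, v, rfl⟩ := Ideal.mem_span_pair.mp (W_one_le h)
  refine Ideal.mem_span_pair.mpr ⟨algebraMap Rr B (ρ₀ u), algebraMap Rr B (ρ₀ v), ?_⟩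
  simp [ρ₀]

theorem ev_mem {x : V6 Dat} (h : x.all (wtOK 1) = true) : (Pt.mk pR g s y).ev (vR x) ∈ mB B := by
  simp only [V6.all, Bool.and_eq_true] at h
  obtain ⟨⟨⟨⟨⟨h0, h1⟩, h2⟩, h3⟩, h4⟩, h5⟩ := h
  simp only [Pt.ev, V6.dot, V6.map, vR]
  refine Ideal.add_mem _ (Ideal.add_mem _ (Ideal.add_mem _ (Ideal.add_mem _ (Ideal.add_mem _ ?_ ?_) ?_)
    ?_) ?_) ?_ <;> exact Ideal.mul_mem_right _ _ (ρ_mem (ofD_mem_W ‹_›))

theorem sum_gen (ρ : Rz →+* B) (e : V6 B) (k : Fin 6) (j b : ℕ) :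
    ∑ i, ρ (((genD k j b).map ofD).get i) * e.get i = -(ρ (X 0 ^ (j - 3 * b) * X 1 ^ b) * e.get k) := by
  fin_cases k <;> simp [Fin.sum_univ_succ, genD, V6.map, V6.get, ofD]

theorem cert (h : (Pt.mk pR g s y).M.pf = V5.zero) :
    ∃ σ : Rz, constantCoeff σ ≠ 0 ∧ ∀ x : Fin 6 → Rz, (∀ i, x i ∈ W (thr.get i)) →
      ((algebraMap Rr B).comp ρ₀) σ * ∑ i, ((algebraMap Rr B).comp ρ₀) (x i) *
        (Pt.mk pR g s y).bs.get i ∈
        comb3 (mB B) (Pt.mk pR g s y).piF (Pt.mk pR g s y).piT (Pt.mk pR g s y).piGq := by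
  refine nakayama_W _ _ _ _ 13 (by norm_num) ?_
  intro k b hb
  have hc := chk2_all k b hb
  simp only [chk2, Bool.and_eq_true] at hc
  generalize decC ((codes.get k).getD b 0) = c at hc
  obtain ⟨⟨⟨hf, ht⟩, hg⟩, hr⟩ := hc
  have r := (opRel_KRel 2336 10 29).vadd (rel_resid 2336 10 29 c) (rel_v6 _ _ _ (genD k (thr.get k) b))
  choose u v hu hv huv using rows_of_chk r hr
  refine ⟨u, v, hu, hv, ?_⟩
  have e : ∀ i, ((residZ c).add ((genD k (thr.get k) b).map ofD)).get i =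
      (residZ c).get i + ((genD k (thr.get k) b).map ofD).get i := by
    intro i; fin_cases i <;> rfl
  simp only [← huv, e, map_add, add_mul, Finset.sum_add_distrib]
  rw [sum_gen, sum_resid g s y h]
  refine mem_comb3.mpr ⟨_, ev_mem g s y hf, _, ev_mem g s y ht, _, ev_mem g s y hg, ?_⟩
  ring

theorem final [Algebra ℂ B] [IsDomain B] [Module.Free Rr B] [IsScalarTower ℂ Rr B]
    [Module.Finite Rr B] (hQ : (Pt.mk pR g s y).Good) :
    ∃ (A : Type) (_ : CommRing A) (_ : Algebra ℂ A),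
      IsDomain A ∧ Algebra.FiniteType ℂ A ∧ IsIntegrallyClosed A ∧
      ringKrullDim A = 2 ∧
      Nonempty (Derivation ℂ A A ≃ₗ[A] (Fin 2 → A)) ∧
      ∃ (m : Ideal A) (_ : m.IsMaximal), ¬ IsRegularLocalRing (Localization.AtPrime m) := by
  obtain ⟨σ, hσ, H⟩ := cert g s y hQ.pf
  have one : ∀ z : Rz, z ∈ W 26 → algebraMap Rr B (ρ₀ σ) * algebraMap Rr B (ρ₀ z) ∈
      comb3 (mB B) (Pt.mk pR g s y).piF (Pt.mk pR g s y).piT (Pt.mk pR g s y).piGq := by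
    intro z hz
    have := H ![z, 0, 0, 0, 0, 0] (by
      intro i
      fin_cases i
      · exact hz
      all_goals exact Ideal.zero_mem _)
    simpa [Fin.sum_univ_succ, V6.get, Pt.bs, bas] using this
  refine Pt.main_of_cert hQ pR_f pR_cc (ρ₀ σ) ?_ 26 ?_ ?_ (vR w1.cf) (vR w1.ct) (vR w1.cg)
    (vR w2.cf) (vR w2.ct) (vR w2.cg) ?_ ?_ ?_
  · rw [ρ₀, constantCoeff_map]
    simpa using hσ
  · have := one (X 0 ^ 26 * X 1 ^ 0) (Ideal.subset_span ⟨26, 0, by norm_num, rfl⟩)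
    simpa [ρ₀] using this
  · have := one (X 0 ^ 0 * X 1 ^ 26) (Ideal.subset_span ⟨0, 26, by norm_num, rfl⟩)
    simpa [ρ₀] using this
  · have := H _ (residZ_mem chk1_w1)
    rwa [sum_resid g s y hQ.pf] at this
  · have := H _ (residZ_mem chk1_w2)
    rwa [sum_resid g s y hQ.pf] at this
  · change constantCoeff ((vR w1.cf).comb (six pR (vR w2.ct))).c5 -
      constantCoeff ((vR w1.ct).comb (six pR (vR w2.cf))).c5 ≠ 0
    rw [cc_comb, cc_comb, ← Int.cast_sub]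
    exact Int.cast_ne_zero.mpr soc_ne

end

theorem example_exists :
    ∃ (A : Type) (_ : CommRing A) (_ : Algebra ℂ A),
      IsDomain A ∧ Algebra.FiniteType ℂ A ∧ IsIntegrallyClosed A ∧
      ringKrullDim A = 2 ∧
      Nonempty (Derivation ℂ A A ≃ₗ[A] (Fin 2 → A)) ∧
      ∃ (m : Ideal A) (_ : m.IsMaximal), ¬ IsRegularLocalRing (Localization.AtPrime m) := by
  obtain ⟨hdom, hinj⟩ := isDomain_and_inj pR pR_irreducible
  have := finite_q pR
  have := free_q pR hinj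
  exact final (gq pR) (sq pR) (yq pR)
    ⟨pf_q pR, evq_surjective pR, hinj, exists_der pR, exists_eta pR pR_cc⟩

end Crest.Agent.R278
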