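import Crest.Agent.R278.Defs

/-!
# Row 278: freeness criterion for the module of derivations
-/

set_option autoImplicit false

namespace Crest.Agent.R278

/-- Power version of "`f, t` is a regular sequence".
Proof: induction on the exponents (cancel `f ≠ 0`). -/
theorem reg_pow {A : Type*} [CommRing A] [IsDomain A] (f t : A) (hf0 : f ≠ 0)
    (hreg : ∀ a b : A, t * a = f * b → f ∣ a) (m n : ℕ) (a b : A)
    (h : t ^ m * a = f ^ n * b) : f ^ n ∣ a := by
  have h1 : ∀ (m : ℕ) (a b : A), t ^ m * a = f * b → f ∣ a := by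
    intro m
    induction m with
    | zero => intro a b h; exact ⟨b, by simpa using h⟩
    | succ m ih =>
      intro a b h
      obtain ⟨c, hc⟩ := hreg (t ^ m * a) b (by rw [← h]; ring)
      exact ih a c hc
  induction n generalizing a b with
  | zero => simp
  | succ n ih =>
    obtain ⟨c, rfl⟩ := h1 m a (f ^ n * b) (by rw [h]; ring)
    have h2 : t ^ m * c = f ^ n * b := mul_left_cancel₀ hf0 (by linear_combination h)
    obtain ⟨e, rfl⟩ := ih c b h2
    exact ⟨e, by ring⟩

/-- If derivations are determined by their values on `f, t`, and `Δ_{ft} = 0`, all minors vanish.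
Proof: `D₂ f • D₁ − D₁ f • D₂` and `D₂ t • D₁ − D₁ t • D₂` kill `f` and `t`, so they are `0`.
If `D₁ f = D₁ t = 0` then `D₁ = 0`. Otherwise e.g. `D₁ f ≠ 0` and `D₁ f * Δ_{ab} = 0`. -/
theorem delta_eq_zero_of {k A : Type*} [CommRing k] [CommRing A] [IsDomain A] [Algebra k A]
    (f t : A) (D₁ D₂ : Derivation k A A)
    (hext : ∀ D : Derivation k A A, D f = 0 → D t = 0 → D = 0)
    (h : D₁ f * D₂ t - D₁ t * D₂ f = 0) (a b : A) : D₁ a * D₂ b - D₁ b * D₂ a = 0 := by
  have e1 : D₂ f • D₁ - D₁ f • D₂ = 0 := by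
    apply hext
    · simp only [Derivation.sub_apply, Derivation.smul_apply, smul_eq_mul]; ring
    · simp only [Derivation.sub_apply, Derivation.smul_apply, smul_eq_mul]; linear_combination -h
  have e2 : D₂ t • D₁ - D₁ t • D₂ = 0 := by
    apply hext
    · simp only [Derivation.sub_apply, Derivation.smul_apply, smul_eq_mul]; linear_combination h
    · simp only [Derivation.sub_apply, Derivation.smul_apply, smul_eq_mul]; ring
  have e1' : ∀ x, D₂ f * D₁ x - D₁ f * D₂ x = 0 := fun x => by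
    simpa only [Derivation.sub_apply, Derivation.smul_apply, smul_eq_mul, Derivation.zero_apply]
      using DFunLike.congr_fun e1 x
  have e2' : ∀ x, D₂ t * D₁ x - D₁ t * D₂ x = 0 := fun x => by
    simpa only [Derivation.sub_apply, Derivation.smul_apply, smul_eq_mul, Derivation.zero_apply]
      using DFunLike.congr_fun e2 x
  by_cases hf : D₁ f = 0
  · by_cases ht : D₁ t = 0
    · rw [hext D₁ hf ht]; simp
    · apply mul_left_cancel₀ ht
      linear_combination (D₁ b) * e2' a - (D₁ a) * e2' b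
  · apply mul_left_cancel₀ hf
    linear_combination (D₁ b) * e1' a - (D₁ a) * e1' b

/-- Freeness criterion.
Proof: `Δ := Δ_{ft} ≠ 0` (else `deltaIdeal = ⊥` by `delta_eq_zero_of`, so `f ^ N = 0`).
For `D` put `α = D f * D₂ t − D t * D₂ f`, `β = D₁ f * D t − D₁ t * D f`; `Δ • D = α • D₁ + β • D₂`
by `hext`. For all `a b`: `Δ * (D a * D₂ b − D b * D₂ a) = α * Δ_{ab}`, so `Δ ∣ α * x` for every
`x ∈ deltaIdeal` (span induction), same for `β`. From `f^N α = Δ a₁`, `t^N α = Δ a₂` get
`t^N a₁ = f^N a₂`, so `f^N ∣ a₁` (`reg_pow`) and `Δ ∣ α`. Hence `D ∈ A D₁ + A D₂`.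
The map `c ↦ c 0 • D₁ + c 1 • D₂` is injective because `Δ ≠ 0`; `LinearEquiv.ofBijective`. -/
theorem free_of_delta {k A : Type*} [CommRing k] [CommRing A] [IsDomain A] [Algebra k A]
    (f t : A) (D₁ D₂ : Derivation k A A)
    (hext : ∀ D : Derivation k A A, D f = 0 → D t = 0 → D = 0)
    (hf0 : f ≠ 0) (hreg : ∀ a b : A, t * a = f * b → f ∣ a) (N : ℕ)
    (hf : f ^ N ∈ deltaIdeal D₁ D₂) (ht : t ^ N ∈ deltaIdeal D₁ D₂) :
    Nonempty (Derivation k A A ≃ₗ[A] (Fin 2 → A)) := by
  set Δ := D₁ f * D₂ t - D₁ t * D₂ f with hΔ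
  have hΔ0 : Δ ≠ 0 := by
    intro h0
    have hbot : deltaIdeal D₁ D₂ ≤ ⊥ := by
      refine Ideal.span_le.2 ?_
      rintro x ⟨a, b, rfl⟩
      exact delta_eq_zero_of f t D₁ D₂ hext h0 a b
    exact pow_ne_zero N hf0 (Ideal.mem_bot.1 (hbot hf))
  -- divisibility criterion
  have hdiv : ∀ α : A, (∀ a b : A, Δ ∣ α * (D₁ a * D₂ b - D₁ b * D₂ a)) → Δ ∣ α := by
    intro α hα
    have hall : ∀ x ∈ deltaIdeal D₁ D₂, Δ ∣ α * x := by
      intro x hx
      refine Submodule.span_induction (p := fun x _ => Δ ∣ α * x) ?_ ?_ ?_ ?_ hx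
      · rintro x ⟨a, b, rfl⟩; exact hα a b
      · simp
      · intro x y _ _ hx hy; rw [mul_add]; exact dvd_add hx hy
      · intro c x _ hx
        rw [smul_eq_mul, mul_left_comm]; exact hx.mul_left c
    obtain ⟨a₁, h₁⟩ := hall _ hf
    obtain ⟨a₂, h₂⟩ := hall _ ht
    have h3 : t ^ N * a₁ = f ^ N * a₂ :=
      mul_left_cancel₀ hΔ0 (by linear_combination f ^ N * h₂ - t ^ N * h₁)
    obtain ⟨c, rfl⟩ := reg_pow f t hf0 hreg N N a₁ a₂ h3
    exact ⟨c, mul_left_cancel₀ (pow_ne_zero N hf0) (by linear_combination h₁)⟩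
  let φ : (Fin 2 → A) →ₗ[A] Derivation k A A :=
    (LinearMap.toSpanSingleton A _ D₁).comp (LinearMap.proj 0) +
      (LinearMap.toSpanSingleton A _ D₂).comp (LinearMap.proj 1)
  have hφ : ∀ (c : Fin 2 → A) (x : A), φ c x = c 0 * D₁ x + c 1 * D₂ x := by
    intro c x
    simp [φ]
  refine ⟨(LinearEquiv.ofBijective φ ⟨?_, ?_⟩).symm⟩
  · rw [injective_iff_map_eq_zero]
    intro c hc
    have hcf := hφ c f
    have hct := hφ c t
    rw [hc, Derivation.zero_apply] at hcf hct
    have h0 : c 0 = 0 :=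
      mul_left_cancel₀ hΔ0 (by rw [hΔ]; linear_combination D₂ f * hct - D₂ t * hcf)
    have h1 : c 1 = 0 :=
      mul_left_cancel₀ hΔ0 (by rw [hΔ]; linear_combination D₁ t * hcf - D₁ f * hct)
    funext i
    fin_cases i
    · exact h0
    · exact h1
  · intro D
    set α := D f * D₂ t - D t * D₂ f with hα
    set β := D₁ f * D t - D₁ t * D f with hβ
    have e : Δ • D - α • D₁ - β • D₂ = 0 := by
      apply hext
      · simp only [Derivation.sub_apply, Derivation.smul_apply, smul_eq_mul, hΔ, hα, hβ]; ring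
      · simp only [Derivation.sub_apply, Derivation.smul_apply, smul_eq_mul, hΔ, hα, hβ]; ring
    have e' : ∀ x, Δ * D x - α * D₁ x - β * D₂ x = 0 := fun x => by
      simpa only [Derivation.sub_apply, Derivation.smul_apply, smul_eq_mul, Derivation.zero_apply]
        using DFunLike.congr_fun e x
    obtain ⟨a, ha⟩ := hdiv α fun a b =>
      ⟨D a * D₂ b - D b * D₂ a, by linear_combination D₂ a * e' b - D₂ b * e' a⟩
    obtain ⟨b, hb⟩ := hdiv β fun a b =>
      ⟨D₁ a * D b - D₁ b * D a, by linear_combination D₁ b * e' a - D₁ a * e' b⟩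
    refine ⟨![a, b], ?_⟩
    ext x
    rw [hφ]
    apply mul_left_cancel₀ hΔ0
    simp only [Matrix.cons_val_zero, Matrix.cons_val_one, Matrix.cons_val_fin_one]
    linear_combination -e' x - D₁ x * ha - D₂ x * hb

end Crest.Agent.R278
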