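import Crest.Agent.R278.Defs

/-!
# Row 278: the explicit rank six algebra, as formulas over any type with `+ * -`

Parameters `f t B C E F m n`, generators `g s y`, basis `1, g, s, y, u, g u` with
`u = f (s + y + E) - g (t - g)`. The functions below only use `+ * - 0` and integer casts, so that they
can be run on other carriers (big numbers in the kernel); `OpRel` transports them.
-/

set_option autoImplicit false

namespace Crest.Agent.R278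

/-- Six coordinates. -/
structure V6 (α : Type*) where
  (c0 c1 c2 c3 c4 c5 : α)

/-- The eight parameters. -/
structure Par (α : Type*) where
  (f t B C E F m n : α)

def V6.map {α β : Type*} (h : α → β) (x : V6 α) : V6 β :=
  ⟨h x.c0, h x.c1, h x.c2, h x.c3, h x.c4, h x.c5⟩

def V6.get {α : Type*} (x : V6 α) : Fin 6 → α := ![x.c0, x.c1, x.c2, x.c3, x.c4, x.c5]

def Par.map {α β : Type*} (h : α → β) (p : Par α) : Par β :=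
  ⟨h p.f, h p.t, h p.B, h p.C, h p.E, h p.F, h p.m, h p.n⟩

section ops
variable {α : Type*} [Add α] [Mul α]

def V6.add (x y : V6 α) : V6 α :=
  ⟨x.c0 + y.c0, x.c1 + y.c1, x.c2 + y.c2, x.c3 + y.c3, x.c4 + y.c4, x.c5 + y.c5⟩

def V6.smul (r : α) (x : V6 α) : V6 α :=
  ⟨r * x.c0, r * x.c1, r * x.c2, r * x.c3, r * x.c4, r * x.c5⟩

def V6.dot (x y : V6 α) : α :=
  x.c0 * y.c0 + x.c1 * y.c1 + x.c2 * y.c2 + x.c3 * y.c3 + x.c4 * y.c4 + x.c5 * y.c5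

def V6.comb (x : V6 α) (T : V6 (V6 α)) : V6 α :=
  ⟨x.c0 * T.c0.c0 + x.c1 * T.c1.c0 + x.c2 * T.c2.c0 + x.c3 * T.c3.c0 + x.c4 * T.c4.c0 + x.c5 * T.c5.c0,
   x.c0 * T.c0.c1 + x.c1 * T.c1.c1 + x.c2 * T.c2.c1 + x.c3 * T.c3.c1 + x.c4 * T.c4.c1 + x.c5 * T.c5.c1,
   x.c0 * T.c0.c2 + x.c1 * T.c1.c2 + x.c2 * T.c2.c2 + x.c3 * T.c3.c2 + x.c4 * T.c4.c2 + x.c5 * T.c5.c2,
   x.c0 * T.c0.c3 + x.c1 * T.c1.c3 + x.c2 * T.c2.c3 + x.c3 * T.c3.c3 + x.c4 * T.c4.c3 + x.c5 * T.c5.c3,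
   x.c0 * T.c0.c4 + x.c1 * T.c1.c4 + x.c2 * T.c2.c4 + x.c3 * T.c3.c4 + x.c4 * T.c4.c4 + x.c5 * T.c5.c4,
   x.c0 * T.c0.c5 + x.c1 * T.c1.c5 + x.c2 * T.c2.c5 + x.c3 * T.c3.c5 + x.c4 * T.c4.c5 + x.c5 * T.c5.c5⟩

variable [Neg α] [Zero α] [IntCast α]

def rgg (p : Par α) : V6 α :=
  ⟨-(p.f * p.E),
    p.t,
    -(p.f),
    -(p.f),
    ((1 : ℤ) : α),
    0⟩

def rgs (p : Par α) : V6 α :=
  ⟨-(p.f * p.f * p.F),
    p.B,
    p.t,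
    0,
    -(p.f),
    0⟩

def rgy (p : Par α) : V6 α :=
  ⟨-(p.t * p.C),
    p.C,
    0,
    0,
    p.f,
    0⟩

def rgz (p : Par α) : V6 α :=
  ⟨-(p.f * p.f * p.f * p.F * p.m) + -(p.f * p.f * p.t * p.n) + -(p.f * p.f * p.B * p.F) + -(p.f * p.t * p.t * p.C) + -(p.f * p.t * p.C * p.m) + p.f * p.E * p.n + -(p.t * p.B * p.C) + p.t * p.C * p.C + p.t * p.C * p.E + p.t * p.C * p.F,
    -(p.f * p.f * p.t * p.m) + -(p.f * p.t * p.B) + p.f * p.t * p.C + p.f * p.B * p.m + p.f * p.C * p.m + p.f * p.E * p.m + p.B * p.B + p.B * p.E + -(p.C * p.C) + -(p.C * p.E) + -(p.C * p.F),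
    p.f * p.t * p.m + p.f * p.n + p.t * p.B,
    p.f * p.f * p.F + p.f * p.n + p.t * p.C,
    -(p.f * p.B) + -(p.f * p.C) + -(p.f * p.E) + -(p.f * p.F) + -(p.n),
    p.t + -(p.m)⟩

def rss (p : Par α) : V6 α :=
  ⟨-(p.f * p.f * p.n) + -(p.f * p.t * p.C) + -(p.f * p.E * p.m) + -(p.B * p.C) + p.C * p.E + p.C * p.F,
    -(p.f * p.f * p.m) + -(p.f * p.B) + p.f * p.C + p.f * p.F + p.t * p.m + p.n,
    -(p.f * p.m) + p.C + -(p.E),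
    -(p.f * p.m) + p.C,
    p.m,
    ((1 : ℤ) : α)⟩

def rsy (p : Par α) : V6 α :=
  ⟨p.f * p.f * p.n + p.f * p.t * p.C + p.B * p.C,
    p.f * p.f * p.m + p.f * p.B + -(p.f * p.C),
    0,
    0,
    0,
    0⟩

def rsu (p : Par α) : V6 α :=
  ⟨-(p.f * p.f * p.E * p.m) + -(p.f * p.B * p.E) + p.f * p.C * p.E + p.f * p.C * p.F,
    p.f * p.t * p.m + p.f * p.n + p.t * p.B,
    -(p.f * p.f * p.m) + -(p.f * p.B) + p.f * p.C,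
    -(p.f * p.f * p.m) + -(p.f * p.B) + p.f * p.C,
    p.f * p.m + p.B,
    0⟩

def ryy (p : Par α) : V6 α :=
  ⟨-(p.f * p.f * p.n) + -(p.f * p.t * p.C) + p.f * p.E * p.m + p.t * p.n + -(p.B * p.C) + p.B * p.E,
    -(p.f * p.f * p.m) + -(p.f * p.B) + p.f * p.C + -(p.n),
    p.f * p.m + p.B,
    p.f * p.m + p.B + -(p.E) + -(p.F),
    p.t + -(p.m),
    -(((1 : ℤ) : α))⟩

def ryu (p : Par α) : V6 α :=
  ⟨p.f * p.f * p.E * p.m + p.f * p.t * p.n + p.f * p.B * p.E + -(p.f * p.C * p.E) + p.t * p.t * p.C,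
    -(p.f * p.n) + -(p.t * p.C),
    p.f * p.f * p.m + p.f * p.B + -(p.f * p.C),
    p.f * p.f * p.m + p.f * p.B + -(p.f * p.C) + -(p.f * p.F),
    -(p.f * p.m) + p.C,
    0⟩

/-- Multiplication by `g`. -/
def tabG (p : Par α) : V6 (V6 α) :=
  ⟨⟨0, ((1 : ℤ) : α), 0, 0, 0, 0⟩, rgg p, rgs p, rgy p, ⟨0, 0, 0, 0, 0, ((1 : ℤ) : α)⟩, rgz p⟩

/-- Multiplication by `s`. -/
def tabS (p : Par α) : V6 (V6 α) :=
  ⟨⟨0, 0, ((1 : ℤ) : α), 0, 0, 0⟩, rgs p, rss p, rsy p, rsu p, (rsu p).comb (tabG p)⟩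

/-- Multiplication by `y`. -/
def tabY (p : Par α) : V6 (V6 α) :=
  ⟨⟨0, 0, 0, ((1 : ℤ) : α), 0, 0⟩, rgy p, rsy p, ryy p, ryu p, (ryu p).comb (tabG p)⟩

/-- Multiplication by `u`. -/
def mulU (p : Par α) (x : V6 α) : V6 α :=
  (((x.comb (tabG p)).comb (tabG p)).add (V6.smul (-p.t) (x.comb (tabG p)))).add
    (V6.smul p.f (((x.comb (tabS p)).add (x.comb (tabY p))).add (V6.smul p.E x)))

/-- The products of `x` with the six basis elements. -/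
def six (p : Par α) (x : V6 α) : V6 (V6 α) :=
  ⟨x, x.comb (tabG p), x.comb (tabS p), x.comb (tabY p), mulU p x, (mulU p x).comb (tabG p)⟩

def lamf (p : Par α) : V6 α :=
  ⟨-(((4 : ℤ) : α) * p.f * p.t * p.n) + -(((2 : ℤ) : α) * p.f * p.C * p.F) + -(p.f * p.E * p.F) + -(((3 : ℤ) : α) * p.t * p.t * p.C),
    -(((4 : ℤ) : α) * p.f * p.t * p.m) + -(((3 : ℤ) : α) * p.t * p.B) + ((3 : ℤ) : α) * p.t * p.C,
    -(((3 : ℤ) : α) * p.f * p.F),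
    ((3 : ℤ) : α) * p.f * p.F,
    -(((2 : ℤ) : α) * p.B) + -(((2 : ℤ) : α) * p.C) + -(((2 : ℤ) : α) * p.E) + -(p.F),
    0⟩

def lamt (p : Par α) : V6 α :=
  ⟨-(((2 : ℤ) : α) * p.f * p.f * p.n) + -(((3 : ℤ) : α) * p.f * p.t * p.C) + -(((2 : ℤ) : α) * p.f * p.E * p.m) + -(((2 : ℤ) : α) * p.B * p.C) + ((2 : ℤ) : α) * p.C * p.E + ((2 : ℤ) : α) * p.C * p.F,
    -(((2 : ℤ) : α) * p.f * p.f * p.m) + -(((2 : ℤ) : α) * p.f * p.B) + ((2 : ℤ) : α) * p.f * p.C + ((2 : ℤ) : α) * p.f * p.F + ((2 : ℤ) : α) * p.t * p.m + ((2 : ℤ) : α) * p.n,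
    -(((2 : ℤ) : α) * p.f * p.m) + p.C + -(p.E),
    -(((2 : ℤ) : α) * p.f * p.m) + ((3 : ℤ) : α) * p.C,
    ((2 : ℤ) : α) * p.m,
    ((3 : ℤ) : α)⟩

def lamB (p : Par α) : V6 α :=
  ⟨-(((2 : ℤ) : α) * p.f * p.f * p.F) + -(p.t * p.C),
    -(p.f * p.t) + ((2 : ℤ) : α) * p.B + p.E,
    ((2 : ℤ) : α) * p.t,
    0,
    -(((2 : ℤ) : α) * p.f),
    0⟩

def lamC (p : Par α) : V6 α :=
  ⟨-(p.f * p.t * p.t) + -(p.t * p.B) + ((2 : ℤ) : α) * p.t * p.C + p.t * p.E + p.t * p.F,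
    p.f * p.t + -(((2 : ℤ) : α) * p.C) + -(p.E) + -(p.F),
    0,
    ((2 : ℤ) : α) * p.t,
    -(((2 : ℤ) : α) * p.f),
    0⟩

def lamE (p : Par α) : V6 α :=
  ⟨-(p.f * p.f * p.F) + p.t * p.C,
    p.B + -(p.C),
    0,
    0,
    -(((2 : ℤ) : α) * p.f),
    0⟩

def lamF (p : Par α) : V6 α :=
  ⟨p.t * p.C,
    -(p.C),
    -(p.f * p.f),
    p.f * p.f,
    -(p.f),
    0⟩

def lamm (p : Par α) : V6 α :=
  ⟨-(p.f * p.f * p.f * p.F) + -(p.f * p.t * p.C),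
    -(p.f * p.f * p.t) + p.f * p.B + p.f * p.C + p.f * p.E,
    p.f * p.t,
    0,
    0,
    -(((1 : ℤ) : α))⟩

def lamn (p : Par α) : V6 α :=
  ⟨-(p.f * p.f * p.t) + p.f * p.E,
    0,
    p.f,
    p.f,
    -(((1 : ℤ) : α)),
    0⟩

/-- Coordinates of `π_g`. -/
def piG (p : Par α) : V6 α :=
  ⟨-(p.f * p.f * p.t * p.m) + -(p.f * p.t * p.B) + p.f * p.t * p.C + p.f * p.t * p.F + ((5 : ℤ) : α) * p.f * p.E * p.m + ((2 : ℤ) : α) * p.t * p.n + ((2 : ℤ) : α) * p.B * p.E + -(((2 : ℤ) : α) * p.C * p.E) + -(((2 : ℤ) : α) * p.C * p.F),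
    -(((3 : ℤ) : α) * p.f * p.F) + -(((2 : ℤ) : α) * p.t * p.m) + -(((4 : ℤ) : α) * p.n),
    ((5 : ℤ) : α) * p.f * p.m + ((3 : ℤ) : α) * p.B + -(p.C) + p.E,
    ((5 : ℤ) : α) * p.f * p.m + p.B + -(((3 : ℤ) : α) * p.C) + -(p.E) + -(p.F),
    ((3 : ℤ) : α) * p.t + -(((5 : ℤ) : α) * p.m),
    -(((6 : ℤ) : α))⟩

/-- Coordinates of `π` in the direction `d` of the parameter space. -/
def piD (p d : Par α) : V6 α :=
  (((((((V6.smul d.f (lamf p)).add (V6.smul d.t (lamt p))).add (V6.smul d.B (lamB p))).add (V6.smul d.C (lamC p))).add (V6.smul d.E (lamE p))).add (V6.smul d.F (lamF p))).add (V6.smul d.m (lamm p))).add (V6.smul d.n (lamn p))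

/-- Coordinates of `cf * π_f + ct * π_t + cg * π_g`. -/
def resid (p df dt : Par α) (cf ct cg : V6 α) : V6 α :=
  ((cf.comb (six p (piD p df))).add (ct.comb (six p (piD p dt)))).add (cg.comb (six p (piG p)))

end ops

/-- A relation compatible with the operations. -/
structure OpRel {α β : Type*} [Add α] [Mul α] [Neg α] [Zero α] [IntCast α]
    [Add β] [Mul β] [Neg β] [Zero β] [IntCast β] (ρ : α → β → Prop) : Prop where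
  add : ∀ {a a' : α} {b b' : β}, ρ a b → ρ a' b' → ρ (a + a') (b + b')
  mul : ∀ {a a' : α} {b b' : β}, ρ a b → ρ a' b' → ρ (a * a') (b * b')
  neg : ∀ {a : α} {b : β}, ρ a b → ρ (-a) (-b)
  zero : ρ 0 0
  int : ∀ n : ℤ, ρ (n : α) (n : β)

structure V6.Rel {α β : Type*} (ρ : α → β → Prop) (x : V6 α) (y : V6 β) : Prop where
  (h0 : ρ x.c0 y.c0) (h1 : ρ x.c1 y.c1) (h2 : ρ x.c2 y.c2) (h3 : ρ x.c3 y.c3) (h4 : ρ x.c4 y.c4)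
  (h5 : ρ x.c5 y.c5)

structure Par.Rel {α β : Type*} (ρ : α → β → Prop) (p : Par α) (q : Par β) : Prop where
  (hf : ρ p.f q.f) (ht : ρ p.t q.t) (hB : ρ p.B q.B) (hC : ρ p.C q.C) (hE : ρ p.E q.E)
  (hF : ρ p.F q.F) (hm : ρ p.m q.m) (hn : ρ p.n q.n)

section rel
variable {α β : Type*} [Add α] [Mul α] [Neg α] [Zero α] [IntCast α]
  [Add β] [Mul β] [Neg β] [Zero β] [IntCast β] {ρ : α → β → Prop}

theorem OpRel.vadd (h : OpRel ρ) {x x' : V6 α} {y y' : V6 β} (a : V6.Rel ρ x y)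
    (b : V6.Rel ρ x' y') : V6.Rel ρ (x.add x') (y.add y') :=
  ⟨h.add a.h0 b.h0, h.add a.h1 b.h1, h.add a.h2 b.h2, h.add a.h3 b.h3, h.add a.h4 b.h4,
    h.add a.h5 b.h5⟩

theorem OpRel.vsmul (h : OpRel ρ) {r : α} {r' : β} {x : V6 α} {y : V6 β} (a : ρ r r')
    (b : V6.Rel ρ x y) : V6.Rel ρ (V6.smul r x) (V6.smul r' y) :=
  ⟨h.mul a b.h0, h.mul a b.h1, h.mul a b.h2, h.mul a b.h3, h.mul a b.h4, h.mul a b.h5⟩

theorem OpRel.comb (h : OpRel ρ) {x : V6 α} {y : V6 β} {T : V6 (V6 α)} {U : V6 (V6 β)}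
    (a : V6.Rel ρ x y) (b : V6.Rel (V6.Rel ρ) T U) : V6.Rel ρ (x.comb T) (y.comb U) :=
  ⟨h.add (h.add (h.add (h.add (h.add (h.mul a.h0 b.h0.h0) (h.mul a.h1 b.h1.h0)) (h.mul a.h2 b.h2.h0)) (h.mul a.h3 b.h3.h0)) (h.mul a.h4 b.h4.h0)) (h.mul a.h5 b.h5.h0),
   h.add (h.add (h.add (h.add (h.add (h.mul a.h0 b.h0.h1) (h.mul a.h1 b.h1.h1)) (h.mul a.h2 b.h2.h1)) (h.mul a.h3 b.h3.h1)) (h.mul a.h4 b.h4.h1)) (h.mul a.h5 b.h5.h1),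
   h.add (h.add (h.add (h.add (h.add (h.mul a.h0 b.h0.h2) (h.mul a.h1 b.h1.h2)) (h.mul a.h2 b.h2.h2)) (h.mul a.h3 b.h3.h2)) (h.mul a.h4 b.h4.h2)) (h.mul a.h5 b.h5.h2),
   h.add (h.add (h.add (h.add (h.add (h.mul a.h0 b.h0.h3) (h.mul a.h1 b.h1.h3)) (h.mul a.h2 b.h2.h3)) (h.mul a.h3 b.h3.h3)) (h.mul a.h4 b.h4.h3)) (h.mul a.h5 b.h5.h3),
   h.add (h.add (h.add (h.add (h.add (h.mul a.h0 b.h0.h4) (h.mul a.h1 b.h1.h4)) (h.mul a.h2 b.h2.h4)) (h.mul a.h3 b.h3.h4)) (h.mul a.h4 b.h4.h4)) (h.mul a.h5 b.h5.h4),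
   h.add (h.add (h.add (h.add (h.add (h.mul a.h0 b.h0.h5) (h.mul a.h1 b.h1.h5)) (h.mul a.h2 b.h2.h5)) (h.mul a.h3 b.h3.h5)) (h.mul a.h4 b.h4.h5)) (h.mul a.h5 b.h5.h5)⟩

theorem OpRel.rgg (h : OpRel ρ) {p : Par α} {q : Par β} (a : Par.Rel ρ p q) :
    V6.Rel ρ (rgg p) (rgg q) :=
  ⟨(h.neg (h.mul a.hf a.hE)),
   a.ht,
   (h.neg a.hf),
   (h.neg a.hf),
   (h.int 1),
   h.zero⟩

theorem OpRel.rgs (h : OpRel ρ) {p : Par α} {q : Par β} (a : Par.Rel ρ p q) :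
    V6.Rel ρ (rgs p) (rgs q) :=
  ⟨(h.neg (h.mul (h.mul a.hf a.hf) a.hF)),
   a.hB,
   a.ht,
   h.zero,
   (h.neg a.hf),
   h.zero⟩

theorem OpRel.rgy (h : OpRel ρ) {p : Par α} {q : Par β} (a : Par.Rel ρ p q) :
    V6.Rel ρ (rgy p) (rgy q) :=
  ⟨(h.neg (h.mul a.ht a.hC)),
   a.hC,
   h.zero,
   h.zero,
   a.hf,
   h.zero⟩

theorem OpRel.rgz (h : OpRel ρ) {p : Par α} {q : Par β} (a : Par.Rel ρ p q) :
    V6.Rel ρ (rgz p) (rgz q) :=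
  ⟨(h.add (h.add (h.add (h.add (h.add (h.add (h.add (h.add (h.add (h.neg (h.mul (h.mul (h.mul (h.mul a.hf a.hf) a.hf) a.hF) a.hm)) (h.neg (h.mul (h.mul (h.mul a.hf a.hf) a.ht) a.hn))) (h.neg (h.mul (h.mul (h.mul a.hf a.hf) a.hB) a.hF))) (h.neg (h.mul (h.mul (h.mul a.hf a.ht) a.ht) a.hC))) (h.neg (h.mul (h.mul (h.mul a.hf a.ht) a.hC) a.hm))) (h.mul (h.mul a.hf a.hE) a.hn)) (h.neg (h.mul (h.mul a.ht a.hB) a.hC))) (h.mul (h.mul a.ht a.hC) a.hC)) (h.mul (h.mul a.ht a.hC) a.hE)) (h.mul (h.mul a.ht a.hC) a.hF)),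
   (h.add (h.add (h.add (h.add (h.add (h.add (h.add (h.add (h.add (h.add (h.neg (h.mul (h.mul (h.mul a.hf a.hf) a.ht) a.hm)) (h.neg (h.mul (h.mul a.hf a.ht) a.hB))) (h.mul (h.mul a.hf a.ht) a.hC)) (h.mul (h.mul a.hf a.hB) a.hm)) (h.mul (h.mul a.hf a.hC) a.hm)) (h.mul (h.mul a.hf a.hE) a.hm)) (h.mul a.hB a.hB)) (h.mul a.hB a.hE)) (h.neg (h.mul a.hC a.hC))) (h.neg (h.mul a.hC a.hE))) (h.neg (h.mul a.hC a.hF))),
   (h.add (h.add (h.mul (h.mul a.hf a.ht) a.hm) (h.mul a.hf a.hn)) (h.mul a.ht a.hB)),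
   (h.add (h.add (h.mul (h.mul a.hf a.hf) a.hF) (h.mul a.hf a.hn)) (h.mul a.ht a.hC)),
   (h.add (h.add (h.add (h.add (h.neg (h.mul a.hf a.hB)) (h.neg (h.mul a.hf a.hC))) (h.neg (h.mul a.hf a.hE))) (h.neg (h.mul a.hf a.hF))) (h.neg a.hn)),
   (h.add a.ht (h.neg a.hm))⟩

theorem OpRel.rss (h : OpRel ρ) {p : Par α} {q : Par β} (a : Par.Rel ρ p q) :
    V6.Rel ρ (rss p) (rss q) :=
  ⟨(h.add (h.add (h.add (h.add (h.add (h.neg (h.mul (h.mul a.hf a.hf) a.hn)) (h.neg (h.mul (h.mul a.hf a.ht) a.hC))) (h.neg (h.mul (h.mul a.hf a.hE) a.hm))) (h.neg (h.mul a.hB a.hC))) (h.mul a.hC a.hE)) (h.mul a.hC a.hF)),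
   (h.add (h.add (h.add (h.add (h.add (h.neg (h.mul (h.mul a.hf a.hf) a.hm)) (h.neg (h.mul a.hf a.hB))) (h.mul a.hf a.hC)) (h.mul a.hf a.hF)) (h.mul a.ht a.hm)) a.hn),
   (h.add (h.add (h.neg (h.mul a.hf a.hm)) a.hC) (h.neg a.hE)),
   (h.add (h.neg (h.mul a.hf a.hm)) a.hC),
   a.hm,
   (h.int 1)⟩

theorem OpRel.rsy (h : OpRel ρ) {p : Par α} {q : Par β} (a : Par.Rel ρ p q) :
    V6.Rel ρ (rsy p) (rsy q) :=
  ⟨(h.add (h.add (h.mul (h.mul a.hf a.hf) a.hn) (h.mul (h.mul a.hf a.ht) a.hC)) (h.mul a.hB a.hC)),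
   (h.add (h.add (h.mul (h.mul a.hf a.hf) a.hm) (h.mul a.hf a.hB)) (h.neg (h.mul a.hf a.hC))),
   h.zero,
   h.zero,
   h.zero,
   h.zero⟩

theorem OpRel.rsu (h : OpRel ρ) {p : Par α} {q : Par β} (a : Par.Rel ρ p q) :
    V6.Rel ρ (rsu p) (rsu q) :=
  ⟨(h.add (h.add (h.add (h.neg (h.mul (h.mul (h.mul a.hf a.hf) a.hE) a.hm)) (h.neg (h.mul (h.mul a.hf a.hB) a.hE))) (h.mul (h.mul a.hf a.hC) a.hE)) (h.mul (h.mul a.hf a.hC) a.hF)),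
   (h.add (h.add (h.mul (h.mul a.hf a.ht) a.hm) (h.mul a.hf a.hn)) (h.mul a.ht a.hB)),
   (h.add (h.add (h.neg (h.mul (h.mul a.hf a.hf) a.hm)) (h.neg (h.mul a.hf a.hB))) (h.mul a.hf a.hC)),
   (h.add (h.add (h.neg (h.mul (h.mul a.hf a.hf) a.hm)) (h.neg (h.mul a.hf a.hB))) (h.mul a.hf a.hC)),
   (h.add (h.mul a.hf a.hm) a.hB),
   h.zero⟩

theorem OpRel.ryy (h : OpRel ρ) {p : Par α} {q : Par β} (a : Par.Rel ρ p q) :
    V6.Rel ρ (ryy p) (ryy q) :=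
  ⟨(h.add (h.add (h.add (h.add (h.add (h.neg (h.mul (h.mul a.hf a.hf) a.hn)) (h.neg (h.mul (h.mul a.hf a.ht) a.hC))) (h.mul (h.mul a.hf a.hE) a.hm)) (h.mul a.ht a.hn)) (h.neg (h.mul a.hB a.hC))) (h.mul a.hB a.hE)),
   (h.add (h.add (h.add (h.neg (h.mul (h.mul a.hf a.hf) a.hm)) (h.neg (h.mul a.hf a.hB))) (h.mul a.hf a.hC)) (h.neg a.hn)),
   (h.add (h.mul a.hf a.hm) a.hB),
   (h.add (h.add (h.add (h.mul a.hf a.hm) a.hB) (h.neg a.hE)) (h.neg a.hF)),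
   (h.add a.ht (h.neg a.hm)),
   (h.neg (h.int 1))⟩

theorem OpRel.ryu (h : OpRel ρ) {p : Par α} {q : Par β} (a : Par.Rel ρ p q) :
    V6.Rel ρ (ryu p) (ryu q) :=
  ⟨(h.add (h.add (h.add (h.add (h.mul (h.mul (h.mul a.hf a.hf) a.hE) a.hm) (h.mul (h.mul a.hf a.ht) a.hn)) (h.mul (h.mul a.hf a.hB) a.hE)) (h.neg (h.mul (h.mul a.hf a.hC) a.hE))) (h.mul (h.mul a.ht a.ht) a.hC)),
   (h.add (h.neg (h.mul a.hf a.hn)) (h.neg (h.mul a.ht a.hC))),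
   (h.add (h.add (h.mul (h.mul a.hf a.hf) a.hm) (h.mul a.hf a.hB)) (h.neg (h.mul a.hf a.hC))),
   (h.add (h.add (h.add (h.mul (h.mul a.hf a.hf) a.hm) (h.mul a.hf a.hB)) (h.neg (h.mul a.hf a.hC))) (h.neg (h.mul a.hf a.hF))),
   (h.add (h.neg (h.mul a.hf a.hm)) a.hC),
   h.zero⟩

theorem OpRel.lamf (h : OpRel ρ) {p : Par α} {q : Par β} (a : Par.Rel ρ p q) :
    V6.Rel ρ (lamf p) (lamf q) :=
  ⟨(h.add (h.add (h.add (h.neg (h.mul (h.mul (h.mul (h.int 4) a.hf) a.ht) a.hn)) (h.neg (h.mul (h.mul (h.mul (h.int 2) a.hf) a.hC) a.hF))) (h.neg (h.mul (h.mul a.hf a.hE) a.hF))) (h.neg (h.mul (h.mul (h.mul (h.int 3) a.ht) a.ht) a.hC))),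
   (h.add (h.add (h.neg (h.mul (h.mul (h.mul (h.int 4) a.hf) a.ht) a.hm)) (h.neg (h.mul (h.mul (h.int 3) a.ht) a.hB))) (h.mul (h.mul (h.int 3) a.ht) a.hC)),
   (h.neg (h.mul (h.mul (h.int 3) a.hf) a.hF)),
   (h.mul (h.mul (h.int 3) a.hf) a.hF),
   (h.add (h.add (h.add (h.neg (h.mul (h.int 2) a.hB)) (h.neg (h.mul (h.int 2) a.hC))) (h.neg (h.mul (h.int 2) a.hE))) (h.neg a.hF)),
   h.zero⟩

theorem OpRel.lamt (h : OpRel ρ) {p : Par α} {q : Par β} (a : Par.Rel ρ p q) :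
    V6.Rel ρ (lamt p) (lamt q) :=
  ⟨(h.add (h.add (h.add (h.add (h.add (h.neg (h.mul (h.mul (h.mul (h.int 2) a.hf) a.hf) a.hn)) (h.neg (h.mul (h.mul (h.mul (h.int 3) a.hf) a.ht) a.hC))) (h.neg (h.mul (h.mul (h.mul (h.int 2) a.hf) a.hE) a.hm))) (h.neg (h.mul (h.mul (h.int 2) a.hB) a.hC))) (h.mul (h.mul (h.int 2) a.hC) a.hE)) (h.mul (h.mul (h.int 2) a.hC) a.hF)),
   (h.add (h.add (h.add (h.add (h.add (h.neg (h.mul (h.mul (h.mul (h.int 2) a.hf) a.hf) a.hm)) (h.neg (h.mul (h.mul (h.int 2) a.hf) a.hB))) (h.mul (h.mul (h.int 2) a.hf) a.hC)) (h.mul (h.mul (h.int 2) a.hf) a.hF)) (h.mul (h.mul (h.int 2) a.ht) a.hm)) (h.mul (h.int 2) a.hn)),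
   (h.add (h.add (h.neg (h.mul (h.mul (h.int 2) a.hf) a.hm)) a.hC) (h.neg a.hE)),
   (h.add (h.neg (h.mul (h.mul (h.int 2) a.hf) a.hm)) (h.mul (h.int 3) a.hC)),
   (h.mul (h.int 2) a.hm),
   (h.int 3)⟩

theorem OpRel.lamB (h : OpRel ρ) {p : Par α} {q : Par β} (a : Par.Rel ρ p q) :
    V6.Rel ρ (lamB p) (lamB q) :=
  ⟨(h.add (h.neg (h.mul (h.mul (h.mul (h.int 2) a.hf) a.hf) a.hF)) (h.neg (h.mul a.ht a.hC))),
   (h.add (h.add (h.neg (h.mul a.hf a.ht)) (h.mul (h.int 2) a.hB)) a.hE),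
   (h.mul (h.int 2) a.ht),
   h.zero,
   (h.neg (h.mul (h.int 2) a.hf)),
   h.zero⟩

theorem OpRel.lamC (h : OpRel ρ) {p : Par α} {q : Par β} (a : Par.Rel ρ p q) :
    V6.Rel ρ (lamC p) (lamC q) :=
  ⟨(h.add (h.add (h.add (h.add (h.neg (h.mul (h.mul a.hf a.ht) a.ht)) (h.neg (h.mul a.ht a.hB))) (h.mul (h.mul (h.int 2) a.ht) a.hC)) (h.mul a.ht a.hE)) (h.mul a.ht a.hF)),
   (h.add (h.add (h.add (h.mul a.hf a.ht) (h.neg (h.mul (h.int 2) a.hC))) (h.neg a.hE)) (h.neg a.hF)),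
   h.zero,
   (h.mul (h.int 2) a.ht),
   (h.neg (h.mul (h.int 2) a.hf)),
   h.zero⟩

theorem OpRel.lamE (h : OpRel ρ) {p : Par α} {q : Par β} (a : Par.Rel ρ p q) :
    V6.Rel ρ (lamE p) (lamE q) :=
  ⟨(h.add (h.neg (h.mul (h.mul a.hf a.hf) a.hF)) (h.mul a.ht a.hC)),
   (h.add a.hB (h.neg a.hC)),
   h.zero,
   h.zero,
   (h.neg (h.mul (h.int 2) a.hf)),
   h.zero⟩

theorem OpRel.lamF (h : OpRel ρ) {p : Par α} {q : Par β} (a : Par.Rel ρ p q) :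
    V6.Rel ρ (lamF p) (lamF q) :=
  ⟨(h.mul a.ht a.hC),
   (h.neg a.hC),
   (h.neg (h.mul a.hf a.hf)),
   (h.mul a.hf a.hf),
   (h.neg a.hf),
   h.zero⟩

theorem OpRel.lamm (h : OpRel ρ) {p : Par α} {q : Par β} (a : Par.Rel ρ p q) :
    V6.Rel ρ (lamm p) (lamm q) :=
  ⟨(h.add (h.neg (h.mul (h.mul (h.mul a.hf a.hf) a.hf) a.hF)) (h.neg (h.mul (h.mul a.hf a.ht) a.hC))),
   (h.add (h.add (h.add (h.neg (h.mul (h.mul a.hf a.hf) a.ht)) (h.mul a.hf a.hB)) (h.mul a.hf a.hC)) (h.mul a.hf a.hE)),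
   (h.mul a.hf a.ht),
   h.zero,
   h.zero,
   (h.neg (h.int 1))⟩

theorem OpRel.lamn (h : OpRel ρ) {p : Par α} {q : Par β} (a : Par.Rel ρ p q) :
    V6.Rel ρ (lamn p) (lamn q) :=
  ⟨(h.add (h.neg (h.mul (h.mul a.hf a.hf) a.ht)) (h.mul a.hf a.hE)),
   h.zero,
   a.hf,
   a.hf,
   (h.neg (h.int 1)),
   h.zero⟩

theorem OpRel.piG (h : OpRel ρ) {p : Par α} {q : Par β} (a : Par.Rel ρ p q) :
    V6.Rel ρ (piG p) (piG q) :=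
  ⟨(h.add (h.add (h.add (h.add (h.add (h.add (h.add (h.add (h.neg (h.mul (h.mul (h.mul a.hf a.hf) a.ht) a.hm)) (h.neg (h.mul (h.mul a.hf a.ht) a.hB))) (h.mul (h.mul a.hf a.ht) a.hC)) (h.mul (h.mul a.hf a.ht) a.hF)) (h.mul (h.mul (h.mul (h.int 5) a.hf) a.hE) a.hm)) (h.mul (h.mul (h.int 2) a.ht) a.hn)) (h.mul (h.mul (h.int 2) a.hB) a.hE)) (h.neg (h.mul (h.mul (h.int 2) a.hC) a.hE))) (h.neg (h.mul (h.mul (h.int 2) a.hC) a.hF))),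
   (h.add (h.add (h.neg (h.mul (h.mul (h.int 3) a.hf) a.hF)) (h.neg (h.mul (h.mul (h.int 2) a.ht) a.hm))) (h.neg (h.mul (h.int 4) a.hn))),
   (h.add (h.add (h.add (h.mul (h.mul (h.int 5) a.hf) a.hm) (h.mul (h.int 3) a.hB)) (h.neg a.hC)) a.hE),
   (h.add (h.add (h.add (h.add (h.mul (h.mul (h.int 5) a.hf) a.hm) a.hB) (h.neg (h.mul (h.int 3) a.hC))) (h.neg a.hE)) (h.neg a.hF)),
   (h.add (h.mul (h.int 3) a.ht) (h.neg (h.mul (h.int 5) a.hm))),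
   (h.neg (h.int 6))⟩

theorem OpRel.tabG (h : OpRel ρ) {p : Par α} {q : Par β} (a : Par.Rel ρ p q) :
    V6.Rel (V6.Rel ρ) (tabG p) (tabG q) :=
  ⟨⟨h.zero, h.int 1, h.zero, h.zero, h.zero, h.zero⟩, h.rgg a, h.rgs a, h.rgy a, ⟨h.zero, h.zero, h.zero, h.zero, h.zero, h.int 1⟩, h.rgz a⟩

theorem OpRel.tabS (h : OpRel ρ) {p : Par α} {q : Par β} (a : Par.Rel ρ p q) :
    V6.Rel (V6.Rel ρ) (tabS p) (tabS q) :=
  ⟨⟨h.zero, h.zero, h.int 1, h.zero, h.zero, h.zero⟩, h.rgs a, h.rss a, h.rsy a, h.rsu a, h.comb (h.rsu a) (h.tabG a)⟩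

theorem OpRel.tabY (h : OpRel ρ) {p : Par α} {q : Par β} (a : Par.Rel ρ p q) :
    V6.Rel (V6.Rel ρ) (tabY p) (tabY q) :=
  ⟨⟨h.zero, h.zero, h.zero, h.int 1, h.zero, h.zero⟩, h.rgy a, h.rsy a, h.ryy a, h.ryu a, h.comb (h.ryu a) (h.tabG a)⟩

theorem OpRel.mulU (h : OpRel ρ) {p : Par α} {q : Par β} (a : Par.Rel ρ p q) {x : V6 α} {y : V6 β}
    (b : V6.Rel ρ x y) : V6.Rel ρ (mulU p x) (mulU q y) :=
  h.vadd (h.vadd (h.comb (h.comb b (h.tabG a)) (h.tabG a)) (h.vsmul (h.neg a.ht) (h.comb b (h.tabG a))))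
    (h.vsmul a.hf (h.vadd (h.vadd (h.comb b (h.tabS a)) (h.comb b (h.tabY a))) (h.vsmul a.hE b)))

theorem OpRel.six (h : OpRel ρ) {p : Par α} {q : Par β} (a : Par.Rel ρ p q) {x : V6 α} {y : V6 β}
    (b : V6.Rel ρ x y) : V6.Rel (V6.Rel ρ) (six p x) (six q y) :=
  ⟨b, h.comb b (h.tabG a), h.comb b (h.tabS a), h.comb b (h.tabY a), h.mulU a b,
    h.comb (h.mulU a b) (h.tabG a)⟩

theorem OpRel.piD (h : OpRel ρ) {p d : Par α} {q e : Par β} (a : Par.Rel ρ p q)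
    (b : Par.Rel ρ d e) : V6.Rel ρ (piD p d) (piD q e) :=
  h.vadd (h.vadd (h.vadd (h.vadd (h.vadd (h.vadd (h.vadd (h.vsmul b.hf (h.lamf a)) (h.vsmul b.ht (h.lamt a))) (h.vsmul b.hB (h.lamB a))) (h.vsmul b.hC (h.lamC a))) (h.vsmul b.hE (h.lamE a))) (h.vsmul b.hF (h.lamF a))) (h.vsmul b.hm (h.lamm a))) (h.vsmul b.hn (h.lamn a))

theorem OpRel.resid (h : OpRel ρ) {p df dt : Par α} {q ef et : Par β} (a : Par.Rel ρ p q)
    (af : Par.Rel ρ df ef) (at' : Par.Rel ρ dt et) {cf ct cg : V6 α} {df' dt' dg' : V6 β}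
    (bf : V6.Rel ρ cf df') (bt : V6.Rel ρ ct dt') (bg : V6.Rel ρ cg dg') :
    V6.Rel ρ (resid p df dt cf ct cg) (resid q ef et df' dt' dg') :=
  h.vadd (h.vadd (h.comb bf (h.six a (h.piD a af))) (h.comb bt (h.six a (h.piD a at'))))
    (h.comb bg (h.six a (h.piG a)))

end rel

theorem opRel_hom {α β : Type*} [CommRing α] [CommRing β] (φ : α →+* β) :
    OpRel (fun (a : α) (b : β) => b = φ a) where
  add := by rintro a a' b b' rfl rfl; simp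
  mul := by rintro a a' b b' rfl rfl; simp
  neg := by rintro a b rfl; simp
  zero := by simp
  int := by intro n; simp

theorem V6.Rel.eq_map {α β : Type*} {φ : α → β} {x : V6 α} {y : V6 β}
    (h : V6.Rel (fun a b => b = φ a) x y) : y = x.map φ := by
  obtain ⟨h0, h1, h2, h3, h4, h5⟩ := h
  cases y; simp only [V6.map] at *; simp only [h0, h1, h2, h3, h4, h5]

theorem V6.rel_map {α β : Type*} (φ : α → β) (x : V6 α) :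
    V6.Rel (fun a b => b = φ a) x (x.map φ) := ⟨rfl, rfl, rfl, rfl, rfl, rfl⟩

theorem Par.rel_map {α β : Type*} (φ : α → β) (p : Par α) :
    Par.Rel (fun a b => b = φ a) p (p.map φ) := ⟨rfl, rfl, rfl, rfl, rfl, rfl, rfl, rfl⟩

theorem resid_map {α β : Type*} [CommRing α] [CommRing β] (φ : α →+* β) (p df dt : Par α)
    (cf ct cg : V6 α) :
    resid (p.map φ) (df.map φ) (dt.map φ) (cf.map φ) (ct.map φ) (cg.map φ) =
      (resid p df dt cf ct cg).map φ :=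
  ((opRel_hom φ).resid (Par.rel_map φ p) (Par.rel_map φ df) (Par.rel_map φ dt) (V6.rel_map φ cf)
    (V6.rel_map φ ct) (V6.rel_map φ cg)).eq_map

end Crest.Agent.R278
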