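import Crest.Agent.R278.Syz
import Crest.Agent.R278.Abs

/-!
# Row 278: from the certificate to the example (abstract ring with the multiplication table)
-/

set_option autoImplicit false

noncomputable section

namespace Crest.Agent.R278

open MvPolynomial

theorem comb_six_map {α β : Type*} [CommRing α] [CommRing β] (φ : α →+* β) (p : Par α)
    (c x : V6 α) :
    (c.map φ).comb (six (p.map φ) (x.map φ)) = (c.comb (six p x)).map φ :=
  ((opRel_hom φ).comb (V6.rel_map φ c)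
    ((opRel_hom φ).six (Par.rel_map φ p) (V6.rel_map φ x))).eq_map

theorem piG_map {α β : Type*} [CommRing α] [CommRing β] (φ : α →+* β) (p : Par α) :
    piG (p.map φ) = (piG p).map φ := ((opRel_hom φ).piG (Par.rel_map φ p)).eq_map

theorem dot_eq_sum {α : Type*} [CommRing α] (x y : V6 α) :
    ∑ i, x.get i * y.get i = x.dot y := by
  simp [Fin.sum_univ_succ, V6.get, V6.dot]; ring

theorem dmat_lin {α : Type*} [CommRing α] (p df dt : Par α) (g a b c d e s : α) :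
    Sk.lin s (Sk.lin a (dmat p df g 0 0 0) b (dmat p dt g 0 0 0) c (dmat p Par.zero g 1 0 0))
      d eS e eY =
    dmat p ⟨s * a * df.f + s * b * dt.f, s * a * df.t + s * b * dt.t, s * a * df.B + s * b * dt.B,
      s * a * df.C + s * b * dt.C, s * a * df.E + s * b * dt.E, s * a * df.F + s * b * dt.F,
      s * a * df.m + s * b * dt.m, s * a * df.n + s * b * dt.n⟩ g (s * c) d e := by
  simp only [Sk.lin, dmat, Par.zero, eS, eY, Sk.mk.injEq]
  refine ⟨?_, ?_, ?_, ?_, ?_, ?_, ?_, ?_, ?_, ?_⟩ <;> ring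

theorem socle_zero (x : V6 ℂ) (h : x.c0 = 0) :
    (x.comb (six Par.zero (piG Par.zero))).c5 = 0 := by
  simp [V6.comb, six, mulU, tabG, tabS, tabY, piG, rgg, rgs, rgy, rgz, rss, rsy, rsu, ryy, ryu,
    V6.add, V6.smul, Par.zero, h]

/-- Parameters and generators. -/
structure Pt (B : Type) where
  p : Par Rr
  (g s y : B)

variable {B : Type} [CommRing B] [Algebra Rr B]

/-- The ideal generated by `f, t`. -/
def mB (B : Type) [CommRing B] [Algebra Rr B] : Ideal B :=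
  Ideal.span {algebraMap Rr B (X 0), algebraMap Rr B (X 1)}

namespace Pt

variable (Q : Pt B)

def par : Par B := Q.p.map (algebraMap Rr B)
def bs : V6 B := bas Q.par Q.g Q.s Q.y
def ev (x : V6 Rr) : B := (x.map (algebraMap Rr B)).dot Q.bs
def M : Sk B := mat Q.par Q.g Q.s Q.y
def piF : B := (piD Q.par ((Q.p.map (pderiv 0)).map (algebraMap Rr B))).dot Q.bs
def piT : B := (piD Q.par ((Q.p.map (pderiv 1)).map (algebraMap Rr B))).dot Q.bs
def piGq : B := (piG Q.par).dot Q.bs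

/-- The last coordinate vanishes at the origin. -/
def Zc (b : B) : Prop := ∃ x : V6 Rr, Q.ev x = b ∧ constantCoeff x.c5 = 0

theorem ev_mul (h : Q.M.pf = V5.zero) (c x : V6 Rr) :
    Q.ev (c.comb (six Q.p x)) = Q.ev c * Q.ev x := by
  unfold ev
  rw [← comb_six_map]
  exact dot_six h _ _

theorem ev_add (x y : V6 Rr) : Q.ev (x.add y) = Q.ev x + Q.ev y := by
  simp only [ev, V6.add, V6.map, V6.dot, map_add]; ring

theorem ev_smul (r : Rr) (x : V6 Rr) : Q.ev (V6.smul r x) = algebraMap Rr B r * Q.ev x := by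
  simp only [ev, V6.smul, V6.map, V6.dot, map_mul]; ring

theorem piGq_eq : Q.piGq = Q.ev (piG Q.p) := by
  unfold piGq ev par
  rw [piG_map]

variable {Q}

theorem Zc.add {a b : B} (ha : Q.Zc a) (hb : Q.Zc b) : Q.Zc (a + b) := by
  obtain ⟨x, rfl, hx⟩ := ha
  obtain ⟨y, rfl, hy⟩ := hb
  exact ⟨x.add y, Q.ev_add x y, by simp [V6.add, hx, hy]⟩

theorem Zc.of_mem (hs : Function.Surjective Q.ev) {b : B} (hb : b ∈ mB B) : Q.Zc b := by
  obtain ⟨u, v, rfl⟩ := Ideal.mem_span_pair.mp hb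
  obtain ⟨x, rfl⟩ := hs u
  obtain ⟨y, rfl⟩ := hs v
  refine ⟨(V6.smul (X 0) x).add (V6.smul (X 1) y), ?_, by simp [V6.add, V6.smul]⟩
  rw [ev_add, ev_smul, ev_smul]; ring

theorem Zc.coord (hinj : ∀ x : V6 Rr, Q.ev x = 0 → x = ⟨0, 0, 0, 0, 0, 0⟩)
    {x : V6 Rr} (h : Q.Zc (Q.ev x)) : constantCoeff x.c5 = 0 := by
  obtain ⟨y, hy, h0⟩ := h
  have := hinj (x.add (V6.smul (-1) y)) (by rw [ev_add, ev_smul, hy]; simp)
  have h5 := congrArg V6.c5 this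
  simp only [V6.add, V6.smul] at h5
  have : x.c5 = y.c5 := by linear_combination h5
  rw [this, h0]

theorem f_ne_zero (hinj : ∀ x : V6 Rr, Q.ev x = 0 → x = ⟨0, 0, 0, 0, 0, 0⟩) :
    algebraMap Rr B (X 0) ≠ 0 := by
  intro h0
  have := hinj ⟨X 0, 0, 0, 0, 0, 0⟩ (by
    simp only [ev, V6.map, V6.dot, h0, map_zero, zero_mul, add_zero])
  exact X_ne_zero (R := ℂ) (0 : Fin 2) (congrArg V6.c0 this)

theorem piGq_ne_zero (hinj : ∀ x : V6 Rr, Q.ev x = 0 → x = ⟨0, 0, 0, 0, 0, 0⟩) :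
    Q.piGq ≠ 0 := by
  intro h0
  rw [piGq_eq] at h0
  have h5 : (-((6 : ℤ) : Rr)) = 0 := congrArg V6.c5 (hinj _ h0)
  have := congrArg constantCoeff h5
  rw [map_neg, map_intCast, map_zero] at this
  norm_num at this

theorem zc_piG (h : Q.M.pf = V5.zero) (hp : Q.p.map constantCoeff = Par.zero) (x : V6 Rr)
    (hx0 : constantCoeff x.c0 = 0) : Q.Zc (Q.piGq * Q.ev x) := by
  refine ⟨x.comb (six Q.p (piG Q.p)), by rw [Q.ev_mul h, piGq_eq, mul_comm], ?_⟩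
  have := comb_six_map constantCoeff Q.p x (piG Q.p)
  rw [← piG_map, hp] at this
  have h2 := socle_zero (x.map constantCoeff) hx0
  rw [this] at h2
  exact h2

variable [Algebra ℂ B]

theorem fst_ev (hpf : Q.p.f = X 0) (η : B →ₐ[ℂ] TrivSqZeroExt ℂ (Fin 3 → ℂ))
    (hηr : ∀ r : Rr, (η (algebraMap Rr B r)).fst = constantCoeff r)
    (hηg : (η Q.g).fst = 0) (hηs : (η Q.s).fst = 0) (hηy : (η Q.y).fst = 0)
    (x : V6 Rr) : (η (Q.ev x)).fst = constantCoeff x.c0 := by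
  simp only [ev, V6.map, V6.dot, bs, bas, uu, par, Par.map, map_add, map_mul, map_sub,
    TrivSqZeroExt.fst_add, TrivSqZeroExt.fst_mul, TrivSqZeroExt.fst_sub, hηr, hηg, hηs, hηy, hpf,
    map_one, TrivSqZeroExt.fst_one, constantCoeff_X]
  ring

/-- What we need to know about the ring. -/
structure Good (Q : Pt B) : Prop where
  pf : Q.M.pf = V5.zero
  surj : Function.Surjective Q.ev
  inj : ∀ x : V6 Rr, Q.ev x = 0 → x = ⟨0, 0, 0, 0, 0, 0⟩
  der : ∀ a b c d e : B, Q.M.pol (dmat Q.par (Q.p.map fun r => a * algebraMap Rr B (pderiv 0 r) +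
      b * algebraMap Rr B (pderiv 1 r)) Q.g c d e) = V5.zero →
    ∃ D : Derivation ℂ B B, D (algebraMap Rr B (X 0)) = a ∧ D (algebraMap Rr B (X 1)) = b ∧ D Q.g = c
  eta : ∃ η : B →ₐ[ℂ] TrivSqZeroExt ℂ (Fin 3 → ℂ), Function.Surjective η ∧
    (∀ r : Rr, (η (algebraMap Rr B r)).fst = constantCoeff r) ∧
    (η Q.g).fst = 0 ∧ (η Q.s).fst = 0 ∧ (η Q.y).fst = 0

variable [IsDomain B] [Module.Free Rr B]

theorem exists_der_of_syz (hQ : Q.Good) (s : B) (N : ℕ)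
    (hf : s * algebraMap Rr B (X 0) ^ N ∈ comb3 ⊤ Q.piF Q.piT Q.piGq)
    (ht : s * algebraMap Rr B (X 1) ^ N ∈ comb3 ⊤ Q.piF Q.piT Q.piGq)
    (a b c : B) (h : a * Q.piF + b * Q.piT + c * Q.piGq = 0) :
    ∃ D : Derivation ℂ B B, D (algebraMap Rr B (X 0)) = s * a ∧
      D (algebraMap Rr B (X 1)) = s * b ∧ D Q.g = s * c := by
  have hf0 := f_ne_zero hQ.inj
  have hκ : Q.M.m13 ^ 2 - Q.M.m23 * Q.M.m12 ≠ 0 := by
    intro h0
    have := hQ.inj ⟨Q.p.f ^ 2 * Q.p.t - Q.p.f * Q.p.E, 0, -Q.p.f, -Q.p.f, 1, 0⟩ (by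
      simp only [M, mat, par, Par.map] at h0
      simp only [ev, V6.map, V6.dot, bs, bas, uu, par, Par.map, map_sub, map_mul, map_pow,
        map_neg, map_one, map_zero]
      linear_combination h0)
    exact one_ne_zero (congrArg V6.c4 this)
  obtain ⟨a1, -, b1, -, c1, -, e1⟩ := hf
  obtain ⟨a2, -, b2, -, c2, -, e2⟩ := ht
  have eF : Q.piF = _ := dot_piD hQ.pf ((Q.p.map (pderiv 0)).map (algebraMap Rr B))
  have eT : Q.piT = _ := dot_piD hQ.pf ((Q.p.map (pderiv 1)).map (algebraMap Rr B))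
  have eG : Q.piGq = _ := dot_piG hQ.pf
  have key : ∀ a b c : B, ell Q.M (Q.M.pol (Sk.lin
        a (dmat Q.par ((Q.p.map (pderiv 0)).map (algebraMap Rr B)) Q.g 0 0 0)
        b (dmat Q.par ((Q.p.map (pderiv 1)).map (algebraMap Rr B)) Q.g 0 0 0)
        c (dmat Q.par Par.zero Q.g 1 0 0))) = a * Q.piF + b * Q.piT + c * Q.piGq := by
    intro a b c
    rw [ell_lin, eF, eT, eG]; rfl
  obtain ⟨d, e, hde⟩ := kernel_of_ell _ _ hf0 (hreg_of_free B) _ hQ.pf hκ s N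
    _ _ ((key a1 b1 c1).trans e1.symm) ((key a2 b2 c2).trans e2.symm) _ ((key a b c).trans h)
  rw [dmat_lin] at hde
  exact hQ.der (s * a) (s * b) (s * c) d e hde

theorem main_of_cert [IsScalarTower ℂ Rr B] [Module.Finite Rr B] (hQ : Q.Good)
    (hpf : Q.p.f = X 0) (hp : Q.p.map constantCoeff = Par.zero)
    (s : Rr) (hs : constantCoeff s ≠ 0) (N : ℕ)
    (hf : algebraMap Rr B s * algebraMap Rr B (X 0) ^ N ∈ comb3 (mB B) Q.piF Q.piT Q.piGq)
    (ht : algebraMap Rr B s * algebraMap Rr B (X 1) ^ N ∈ comb3 (mB B) Q.piF Q.piT Q.piGq)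
    (a₁ b₁ c₁ a₂ b₂ c₂ : V6 Rr)
    (h₁ : algebraMap Rr B s * (Q.ev a₁ * Q.piF + Q.ev b₁ * Q.piT + Q.ev c₁ * Q.piGq) ∈
      comb3 (mB B) Q.piF Q.piT Q.piGq)
    (h₂ : algebraMap Rr B s * (Q.ev a₂ * Q.piF + Q.ev b₂ * Q.piT + Q.ev c₂ * Q.piGq) ∈
      comb3 (mB B) Q.piF Q.piT Q.piGq)
    (hΔ : constantCoeff (a₁.comb (six Q.p b₂)).c5 - constantCoeff (b₁.comb (six Q.p a₂)).c5 ≠ 0) :
    ∃ (A : Type) (_ : CommRing A) (_ : Algebra ℂ A),
      IsDomain A ∧ Algebra.FiniteType ℂ A ∧ IsIntegrallyClosed A ∧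
      ringKrullDim A = 2 ∧
      Nonempty (Derivation ℂ A A ≃ₗ[A] (Fin 2 → A)) ∧
      ∃ (m : Ideal A) (_ : m.IsMaximal), ¬ IsRegularLocalRing (Localization.AtPrime m) := by
  generalize hσ : algebraMap Rr B s = σ at hf ht h₁ h₂
  have top : ∀ {w}, w ∈ comb3 (mB B) Q.piF Q.piT Q.piGq → w ∈ comb3 ⊤ Q.piF Q.piT Q.piGq := by
    rintro _ ⟨a, -, b, -, c, -, rfl⟩
    exact ⟨a, trivial, b, trivial, c, trivial, rfl⟩
  obtain ⟨x₁, mx₁, y₁, my₁, z₁, -, e₁⟩ := h₁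
  obtain ⟨x₂, mx₂, y₂, my₂, z₂, -, e₂⟩ := h₂
  obtain ⟨D₁, f₁, t₁, g₁⟩ := exists_der_of_syz hQ σ N (top hf) (top ht)
    (σ * Q.ev a₁ - x₁) (σ * Q.ev b₁ - y₁) (σ * Q.ev c₁ - z₁) (by linear_combination e₁)
  obtain ⟨D₂, f₂, t₂, g₂⟩ := exists_der_of_syz hQ σ N (top hf) (top ht)
    (σ * Q.ev a₂ - x₂) (σ * Q.ev b₂ - y₂) (σ * Q.ev c₂ - z₂) (by linear_combination e₂)
  obtain ⟨l, hl, lf, lt⟩ := delta_of_syz _ _ Q.g (f_ne_zero hQ.inj) (hreg_of_free B) D₁ D₂ _ _ _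
    (piGq_ne_zero hQ.inj)
    (by rw [f₁, t₁, g₁]; linear_combination σ * e₁) (by rw [f₂, t₂, g₂]; linear_combination σ * e₂)
    σ N (top hf) (top ht)
  obtain ⟨η, hη, hηr, hηg, hηs, hηy⟩ := hQ.eta
  refine abs_main B D₁ D₂ η hη (by simp [hηr]) (by simp [hηr]) l ?_ N lf lt
  intro h0
  obtain ⟨x, rfl⟩ := hQ.surj l
  have z1 := zc_piG hQ.pf hp x ((fst_ev hpf η hηr hηg hηs hηy x).symm.trans h0)
  have z2 : Q.Zc (Q.ev (V6.smul (s ^ 5) ((a₁.comb (six Q.p b₂)).add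
      (V6.smul (-1) (b₁.comb (six Q.p a₂)))))) := by
    have : Q.ev (V6.smul (s ^ 5) ((a₁.comb (six Q.p b₂)).add
        (V6.smul (-1) (b₁.comb (six Q.p a₂))))) =
        Q.piGq * Q.ev x + (σ ^ 3 * (σ * Q.ev b₂ - y₂) * x₁ + σ ^ 4 * Q.ev a₁ * y₂ -
          σ ^ 3 * (σ * Q.ev a₂ - x₂) * y₁ - σ ^ 4 * Q.ev b₁ * x₂) := by
      rw [ev_smul, ev_add, ev_smul, Q.ev_mul hQ.pf, Q.ev_mul hQ.pf, ← hl, f₁, t₁, f₂, t₂, map_pow, hσ]
      simp only [map_neg, map_one]; ring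
    rw [this]
    refine z1.add (Zc.of_mem hQ.surj ?_)
    exact Ideal.sub_mem _ (Ideal.sub_mem _ (Ideal.add_mem _ (Ideal.mul_mem_left _ _ mx₁)
      (Ideal.mul_mem_left _ _ my₂)) (Ideal.mul_mem_left _ _ my₁)) (Ideal.mul_mem_left _ _ mx₂)
  have h5 := z2.coord hQ.inj
  generalize a₁.comb (six Q.p b₂) = u at h5 hΔ
  generalize b₁.comb (six Q.p a₂) = v at h5 hΔ
  simp only [V6.smul, V6.add, map_mul, map_add, map_pow, map_neg, map_one] at h5
  rcases mul_eq_zero.mp h5 with h | h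
  · exact hs (pow_eq_zero_iff (by norm_num) |>.mp h)
  · exact hΔ (by linear_combination h)

end Pt

end Crest.Agent.R278
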