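import Crest.Agent.R278.Wt

/-!
# Row 278: Kronecker substitution

An integer polynomial in `f, t` is tracked by its value at `f = 2^(e K)`, `t = 2^(e (3K+1))` modulo `2^(e K n)`
and by a bound for the sum of the absolute values of its coefficients.
-/

set_option autoImplicit false

namespace Crest.Agent.R278

open MvPolynomial

/-- Value and bound. -/
structure KN (e K n : ℕ) where
  v : ℕ
  b : ℕ

namespace KN

def mask (e K n : ℕ) : ℕ := 2 ^ (e * K * n) - 1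

variable {e K n : ℕ}

def term (i j : ℕ) : ℤ → KN e K n
  | Int.ofNat c => ⟨Nat.shiftLeft c (e * (K * i + (3 * K + 1) * j)), c⟩
  | Int.negSucc c =>
    ⟨mask e K n + 1 - Nat.land (Nat.shiftLeft (c + 1) (e * (K * i + (3 * K + 1) * j))) (mask e K n), c + 1⟩

instance : Add (KN e K n) := ⟨fun x y => ⟨Nat.add x.v y.v, Nat.add x.b y.b⟩⟩
instance : Mul (KN e K n) := ⟨fun x y => ⟨Nat.land (Nat.mul x.v y.v) (mask e K n), Nat.mul x.b y.b⟩⟩
instance : Neg (KN e K n) := ⟨fun x => ⟨mask e K n + 1 - Nat.land x.v (mask e K n), x.b⟩⟩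
instance : Zero (KN e K n) := ⟨⟨0, 0⟩⟩
instance : IntCast (KN e K n) := ⟨fun c => term 0 0 c⟩

def ofD : Dat → KN e K n
  | [] => 0
  | x :: l => term x.1 x.2.1 x.2.2 + ofD l

/-- The test for "weight at least `m`". -/
def isZero (x : KN e K n) (m : ℕ) : Bool :=
  Nat.ble m n && Nat.ble m (3 * K) && Nat.blt x.b (2 ^ e) &&
    Nat.beq (Nat.land x.v (2 ^ (e * K * m) - 1)) 0

/-- Signed digit number `i` of `w` in base `2^e`, where `w` already contains the offsets. -/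
def digit (e w i : ℕ) : ℤ :=
  ((Nat.land (Nat.shiftRight w (e * i)) (2 ^ e - 1) : ℕ) : ℤ) - ((2 ^ (e - 1) : ℕ) : ℤ)

/-- Reads the terms of weights `m, m+1, m+2` and divides them by `q` (no property of this function is used). -/
def dec (x : KN e K n) (m q : ℕ) : Dat :=
  let w := Nat.land (Nat.shiftRight x.v (e * K * m)) (2 ^ (e * K * 3) - 1) +
    (2 ^ (e * K * 3) - 1) / (2 ^ e - 1) * 2 ^ (e - 1)
  (List.range 3).flatMap fun r => (List.range ((m + r) / 3 + 1)).map fun j =>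
    (m + r - 3 * j, j, digit e w (K * r + j) / (q : ℤ))

/-- The test for membership in `q W m + W (m + 3)`. -/
def chkRow (x : KN e K n) (m q : ℕ) : Bool :=
  wtOK m (dec x m q) && isZero (x + -(((q : ℤ) : KN e K n) * ofD (dec x m q))) (m + 3)

end KN

/-- Sum of the absolute values of the coefficients. -/
noncomputable def nrm (x : Rz) : ℕ := ∑ m ∈ x.support, (coeff m x).natAbs

/-- The tracking relation. -/
def KRel (e K n : ℕ) (x : Rz) (k : KN e K n) : Prop :=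
  (eval ![(2 : ℤ) ^ (e * K), 2 ^ (e * (3 * K + 1))] x ≡ (k.v : ℤ) [ZMOD 2 ^ (e * K * n)]) ∧ nrm x ≤ k.b

namespace Kron

theorem land_mask (N v : ℕ) : Nat.land v (2 ^ N - 1) = v % 2 ^ N :=
  Nat.and_two_pow_sub_one_eq_mod v N

theorem land_modEq (N v : ℕ) : ((Nat.land v (2 ^ N - 1) : ℕ) : ℤ) ≡ v [ZMOD 2 ^ N] := by
  rw [land_mask]
  push_cast
  exact Int.mod_modEq _ _

theorem neg_modEq (N v : ℕ) :
    ((2 ^ N - 1 + 1 - Nat.land v (2 ^ N - 1) : ℕ) : ℤ) ≡ -v [ZMOD 2 ^ N] := by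
  have h0 : 0 < 2 ^ N := by positivity
  have h1 : Nat.land v (2 ^ N - 1) ≤ 2 ^ N := by
    rw [land_mask]; exact (Nat.mod_lt _ h0).le
  rw [Nat.sub_add_cancel h0, Nat.cast_sub h1]
  have h2 : (((2 ^ N : ℕ)) : ℤ) ≡ 0 [ZMOD 2 ^ N] := by
    push_cast
    exact Int.modEq_zero_iff_dvd.2 dvd_rfl
  simpa using h2.sub (land_modEq N v)

theorem nrm_eq_sum {x : Rz} {s : Finset (Fin 2 →₀ ℕ)} (h : x.support ⊆ s) :
    nrm x = ∑ m ∈ s, (coeff m x).natAbs :=
  Finset.sum_subset h fun m _ hm => by rw [notMem_support_iff.1 hm]; rfl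

theorem nrm_zero : nrm 0 = 0 := by simp [nrm]

theorem nrm_add (x y : Rz) : nrm (x + y) ≤ nrm x + nrm y := by
  classical
  rw [nrm_eq_sum support_add, nrm_eq_sum (x := x) Finset.subset_union_left,
    nrm_eq_sum (x := y) Finset.subset_union_right, ← Finset.sum_add_distrib]
  exact Finset.sum_le_sum fun m _ => by rw [coeff_add]; exact Int.natAbs_add_le _ _

theorem nrm_neg (x : Rz) : nrm (-x) = nrm x := by
  simp [nrm]

theorem nrm_monomial (m : Fin 2 →₀ ℕ) (c : ℤ) : nrm (monomial m c) = c.natAbs := by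
  classical
  rw [nrm_eq_sum support_monomial_subset]
  simp

theorem nrm_sum {ι : Type*} (s : Finset ι) (f : ι → Rz) :
    nrm (∑ i ∈ s, f i) ≤ ∑ i ∈ s, nrm (f i) :=
  Finset.le_sum_of_subadditive nrm nrm_zero.le nrm_add s f

theorem nrm_mul (x y : Rz) : nrm (x * y) ≤ nrm x * nrm y := by
  conv_lhs => rw [x.as_sum, y.as_sum, Finset.sum_mul_sum]
  rw [nrm, nrm, nrm, Finset.sum_mul_sum, ← nrm]
  refine (nrm_sum _ _).trans (Finset.sum_le_sum fun a _ => ?_)
  refine (nrm_sum _ _).trans (Finset.sum_le_sum fun b _ => ?_)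
  rw [monomial_mul, nrm_monomial, Int.natAbs_mul]

theorem nrm_term (i j : ℕ) (c : ℤ) : nrm (C c * X 0 ^ i * X 1 ^ j) = c.natAbs := by
  rw [X_pow_eq_monomial, X_pow_eq_monomial, C_mul_monomial, monomial_mul, nrm_monomial]
  simp

theorem pow_ex (e K i j : ℕ) : ((2 : ℤ) ^ (e * K)) ^ i * (2 ^ (e * (3 * K + 1))) ^ j =
    2 ^ (e * (K * i + (3 * K + 1) * j)) := by
  rw [← pow_mul, ← pow_mul, ← pow_add]
  congr 1
  ring

theorem ex_lt {K m₀ a b : ℕ} (hK : m₀ ≤ 3 * K) (h : a + 3 * b < m₀) :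
    K * a + (3 * K + 1) * b < K * m₀ := by
  have h1 : b < K := by omega
  have h2 := Nat.mul_le_mul_left K (Nat.succ_le_of_lt h)
  nlinarith

theorem lt_of_ex_lt {K m₀ a b : ℕ} (hK : m₀ ≤ 3 * K) (h : K * a + (3 * K + 1) * b < K * m₀) :
    b < K := by
  have h1 : K * (a + 3 * b) < K * m₀ := by nlinarith
  have := lt_of_mul_lt_mul_left h1 (Nat.zero_le K)
  omega

theorem ex_inj {K a b a' b' : ℕ} (hb : b < K) (hb' : b' < K)
    (h : K * a + (3 * K + 1) * b = K * a' + (3 * K + 1) * b') : a = a' ∧ b = b' := by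
  have h1 : b + K * (a + 3 * b) = b' + K * (a' + 3 * b') := by linarith
  have h2 := congrArg (· % K) h1
  simp only [Nat.add_mul_mod_self_left, Nat.mod_eq_of_lt hb, Nat.mod_eq_of_lt hb'] at h2
  subst h2
  have h3 : K * (a + 3 * b) = K * (a' + 3 * b) := by omega
  have := Nat.eq_of_mul_eq_mul_left (by omega) h3
  omega

end Kron

open Kron

/-- `Nat.and_two_pow_sub_one_eq_mod`, `Nat.shiftLeft_eq`; `nrm` of a monomial. -/
theorem KRel.term (e K n i j : ℕ) (c : ℤ) :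
    KRel e K n (C c * X 0 ^ i * X 1 ^ j) (KN.term i j c) := by
  have hev : eval ![(2 : ℤ) ^ (e * K), 2 ^ (e * (3 * K + 1))] (C c * X 0 ^ i * X 1 ^ j : Rz) =
      c * 2 ^ (e * (K * i + (3 * K + 1) * j)) := by
    rw [← pow_ex]
    simp [mul_assoc]
  have hsh : ∀ a k : ℕ, ((Nat.shiftLeft a k : ℕ) : ℤ) = a * 2 ^ k := fun a k => by
    rw [show Nat.shiftLeft a k = a * 2 ^ k from Nat.shiftLeft_eq a k]
    push_cast
    rfl
  refine ⟨?_, (nrm_term i j c).le.trans ?_⟩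
  · rw [hev]
    cases c with
    | ofNat c => exact (hsh c _).symm ▸ Int.ModEq.refl _
    | negSucc c =>
      refine Int.ModEq.trans ?_ (neg_modEq (e * K * n) _).symm
      rw [hsh, Int.negSucc_eq, neg_mul]
      exact Int.ModEq.refl _
  · cases c <;> exact le_rfl

/-- `nrm (x + y) ≤ nrm x + nrm y`, `nrm (x * y) ≤ nrm x * nrm y` (write `x`, `y` as sums of monomials,
`MvPolynomial.as_sum`, `Finset.sum_mul_sum`, `monomial_mul`), `nrm (-x) = nrm x`. -/
theorem opRel_KRel (e K n : ℕ) : OpRel (KRel e K n) := by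
  refine ⟨?_, ?_, ?_, ⟨by rw [map_zero]; exact Int.ModEq.refl _, nrm_zero.le⟩, fun c => ?_⟩
  · rintro a a' b b' ⟨h1, h2⟩ ⟨h3, h4⟩
    refine ⟨?_, (nrm_add _ _).trans (add_le_add h2 h4)⟩
    rw [map_add]
    exact (Nat.cast_add (R := ℤ) b.v b'.v).symm ▸ h1.add h3
  · rintro a a' b b' ⟨h1, h2⟩ ⟨h3, h4⟩
    refine ⟨?_, (nrm_mul _ _).trans (Nat.mul_le_mul h2 h4)⟩
    rw [map_mul]
    refine Int.ModEq.trans ?_ (land_modEq (e * K * n) (b.v * b'.v)).symm
    rw [Nat.cast_mul]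
    exact h1.mul h3
  · rintro a b ⟨h1, h2⟩
    refine ⟨?_, (nrm_neg _).le.trans h2⟩
    rw [map_neg]
    exact h1.neg.trans (neg_modEq (e * K * n) b.v).symm
  · have := KRel.term e K n 0 0 c
    rwa [pow_zero, pow_zero, mul_one, mul_one, eq_intCast] at this

theorem KRel.ofD (e K n : ℕ) (l : Dat) : KRel e K n (ofD l) (KN.ofD l) := by
  induction l with
  | nil => exact (opRel_KRel e K n).zero
  | cons x l ih => exact (opRel_KRel e K n).add (KRel.term e K n _ _ _) ih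

/-- Proof: `mem_W_of_coeff`. Put `b = 2^e` and `ex m = K * m 0 + (3K+1) * m 1 = K * (m 0 + 3 m 1) + m 1`. The value is
`∑ coeff m x * b ^ ex m` (`eval_eq'`) and is divisible by `b ^ (K * m₀)`. If some monomial of weight `< m₀` has a nonzero
coefficient, take `μ` in the support with `ex μ` minimal; `ex μ < K * m₀` (a monomial of weight `w < m₀ ≤ 3K` has `m 1 < K`).
Every other monomial of the support has a strictly larger `ex` (`ex` is injective on `{ex < K * m₀}`: there the weight is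
`< m₀`, so `m 1 < K`, and `m 1 = ex % K`, weight `= ex / K`). So `b ^ (ex μ + 1)` divides `coeff μ x * b ^ ex μ`,
`b ∣ coeff μ x`, contradicting `0 < |coeff μ x| ≤ nrm x < b`. -/
theorem KRel.mem_W {e K n : ℕ} {x : Rz} {k : KN e K n} (h : KRel e K n x k) {m₀ : ℕ}
    (hz : k.isZero m₀ = true) : x ∈ W m₀ := by
  classical
  simp only [KN.isZero, Bool.and_eq_true, Nat.ble_eq, Nat.blt_eq, Nat.beq_eq] at hz
  obtain ⟨⟨⟨hn, hK⟩, hb⟩, hv⟩ := hz
  rw [land_mask] at hv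
  set ex : (Fin 2 →₀ ℕ) → ℕ := fun m => K * m 0 + (3 * K + 1) * m 1 with hex
  have hev : eval ![(2 : ℤ) ^ (e * K), 2 ^ (e * (3 * K + 1))] x =
      ∑ m ∈ x.support, coeff m x * (2 ^ e) ^ ex m := by
    rw [eval_eq']
    refine Finset.sum_congr rfl fun m _ => ?_
    rw [Fin.prod_univ_two, ← pow_mul (2 : ℤ) e, ← pow_ex]
    rfl
  have hd : ((2 : ℤ) ^ e) ^ (K * m₀) ∣ ∑ m ∈ x.support, coeff m x * (2 ^ e) ^ ex m := by
    rw [← hev, ← pow_mul, ← mul_assoc]
    have h1 := h.1.of_dvd (pow_dvd_pow 2 (Nat.mul_le_mul_left (e * K) hn))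
    refine Int.modEq_zero_iff_dvd.1 (h1.trans (Int.modEq_zero_iff_dvd.2 ?_))
    exact_mod_cast Nat.dvd_of_mod_eq_zero hv
  refine mem_W_of_coeff fun m hm => ?_
  by_contra hne
  obtain ⟨μ, hμ, hmin⟩ := x.support.exists_min_image ex ⟨m, mem_support_iff.2 hne⟩
  have hlt : ex μ < K * m₀ := (hmin m (mem_support_iff.2 hne)).trans_lt (ex_lt hK hm)
  have h1 : ((2 : ℤ) ^ e) ^ (ex μ + 1) ∣ ∑ m ∈ x.support.erase μ, coeff m x * (2 ^ e) ^ ex m := by
    refine Finset.dvd_sum fun ν hν => Dvd.dvd.mul_left (pow_dvd_pow _ ?_) _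
    rw [Finset.mem_erase] at hν
    refine lt_of_le_of_ne (hmin ν hν.2) fun he => hν.1 ?_
    obtain ⟨e0, e1⟩ := ex_inj (lt_of_ex_lt hK hlt) (lt_of_ex_lt hK (he ▸ hlt : ex ν < K * m₀)) he
    ext i
    fin_cases i
    · exact e0.symm
    · exact e1.symm
  have h2 := (pow_dvd_pow _ (Nat.succ_le_of_lt hlt)).trans hd
  rw [← Finset.add_sum_erase _ _ hμ] at h2
  have h3 := (dvd_add_left h1).1 h2
  rw [pow_succ'] at h3
  have h4 : (2 : ℤ) ^ e ∣ coeff μ x := (mul_dvd_mul_iff_right (by positivity)).1 h3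
  have h5 : (coeff μ x).natAbs ≤ nrm x :=
    Finset.single_le_sum (f := fun m => (coeff m x).natAbs) (fun _ _ => Nat.zero_le _) hμ
  have h6 : 2 ^ e ∣ (coeff μ x).natAbs := by
    have := Int.natAbs_dvd_natAbs.2 h4
    simpa using this
  have h7 := Nat.le_of_dvd (Int.natAbs_pos.2 (mem_support_iff.1 hμ)) h6
  have := h.2
  omega

theorem KRel.chkRow {e K n : ℕ} {x : Rz} {k : KN e K n} (h : KRel e K n x k) {m q : ℕ}
    (hz : k.chkRow m q = true) : ∃ u r : Rz, u ∈ W m ∧ r ∈ W (m + 3) ∧ x = (q : ℤ) * u + r := by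
  simp only [KN.chkRow, Bool.and_eq_true] at hz
  have H := opRel_KRel e K n
  have h1 := (H.add h (H.neg (H.mul (H.int q) (KRel.ofD e K n (k.dec m q))))).mem_W hz.2
  exact ⟨_, _, ofD_mem_W hz.1, h1, by ring⟩

end Crest.Agent.R278
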