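import Crest.Agent.R278.Ext

/-!
# Row 278: normality through Seidenberg's theorem and the conductor
-/

set_option autoImplicit false

namespace Crest.Agent.R278

open MvPolynomial

/-- The commutator of an additive map with multiplication by `z`. -/
def adz {K : Type*} [CommRing K] (z : K) (φ : K → K) : K → K := fun x => φ (z * x) - z * φ x

theorem adz_iter_der {k K : Type*} [CommRing k] [CommRing K] [Algebra k K]
    (D : Derivation k K K) (z : K) (φ : K → K) (n : ℕ) :
    (adz z)^[n + 1] (fun x => D (φ x)) =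
      fun x => D ((adz z)^[n + 1] φ x) + ((n : K) + 1) * D z * (adz z)^[n] φ x := by
  induction n with
  | zero =>
    funext x
    simp only [zero_add, Function.iterate_one, adz, Function.iterate_zero, id_eq, map_sub,
      Derivation.leibniz, smul_eq_mul, Nat.cast_zero]
    ring
  | succ n ih =>
    rw [Function.iterate_succ_apply' (adz z) (n + 1), ih]
    funext x
    rw [Function.iterate_succ_apply' (adz z) (n + 1), Function.iterate_succ_apply' (adz z) n]
    generalize (adz z)^[n] φ = χ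
    simp only [adz, map_sub, Derivation.leibniz, smul_eq_mul, Nat.cast_add, Nat.cast_one]
    ring

theorem adz_iter_iterate {k K : Type*} [CommRing k] [CommRing K] [Algebra k K]
    (D : Derivation k K K) (z : K) (j : ℕ) :
    ((adz z)^[j] (fun x => D^[j] x) = fun x => (j.factorial : K) * (D z) ^ j * x) ∧
      ((adz z)^[j + 1] (fun x => D^[j] x) = fun _ => 0) := by
  induction j with
  | zero =>
    refine ⟨?_, ?_⟩
    · funext x; simp
    · funext x; simp [adz]
  | succ j ih =>
    have hD : (fun x => D^[j + 1] x) = fun x => D (D^[j] x) := by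
      funext x; rw [Function.iterate_succ_apply']
    obtain ⟨h1, h2⟩ := ih
    refine ⟨?_, ?_⟩
    · rw [hD, adz_iter_der D z (fun x => D^[j] x) j, h1, h2]
      funext x
      simp only [map_zero, zero_add, Nat.factorial_succ, Nat.cast_mul, Nat.cast_add, Nat.cast_one]
      ring
    · rw [hD, adz_iter_der D z (fun x => D^[j] x) (j + 1), h2,
        Function.iterate_succ_apply' (adz z) (j + 1), h2]
      funext x
      simp [adz]

theorem adz_iter_sub {K : Type*} [CommRing K] (z : K) (n : ℕ) :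
    ∀ (φ : K → K) (w : K), ∃ c : K, (adz z)^[n] φ w = φ (z ^ n * w) + z * c := by
  induction n with
  | zero => intro φ w; exact ⟨0, by simp⟩
  | succ n ih =>
    intro φ w
    obtain ⟨c, hc⟩ := ih (adz z φ) w
    refine ⟨c - φ (z ^ n * w), ?_⟩
    rw [Function.iterate_succ_apply, hc]
    simp only [adz]
    rw [← mul_assoc, ← pow_succ']
    ring

theorem iterate_mem {K : Type*} (D : K → K) (S : Set K) (hD : ∀ x ∈ S, D x ∈ S) (j : ℕ) :
    ∀ x ∈ S, D^[j] x ∈ S := by
  induction j with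
  | zero => intro x hx; simpa using hx
  | succ j ih => intro x hx; rw [Function.iterate_succ_apply']; exact hD _ (ih x hx)

/-- Seidenberg's inequality. `S` is a subring of a `ℚ`-algebra `K` stable under a derivation `D`;
if `d * z ^ i ∈ S` for all `i` and `d ∈ S` then `d ^ 2 * (D z) ^ k ∈ S`, up to the factor `k!`
(here `S` is a `ℂ`-subalgebra so the factorial is invertible).
Proof 1: `E = exp (T D) : K →+* K⟦T⟧` (see `Crest.Agent.Lib.LND.Exp`, or `R268.LND.iterate_mul`);
`d * E d * (E z − z)^k = Σ binom * (± d z^{k-i}) * E (d z^i)` has coefficients in `S`, and its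
coefficient of `T^k` is `d * d * (D z)^k`.
Proof 2: `Σ_i (-1)^(k-i) (k choose i) z^(k-i) D^[k] (w z^i) = k! * w * (D z)^k`
(and `= 0` with `D^[j]`, `j < k`), by induction; take `w = d` and multiply by `d`. -/
theorem seidenberg_pow {K : Type*} [CommRing K] [Algebra ℂ K] (S : Subalgebra ℂ K)
    (D : Derivation ℂ K K) (hD : ∀ x ∈ S, D x ∈ S) (d z : K)
    (hz : ∀ i : ℕ, d * z ^ i ∈ S) (k : ℕ) : d ^ 2 * (D z) ^ k ∈ S := by
  have good : ∀ (n : ℕ) (φ : K → K), (∀ i i' : ℕ, d * z ^ i' * φ (z ^ i * d) ∈ S) →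
      ∀ i i' : ℕ, d * z ^ i' * (adz z)^[n] φ (z ^ i * d) ∈ S := by
    intro n
    induction n with
    | zero => intro φ h; simpa using h
    | succ n ih =>
      intro φ h
      rw [Function.iterate_succ_apply]
      apply ih
      intro i i'
      have e : d * z ^ i' * adz z φ (z ^ i * d) =
          d * z ^ i' * φ (z ^ (i + 1) * d) - d * z ^ (i' + 1) * φ (z ^ i * d) := by
        simp only [adz]
        rw [← mul_assoc z, ← pow_succ']
        ring
      rw [e]
      exact S.sub_mem (h _ _) (h _ _)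
  have h0 : ∀ i i' : ℕ, d * z ^ i' * (fun x => D^[k] x) (z ^ i * d) ∈ S := by
    intro i i'
    refine S.mul_mem (hz i') (iterate_mem D (S : Set K) hD k _ ?_)
    rw [mul_comm]; exact hz i
  have h1 := good k _ h0 0 0
  rw [(adz_iter_iterate D z k).1] at h1
  have hk : ((k.factorial : ℕ) : ℂ) ≠ 0 := Nat.cast_ne_zero.mpr k.factorial_ne_zero
  have h2 := S.smul_mem h1 ((k.factorial : ℕ) : ℂ)⁻¹
  have e : ((k.factorial : ℕ) : ℂ)⁻¹ •
      (d * z ^ 0 * ((k.factorial : K) * D z ^ k * (z ^ 0 * d))) = d ^ 2 * D z ^ k := by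
    have : (k.factorial : K) = algebraMap ℂ K (k.factorial : ℂ) := by simp
    rw [this, Algebra.smul_def]
    have h3 : algebraMap ℂ K ((k.factorial : ℕ) : ℂ)⁻¹ * algebraMap ℂ K (k.factorial : ℂ) = 1 := by
      rw [← map_mul, inv_mul_cancel₀ hk, map_one]
    calc _ = (algebraMap ℂ K ((k.factorial : ℕ) : ℂ)⁻¹ * algebraMap ℂ K (k.factorial : ℂ)) *
          (d ^ 2 * D z ^ k) := by ring
      _ = _ := by rw [h3, one_mul]
  rw [← e]; exact h2

/-- A minimal prime over a `D`-stable ideal is `D`-stable (characteristic zero).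
Proof: `x ∈ P`: there are `s ∉ P` and `n` with `s * x ^ n ∈ I`
(`Ideal.exists_mul_pow_mem_of_mem_minimalPrimes`-type lemma, or localise at `P`: `P A_P` is the
radical of `I A_P`). Claim by downward induction: `s^(j+1) * x^(n-j) * (D x)^(2j-1)…`; the
simplest is: modulo `P`, `D^[n] (s * x^n) ≡ n! * s * (D x)^n`, since every other term contains
`x` (prove: `D^[j] (s x^n) − n(n-1)…(n-j+1) s x^(n-j) (D x)^j ∈ (x^(n-j+1))` for `j ≤ n`). -/
theorem stable_of_minimalPrime {A : Type*} [CommRing A] [Algebra ℂ A] (D : Derivation ℂ A A)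
    (I : Ideal A) (hI : ∀ x ∈ I, D x ∈ I) (P : Ideal A) (hP : P ∈ I.minimalPrimes) :
    ∀ x ∈ P, D x ∈ P := by
  intro x hx
  obtain ⟨⟨hp₁, hp₂⟩, hp₃⟩ := hP
  have hsn : ∃ s : A, s ∉ P ∧ ∃ n : ℕ, x ^ n * s ∈ I := by
    have : P.map (algebraMap A (Localization.AtPrime P)) ≤ (I.map (algebraMap _ _)).radical := by
      rw [Ideal.radical_eq_sInf, le_sInf_iff]
      rintro q ⟨hq', hq⟩
      obtain ⟨h₁, h₂⟩ := ((IsLocalization.AtPrime.orderIsoOfPrime _ P) ⟨q, hq⟩).2
      rw [Ideal.map_le_iff_le_comap] at hq' ⊢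
      exact hp₃ ⟨h₁, hq'⟩ h₂
    obtain ⟨n, hn⟩ := this (Ideal.mem_map_of_mem _ hx)
    rw [IsLocalization.mem_map_algebraMap_iff (M := P.primeCompl)] at hn
    obtain ⟨⟨a, b⟩, hn⟩ := hn
    rw [← map_pow, ← map_mul, IsLocalization.eq_iff_exists P.primeCompl] at hn
    obtain ⟨t, ht⟩ := hn
    refine ⟨t * b, (t * b).2, n, ?_⟩
    simp only at ht
    have : x ^ n * (t.1 * b.1) = t.1 * a := by rw [← ht]; ring
    rw [this]
    exact I.mul_mem_left _ a.2
  obtain ⟨s, hs, n, hn⟩ := hsn
  obtain ⟨c, hc⟩ := adz_iter_sub x n (fun y => D^[n] y) s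
  rw [(adz_iter_iterate D x n).1] at hc
  have h1 : (n.factorial : A) * D x ^ n * s ∈ P := by
    simp only at hc
    rw [hc]
    exact P.add_mem (hp₂ (iterate_mem D (I : Set A) hI n _ hn)) (P.mul_mem_right _ hx)
  have hk : ((n.factorial : ℕ) : ℂ) ≠ 0 := Nat.cast_ne_zero.mpr n.factorial_ne_zero
  have hu : IsUnit (n.factorial : A) := by
    have : (n.factorial : A) = algebraMap ℂ A (n.factorial : ℂ) := by simp
    rw [this]
    exact (IsUnit.mk0 _ hk).map _
  rcases hp₁.mem_or_mem h1 with h2 | h2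
  · rcases hp₁.mem_or_mem h2 with h3 | h3
    · exact absurd (Ideal.eq_top_of_isUnit_mem _ h3 hu) hp₁.ne_top
    · exact hp₁.mem_of_pow_mem n h3
  · exact absurd h2 hs

/-- Normality criterion.
Proof: `K = FractionRing A`; extend `D₁, D₂` to `K` (`exists_der_localization`). For `z` integral
over `A`, all `z ^ i` are integral so `d z^i ∈ A`; `seidenberg_pow` with `S` the range of `A` gives
`d² (D z)^k ∈ A`, so `Algebra.adjoin A {D z}` lies in the cyclic `A`-module spanned by `d⁻²`; `A` is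
Noetherian so `D z` is integral (`isIntegral_of_submodule_noetherian`, or
`IsIntegral.of_mem_of_fg`). The conductor `𝔠 = {c | ∀ z integral, c z ∈ range}` is an ideal containing
`d ≠ 0`, stable under `Dᵢ` (`(D c) z = D (c z) − c (D z)`). Every minimal prime over `𝔠` is nonzero and
stable (`stable_of_minimalPrime`), so contains `deltaIdeal` (`deltaIdeal_le_of_stable`), so `f, t`.
Hence `f, t ∈ 𝔠.radical` (`Ideal.sInf_minimalPrimes`), `f^M z = a₁`, `t^M' z = a₂`,
`t^M' a₁ = f^M a₂`, `reg_pow` gives `f^M ∣ a₁`, so `z ∈ A` (`isIntegrallyClosed_iff`). -/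
theorem isIntegrallyClosed_of_delta {A : Type*} [CommRing A] [IsDomain A] [IsNoetherianRing A]
    [Algebra ℂ A] [Algebra Rr A] [IsScalarTower ℂ Rr A] (hA : LocInt Rr A)
    (D₁ D₂ : Derivation ℂ A A)
    (hf0 : algebraMap Rr A (X 0) ≠ 0)
    (hreg : ∀ a b : A, algebraMap Rr A (X 1) * a = algebraMap Rr A (X 0) * b →
      algebraMap Rr A (X 0) ∣ a)
    (N : ℕ) (hf : algebraMap Rr A (X 0) ^ N ∈ deltaIdeal D₁ D₂)
    (ht : algebraMap Rr A (X 1) ^ N ∈ deltaIdeal D₁ D₂)
    (d : A) (hd : d ≠ 0)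
    (hcond : ∀ z : FractionRing A, IsIntegral A z →
      ∃ a : A, algebraMap A (FractionRing A) a = algebraMap A (FractionRing A) d * z) :
    IsIntegrallyClosed A := by
  set K := FractionRing A with hK
  have hinj : Function.Injective (algebraMap A K) := IsFractionRing.injective A K
  have hdK : algebraMap A K d ≠ 0 := fun h => hd (hinj (by rw [h, map_zero]))
  let S : Subalgebra ℂ K := (IsScalarTower.toAlgHom ℂ A K).range
  have hS : ∀ y : K, y ∈ S ↔ ∃ a : A, algebraMap A K a = y := fun y => Iff.rfl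
  -- derivations preserve integrality
  have hint : ∀ (D : Derivation ℂ A A) (E : Derivation ℂ K K),
      (∀ b : A, E (algebraMap A K b) = algebraMap A K (D b)) →
      ∀ z : K, IsIntegral A z → IsIntegral A (E z) := by
    intro D E hE z hz
    have hES : ∀ y ∈ S, E y ∈ S := by
      intro y hy
      obtain ⟨a, rfl⟩ := (hS y).1 hy
      exact (hS _).2 ⟨D a, (hE a).symm⟩
    have hpow : ∀ k : ℕ, algebraMap A K d ^ 2 * E z ^ k ∈ S :=
      seidenberg_pow S E hES _ z fun i => (hS _).2 (hcond _ (hz.pow i))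
    have hle : Subalgebra.toSubmodule (Algebra.adjoin A {E z}) ≤
        Submodule.span A {(algebraMap A K d ^ 2)⁻¹} := by
      rw [Algebra.adjoin_eq_span, Submodule.span_le]
      intro y hy
      rw [SetLike.mem_coe, Submonoid.mem_closure_singleton] at hy
      obtain ⟨k, rfl⟩ := hy
      obtain ⟨a, ha⟩ := (hS _).1 (hpow k)
      rw [SetLike.mem_coe, Submodule.mem_span_singleton]
      refine ⟨a, ?_⟩
      rw [Algebra.smul_def, ha, mul_right_comm, mul_inv_cancel₀ (pow_ne_zero 2 hdK), one_mul]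
    have hfg : (Subalgebra.toSubmodule (Algebra.adjoin A {E z})).FG :=
      Submodule.FG.of_le (Submodule.fg_span_singleton _) hle
    exact IsIntegral.of_mem_of_fg _ hfg _ (Algebra.self_mem_adjoin_singleton A _)
  -- the conductor
  let 𝔠 : Ideal A :=
    { carrier := {c | ∀ z : K, IsIntegral A z → ∃ a : A, algebraMap A K a = algebraMap A K c * z}
      add_mem' := by
        intro c c' hc hc' z hz
        obtain ⟨a, ha⟩ := hc z hz
        obtain ⟨a', ha'⟩ := hc' z hz
        exact ⟨a + a', by rw [map_add, map_add, ha, ha', add_mul]⟩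
      zero_mem' := fun z _ => ⟨0, by simp⟩
      smul_mem' := by
        intro r c hc z hz
        obtain ⟨a, ha⟩ := hc z hz
        exact ⟨r * a, by rw [smul_eq_mul, map_mul, map_mul, ha, mul_assoc]⟩ }
  have h𝔠 : ∀ c : A, c ∈ 𝔠 ↔
      ∀ z : K, IsIntegral A z → ∃ a : A, algebraMap A K a = algebraMap A K c * z :=
    fun c => Iff.rfl
  have hstab : ∀ D : Derivation ℂ A A, ∀ c ∈ 𝔠, D c ∈ 𝔠 := by
    intro D c hc
    obtain ⟨E, hE⟩ := exists_der_localization (nonZeroDivisors A) K D
    rw [h𝔠] at hc ⊢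
    intro z hz
    obtain ⟨a, ha⟩ := hc z hz
    obtain ⟨a', ha'⟩ := hc (E z) (hint D E hE z hz)
    refine ⟨D a - a', ?_⟩
    rw [map_sub, ← hE a, ha, ha', Derivation.leibniz, hE c]
    simp only [smul_eq_mul]
    ring
  have hrad : ∀ g : A, g ^ N ∈ deltaIdeal D₁ D₂ → g ∈ 𝔠.radical := by
    intro g hg
    rw [← Ideal.sInf_minimalPrimes, Submodule.mem_sInf]
    intro (P : Ideal A) hP
    have hPp : Ideal.IsPrime P := hP.1.1
    have hP0 : P ≠ ⊥ := by
      intro h
      have : d ∈ P := hP.1.2 ((h𝔠 d).2 hcond)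
      rw [h] at this
      exact hd this
    have hle := deltaIdeal_le_of_stable hA D₁ D₂ P hP0
      (stable_of_minimalPrime D₁ 𝔠 (hstab D₁) P hP) (stable_of_minimalPrime D₂ 𝔠 (hstab D₂) P hP)
    exact hPp.mem_of_pow_mem N (hle hg)
  obtain ⟨M, hM⟩ := hrad _ hf
  obtain ⟨M', hM'⟩ := hrad _ ht
  rw [isIntegrallyClosed_iff K]
  intro z hz
  obtain ⟨a₁, ha₁⟩ := (h𝔠 _).1 hM z hz
  obtain ⟨a₂, ha₂⟩ := (h𝔠 _).1 hM' z hz
  have hrel : algebraMap Rr A (X 1) ^ M' * a₁ = algebraMap Rr A (X 0) ^ M * a₂ := by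
    apply hinj
    rw [map_mul, map_mul, ha₁, ha₂]
    ring
  obtain ⟨y, hy⟩ := reg_pow _ _ hf0 hreg M' M a₁ a₂ hrel
  refine ⟨y, ?_⟩
  have hne : algebraMap A K (algebraMap Rr A (X 0) ^ M) ≠ 0 := fun h =>
    pow_ne_zero M hf0 (hinj (by rw [h, map_zero]))
  apply mul_left_cancel₀ hne
  rw [← ha₁, hy, map_mul]

end Crest.Agent.R278
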