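import Crest.Agent.R278.Alg

/-!
# Row 278: the ring `Bq p`, its basis, and the domain property
-/

set_option autoImplicit false

noncomputable section

namespace Crest.Agent.R278

open MvPolynomial

/-- The ideal of Pfaffians. -/
def pfIdeal (p : Par Rr) : Ideal (MvPolynomial (Fin 3) Rr) :=
  Ideal.span {(mat (p.map C) (X 0) (X 1) (X 2)).pf.x1, (mat (p.map C) (X 0) (X 1) (X 2)).pf.x2,
    (mat (p.map C) (X 0) (X 1) (X 2)).pf.x3, (mat (p.map C) (X 0) (X 1) (X 2)).pf.x4,
    (mat (p.map C) (X 0) (X 1) (X 2)).pf.x5}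

/-- The rank six algebra over `ℂ[f,t]`. -/
abbrev Bq (p : Par Rr) : Type := MvPolynomial (Fin 3) Rr ⧸ pfIdeal p

def gq (p : Par Rr) : Bq p := Ideal.Quotient.mk _ (X 0)
def sq (p : Par Rr) : Bq p := Ideal.Quotient.mk _ (X 1)
def yq (p : Par Rr) : Bq p := Ideal.Quotient.mk _ (X 2)
def parq (p : Par Rr) : Par (Bq p) := p.map (algebraMap Rr (Bq p))
def basq (p : Par Rr) : V6 (Bq p) := bas (parq p) (gq p) (sq p) (yq p)

/-- The element with coordinates `x`. -/
def evq (p : Par Rr) (x : V6 Rr) : Bq p := (x.map (algebraMap Rr (Bq p))).dot (basq p)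

/-- The equation of `g`. -/
def chiP (p : Par Rr) : Polynomial Rr := chi (p.map Polynomial.C) Polynomial.X

section Nat
variable {α β : Type*} [CommRing α] [CommRing β]

theorem ring_pf_map (φ : α →+* β) (p : Par α) (g s y : α) :
    (mat (p.map φ) (φ g) (φ s) (φ y)).pf = ⟨φ (mat p g s y).pf.x1, φ (mat p g s y).pf.x2,
      φ (mat p g s y).pf.x3, φ (mat p g s y).pf.x4, φ (mat p g s y).pf.x5⟩ := by
  simp only [Sk.pf, mat, Par.map, map_add, map_sub, map_mul, map_neg, map_pow]

theorem ring_chi_coeff (φ : α →+* β) (p : Par α) :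
    chi0 (p.map φ) = φ (chi0 p) ∧ chi1 (p.map φ) = φ (chi1 p) ∧ chi2 (p.map φ) = φ (chi2 p) ∧
      chi3 (p.map φ) = φ (chi3 p) ∧ chi4 (p.map φ) = φ (chi4 p) ∧ chi5 (p.map φ) = φ (chi5 p) := by
  simp only [chi0, chi1, chi2, chi3, chi4, chi5, Par.map, map_add, map_sub, map_mul, map_neg,
    map_pow, map_ofNat, and_self]

theorem ring_chi_map (φ : α →+* β) (p : Par α) (g : α) :
    chi (p.map φ) (φ g) = φ (chi p g) := by
  obtain ⟨h0, h1, h2, h3, h4, h5⟩ := ring_chi_coeff φ p
  simp only [chi, h0, h1, h2, h3, h4, h5, map_add, map_mul, map_pow]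

theorem ring_dot_eq_sum (x b : V6 α) : x.dot b = ∑ k, x.get k * b.get k := by
  simp [V6.dot, V6.get, Fin.sum_univ_six]

theorem ring_get_map {α β : Type*} (φ : α → β) (x : V6 α) (k : Fin 6) :
    (x.map φ).get k = φ (x.get k) := by
  fin_cases k <;> rfl

end Nat

theorem ring_evq_eq_sum (p : Par Rr) (x : V6 Rr) :
    evq p x = ∑ k, x.get k • (basq p).get k := by
  refine (ring_dot_eq_sum (α := Bq p) _ _).trans (Finset.sum_congr rfl fun k _ => ?_)
  rw [ring_get_map]
  exact (Algebra.smul_def _ _).symm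

theorem ring_chiP_eq (p : Par Rr) : chiP p = Polynomial.X ^ 6 + Polynomial.C (chi5 p) * Polynomial.X ^ 5 +
    Polynomial.C (chi4 p) * Polynomial.X ^ 4 + Polynomial.C (chi3 p) * Polynomial.X ^ 3 +
    Polynomial.C (chi2 p) * Polynomial.X ^ 2 + Polynomial.C (chi1 p) * Polynomial.X +
    Polynomial.C (chi0 p) := by
  obtain ⟨h0, h1, h2, h3, h4, h5⟩ := ring_chi_coeff (Polynomial.C : Rr →+* Polynomial Rr) p
  simp only [chiP, chi, h0, h1, h2, h3, h4, h5]

/-- Proof: `ext`; each coordinate is `Ideal.Quotient.mk _` of a generator (`simp [Sk.pf, mat, …]`,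
`algebraMap Rr (Bq p) r = mk (C r)` holds by `rfl`), `Ideal.Quotient.eq_zero_iff_mem`. -/
theorem pf_q (p : Par Rr) : (mat (parq p) (gq p) (sq p) (yq p)).pf = V5.zero := by
  have h := ring_pf_map (α := MvPolynomial (Fin 3) Rr) (β := Bq p) (Ideal.Quotient.mk (pfIdeal p))
    (p.map C) (X 0) (X 1) (X 2)
  have e : (p.map (C : Rr → MvPolynomial (Fin 3) Rr)).map (Ideal.Quotient.mk (pfIdeal p)) =
      parq p := rfl
  rw [e] at h
  rw [gq, sq, yq, h]
  ext <;> exact Ideal.Quotient.eq_zero_iff_mem.2 (Ideal.subset_span (by simp))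

/-- An algebra map out of `Bq p` from a solution of the equations
(`Ideal.Quotient.liftₐ` of `MvPolynomial.aeval ![g, s, y]`). -/
theorem exists_lift (p : Par Rr) {K : Type*} [CommRing K] [Algebra Rr K] (g s y : K)
    (h : (mat (p.map (algebraMap Rr K)) g s y).pf = V5.zero) :
    ∃ φ : Bq p →ₐ[Rr] K, φ (gq p) = g ∧ φ (sq p) = s ∧ φ (yq p) = y := by
  have h1 := ring_pf_map (aeval ![g, s, y] : MvPolynomial (Fin 3) Rr →ₐ[Rr] K).toRingHom (p.map C)
    (X 0) (X 1) (X 2)
  have h2 : (p.map (C : Rr → MvPolynomial (Fin 3) Rr)).map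
      (aeval ![g, s, y] : MvPolynomial (Fin 3) Rr →ₐ[Rr] K).toRingHom = p.map (algebraMap Rr K) := by
    simp [Par.map]
  rw [h2] at h1
  simp only [AlgHom.toRingHom_eq_coe, RingHom.coe_coe, aeval_X, Matrix.cons_val_zero,
    Matrix.cons_val_one, Matrix.cons_val] at h1
  rw [h] at h1
  have hI : pfIdeal p ≤ RingHom.ker (aeval ![g, s, y] : MvPolynomial (Fin 3) Rr →ₐ[Rr] K) := by
    refine Ideal.span_le.2 ?_
    rintro _ (rfl | rfl | rfl | rfl | rfl)
    · exact (congrArg V5.x1 h1).symm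
    · exact (congrArg V5.x2 h1).symm
    · exact (congrArg V5.x3 h1).symm
    · exact (congrArg V5.x4 h1).symm
    · exact (congrArg V5.x5 h1).symm
  exact ⟨Ideal.Quotient.liftₐ _ (aeval ![g, s, y]) fun a ha => hI ha, aeval_X _ 0, aeval_X _ 1,
    aeval_X _ 2⟩

/-- Proof: `Ideal.Quotient.mk_surjective`, `MvPolynomial.induction_on`. Constants: `⟨r,0,0,0,0,0⟩`; sums:
`V6.add` and `dot_add`; products with `X i`: `x.comb (tabG p)` etc., by `dot_tabG/dot_tabS/dot_tabY (pf_q p)`
and naturality `((opRel_hom φ).comb (V6.rel_map φ x) ((opRel_hom φ).tabG (Par.rel_map φ p))).eq_map`. -/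
theorem evq_surjective (p : Par Rr) : Function.Surjective (evq p) := by
  intro z
  obtain ⟨z, rfl⟩ := Ideal.Quotient.mk_surjective z
  have hρ := opRel_hom (α := Rr) (β := Bq p) (algebraMap Rr (Bq p))
  induction z using MvPolynomial.induction_on with
  | C r =>
    refine ⟨⟨r, 0, 0, 0, 0, 0⟩, ?_⟩
    simp only [evq, V6.map, V6.dot, basq, bas, map_zero, zero_mul, add_zero, mul_one]
    rfl
  | add a b ha hb =>
    obtain ⟨x, hx⟩ := ha
    obtain ⟨y, hy⟩ := hb
    refine ⟨x.add y, ?_⟩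
    rw [map_add, ← hx, ← hy, evq, ← (hρ.vadd (V6.rel_map _ x) (V6.rel_map _ y)).eq_map, dot_add]
    rfl
  | mul_X a i ha =>
    obtain ⟨x, hx⟩ := ha
    rw [map_mul, ← hx]
    fin_cases i
    · refine ⟨x.comb (tabG p), ?_⟩
      rw [evq, ← (hρ.comb (V6.rel_map _ x) (hρ.tabG (Par.rel_map _ p))).eq_map]
      exact (dot_tabG (pf_q p) _).trans (mul_comm (gq p) _)
    · refine ⟨x.comb (tabS p), ?_⟩
      rw [evq, ← (hρ.comb (V6.rel_map _ x) (hρ.tabS (Par.rel_map _ p))).eq_map]
      exact (dot_tabS (pf_q p) _).trans (mul_comm (sq p) _)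
    · refine ⟨x.comb (tabY p), ?_⟩
      rw [evq, ← (hρ.comb (V6.rel_map _ x) (hρ.tabY (Par.rel_map _ p))).eq_map]
      exact (dot_tabY (pf_q p) _).trans (mul_comm (yq p) _)

theorem chiP_monic (p : Par Rr) : (chiP p).Monic := by
  rw [ring_chiP_eq]
  monicity!

theorem chiP_natDegree (p : Par Rr) : (chiP p).natDegree = 6 := by
  rw [ring_chiP_eq]
  compute_degree!

/-- Proof: `F = FractionRing Rr`, `χ = (chiP p).map (algebraMap Rr F)` is irreducible
(`Polynomial.Monic.irreducible_iff_irreducible_map_fraction_map`), `K = AdjoinRoot χ` is a field of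
dimension `6` over `F` (`AdjoinRoot.powerBasis`), `g = root χ` satisfies `chi _ g = 0`, and
`kap _ g ≠ 0` (it is `aeval g` of a monic polynomial of degree `2 < 6`; `minpoly`/`AdjoinRoot.mk_ne_zero_of_natDegree_lt`).
`pf_of_root` and `exists_lift` give `φ : Bq p →ₐ[Rr] K` with `φ (gq p) = g`. The six images
`φ ((basq p).get k)` span `K` over `F` (their `F`-span contains the range of `φ` by `evq_surjective`, so all powers
of `g`), hence are linearly independent over `F` (`linearIndependent_of_top_le_span_of_card_eq_finrank`),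
so `φ (evq p x) = 0` forces `x = 0` (`IsFractionRing.injective`). This gives both claims:
`φ` is injective (`Function.Injective.isDomain`). -/
theorem isDomain_and_inj (p : Par Rr) (hχ : Irreducible (chiP p)) :
    IsDomain (Bq p) ∧ ∀ x : V6 Rr, evq p x = 0 → x = ⟨0, 0, 0, 0, 0, 0⟩ := by
  let F := FractionRing Rr
  let χ : Polynomial F := (chiP p).map (algebraMap Rr F)
  have hm : χ.Monic := (chiP_monic p).map _
  have hd : χ.natDegree = 6 := by
    rw [(chiP_monic p).natDegree_map, chiP_natDegree]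
  have : Fact (Irreducible χ) :=
    ⟨(chiP_monic p).irreducible_iff_irreducible_map_fraction_map.1 hχ⟩
  let K := AdjoinRoot χ
  let g : K := AdjoinRoot.root χ
  let pb := AdjoinRoot.powerBasis hm.ne_zero
  have hfin : Module.finrank F K = 6 := by rw [pb.finrank, AdjoinRoot.powerBasis_dim, hd]
  have hg : chi (p.map (algebraMap Rr K)) g = 0 := by
    have h1 := ring_chi_map (Polynomial.aeval g : Polynomial Rr →ₐ[Rr] K).toRingHom
      (p.map Polynomial.C) Polynomial.X
    have h2 : (p.map (Polynomial.C : Rr → Polynomial Rr)).map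
        (Polynomial.aeval g : Polynomial Rr →ₐ[Rr] K).toRingHom = p.map (algebraMap Rr K) := by
      simp [Par.map]
    rw [h2] at h1
    simp only [AlgHom.toRingHom_eq_coe, RingHom.coe_coe, Polynomial.aeval_X] at h1
    rw [h1]
    change Polynomial.aeval g (chiP p) = 0
    rw [← Polynomial.aeval_map_algebraMap F, AdjoinRoot.aeval_eq, AdjoinRoot.mk_self]
  have hk : kap (p.map (algebraMap Rr K)) g ≠ 0 := by
    let q : Polynomial F := Polynomial.X ^ 2 - Polynomial.C (algebraMap Rr F p.t) * Polynomial.X +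
      Polynomial.C (algebraMap Rr F (p.f ^ 2 * p.t))
    have q1 : q.Monic := by
      unfold q
      monicity!
    have q2 : q.natDegree < χ.natDegree := by
      rw [hd]
      unfold q
      compute_degree!
    have q3 := AdjoinRoot.mk_ne_zero_of_natDegree_lt hm q1.ne_zero q2
    rw [← AdjoinRoot.aeval_eq] at q3
    simpa only [q, kap, Par.map, map_add, map_sub, map_mul, map_pow, Polynomial.aeval_X,
      Polynomial.aeval_C, ← IsScalarTower.algebraMap_apply] using q3
  obtain ⟨φ, hφ, -⟩ := exists_lift p g _ _ (pf_of_root _ g _ (mul_inv_cancel₀ (G₀ := AdjoinRoot χ) hk) hg)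
  have hev : ∀ x, φ (evq p x) = ∑ k, algebraMap Rr F (x.get k) • φ ((basq p).get k) := fun x => by
    simp only [ring_evq_eq_sum, map_sum, map_smul, algebraMap_smul]
  have hli : LinearIndependent F fun k => φ ((basq p).get k) := by
    refine linearIndependent_of_top_le_span_of_card_eq_finrank ?_ (by rw [hfin, Fintype.card_fin])
    rw [← pb.basis.span_eq]
    refine Submodule.span_le.2 ?_
    rintro _ ⟨i, rfl⟩
    obtain ⟨x, hx⟩ := evq_surjective p (gq p ^ (i : ℕ))
    rw [pb.coe_basis, AdjoinRoot.powerBasis_gen]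
    change g ^ (i : ℕ) ∈ _
    rw [← hφ, ← map_pow, ← hx, hev]
    exact sum_mem fun k _ => Submodule.smul_mem _ _ (Submodule.subset_span ⟨k, rfl⟩)
  have hinj : ∀ x, φ (evq p x) = 0 → x = ⟨0, 0, 0, 0, 0, 0⟩ := fun x hx => by
    rw [hev] at hx
    have h0 : ∀ k, x.get k = 0 := fun k => IsFractionRing.injective Rr F
      ((Fintype.linearIndependent_iff.1 hli _ hx k).trans (map_zero _).symm)
    cases x
    congr 1
    exacts [h0 0, h0 1, h0 2, h0 3, h0 4, h0 5]
  have : IsDomain K := (inferInstance : Field (AdjoinRoot χ)).isDomain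
  refine ⟨Function.Injective.isDomain φ.toRingHom ((injective_iff_map_eq_zero _).2 fun z hz => ?_),
    fun x hx => hinj x (by rw [hx, map_zero])⟩
  obtain ⟨x, rfl⟩ := evq_surjective p z
  rw [hinj x hz]
  simp [evq, V6.map, V6.dot]

theorem finite_q (p : Par Rr) : Module.Finite Rr (Bq p) := by
  refine Module.Finite.of_surjective (Fintype.linearCombination Rr (basq p).get) fun z => ?_
  obtain ⟨x, rfl⟩ := evq_surjective p z
  exact ⟨x.get, by rw [Fintype.linearCombination_apply, ring_evq_eq_sum]⟩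

/-- Proof: `(Fin 6 → Rr) →ₗ Bq p`, `c ↦ ∑ c k • (basq p).get k` is bijective (or `Basis.mk`). -/
theorem free_q (p : Par Rr) (hinj : ∀ x : V6 Rr, evq p x = 0 → x = ⟨0, 0, 0, 0, 0, 0⟩) :
    Module.Free Rr (Bq p) := by
  refine Module.Free.of_equiv (LinearEquiv.ofBijective (Fintype.linearCombination Rr (basq p).get)
    ⟨(injective_iff_map_eq_zero _).2 fun c hc => ?_, fun z => ?_⟩)
  · have h1 : (⟨c 0, c 1, c 2, c 3, c 4, c 5⟩ : V6 Rr).get = c := by
      funext k
      fin_cases k <;> rfl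
    have h2 := hinj ⟨c 0, c 1, c 2, c 3, c 4, c 5⟩ (by
      rw [ring_evq_eq_sum, h1, ← Fintype.linearCombination_apply, hc])
    rw [← h1, h2]
    funext k
    fin_cases k <;> rfl
  · obtain ⟨x, rfl⟩ := evq_surjective p z
    exact ⟨x.get, by rw [Fintype.linearCombination_apply, ring_evq_eq_sum]⟩

end Crest.Agent.R278
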