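import Crest.Agent.R278.Alg
import Crest.Agent.R278.Free

/-!
# Row 278: syzygies of `π_f, π_t, π_g` give derivations, and their minors
-/

set_option autoImplicit false

namespace Crest.Agent.R278

section
variable {B : Type*} [CommRing B]

/-- The ideal of combinations `a x + b y + c z` with coefficients in `I`. -/
def comb3 (I : Ideal B) (x y z : B) : Ideal B where
  carrier := {w | ∃ a ∈ I, ∃ b ∈ I, ∃ c ∈ I, w = a * x + b * y + c * z}
  add_mem' := by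
    rintro _ _ ⟨a, ha, b, hb, c, hc, rfl⟩ ⟨a', ha', b', hb', c', hc', rfl⟩
    exact ⟨a + a', I.add_mem ha ha', b + b', I.add_mem hb hb', c + c', I.add_mem hc hc', by ring⟩
  zero_mem' := ⟨0, I.zero_mem, 0, I.zero_mem, 0, I.zero_mem, by ring⟩
  smul_mem' := by
    rintro r _ ⟨a, ha, b, hb, c, hc, rfl⟩
    exact ⟨r * a, I.mul_mem_left r ha, r * b, I.mul_mem_left r hb, r * c, I.mul_mem_left r hc, by
      simp only [smul_eq_mul]; ring⟩

theorem mem_comb3 {I : Ideal B} {x y z w : B} :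
    w ∈ comb3 I x y z ↔ ∃ a ∈ I, ∃ b ∈ I, ∃ c ∈ I, w = a * x + b * y + c * z := Iff.rfl

/-- Linear combination of three skew matrices. -/
def Sk.lin (a : B) (M : Sk B) (b : B) (N : Sk B) (c : B) (P : Sk B) : Sk B :=
  ⟨a * M.m12 + b * N.m12 + c * P.m12, a * M.m13 + b * N.m13 + c * P.m13,
   a * M.m14 + b * N.m14 + c * P.m14, a * M.m15 + b * N.m15 + c * P.m15,
   a * M.m23 + b * N.m23 + c * P.m23, a * M.m24 + b * N.m24 + c * P.m24,
   a * M.m25 + b * N.m25 + c * P.m25, a * M.m34 + b * N.m34 + c * P.m34,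
   a * M.m35 + b * N.m35 + c * P.m35, a * M.m45 + b * N.m45 + c * P.m45⟩

theorem ell_lin (M : Sk B) (a : B) (E₁ : Sk B) (b : B) (E₂ : Sk B) (c : B) (E₃ : Sk B) :
    ell M (M.pol (Sk.lin a E₁ b E₂ c E₃)) =
      a * ell M (M.pol E₁) + b * ell M (M.pol E₂) + c * ell M (M.pol E₃) := by
  simp only [ell, formY, Sk.pol, Sk.lin]; ring

theorem pol_lin (M : Sk B) (a : B) (E₁ : Sk B) (b : B) (E₂ : Sk B) (c : B) (E₃ : Sk B) :
    M.pol (Sk.lin a E₁ b E₂ c E₃) =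
      ⟨a * (M.pol E₁).x1 + b * (M.pol E₂).x1 + c * (M.pol E₃).x1,
       a * (M.pol E₁).x2 + b * (M.pol E₂).x2 + c * (M.pol E₃).x2,
       a * (M.pol E₁).x3 + b * (M.pol E₂).x3 + c * (M.pol E₃).x3,
       a * (M.pol E₁).x4 + b * (M.pol E₂).x4 + c * (M.pol E₃).x4,
       a * (M.pol E₁).x5 + b * (M.pol E₂).x5 + c * (M.pol E₃).x5⟩ := by
  ext <;> simp only [Sk.pol, Sk.lin] <;> ring

variable [IsDomain B]

/-- A normal vector killed by `ell` is (after multiplication by `s`) a combination of the `s` and `y`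
directions. -/
theorem kernel_of_ell (f t : B) (hf0 : f ≠ 0) (hreg : ∀ a b : B, t * a = f * b → f ∣ a)
    (M : Sk B) (hM : M.pf = V5.zero) (hκ : M.m13 ^ 2 - M.m23 * M.m12 ≠ 0) (s : B) (N : ℕ)
    (F T : Sk B) (hF : ell M (M.pol F) = s * f ^ N) (hT : ell M (M.pol T) = s * t ^ N)
    (E : Sk B) (hE : ell M (M.pol E) = 0) :
    ∃ d e : B, M.pol (Sk.lin s E d eS e eY) = V5.zero := by
  obtain ⟨a1, a2, a3, a4, a5⟩ := four_dep M _ _ (app_pol M E hM) (app_pol M F hM)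
  obtain ⟨b1, b2, b3, b4, b5⟩ := four_dep M _ _ (app_pol M E hM) (app_pol M T hM)
  rw [hE, hF] at a1 a2 a3 a4 a5
  rw [hE, hT] at b1 b2 b3 b4 b5
  set c1 := formY (M.pol E) (M.pol F)
  set c2 := formS (M.pol E) (M.pol F)
  set d1 := formY (M.pol E) (M.pol T)
  set d2 := formS (M.pol E) (M.pol T)
  have s4 : (M.pol eS).x4 = M.m13 := by simp [Sk.pol, eS]
  have s5 : (M.pol eS).x5 = M.m23 := by simp [Sk.pol, eS]
  have y4 : (M.pol eY).x4 = -M.m12 := by simp [Sk.pol, eY]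
  have y5 : (M.pol eY).x5 = -M.m13 := by simp [Sk.pol, eY]
  have h4 : (t ^ N * c1 - f ^ N * d1) * M.m13 + (t ^ N * c2 - f ^ N * d2) * M.m12 = 0 := by
    rw [s4, y4] at a4 b4; linear_combination t ^ N * a4 - f ^ N * b4
  have h5 : (t ^ N * c1 - f ^ N * d1) * M.m23 + (t ^ N * c2 - f ^ N * d2) * M.m13 = 0 := by
    rw [s5, y5] at a5 b5; linear_combination t ^ N * a5 - f ^ N * b5
  have e1 : t ^ N * c1 = f ^ N * d1 := by
    have : (t ^ N * c1 - f ^ N * d1) * (M.m13 ^ 2 - M.m23 * M.m12) = 0 := by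
      linear_combination M.m13 * h4 - M.m12 * h5
    exact sub_eq_zero.mp ((mul_eq_zero.mp this).resolve_right hκ)
  have e2 : t ^ N * c2 = f ^ N * d2 := by
    have : (t ^ N * c2 - f ^ N * d2) * (M.m13 ^ 2 - M.m23 * M.m12) = 0 := by
      linear_combination M.m13 * h5 - M.m23 * h4
    exact sub_eq_zero.mp ((mul_eq_zero.mp this).resolve_right hκ)
  obtain ⟨d, hd⟩ := reg_pow f t hf0 hreg N N _ _ e1
  obtain ⟨e, he⟩ := reg_pow f t hf0 hreg N N _ _ e2
  have hfN : f ^ N ≠ 0 := pow_ne_zero N hf0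
  refine ⟨d, -e, ?_⟩
  rw [pol_lin]
  rw [hd, he] at a1 a2 a3 a4 a5
  ext <;> simp only [V5.zero] <;> apply mul_left_cancel₀ hfN
  · linear_combination a1
  · linear_combination a2
  · linear_combination a3
  · linear_combination a4
  · linear_combination a5

/-- The minors of two derivations given by syzygies. -/
theorem delta_of_syz {k : Type*} [CommRing k] [Algebra k B] (f t g : B) (hf0 : f ≠ 0)
    (hreg : ∀ a b : B, t * a = f * b → f ∣ a) (D₁ D₂ : Derivation k B B) (x y z : B) (hz : z ≠ 0)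
    (h₁ : D₁ f * x + D₁ t * y + D₁ g * z = 0) (h₂ : D₂ f * x + D₂ t * y + D₂ g * z = 0)
    (s : B) (N : ℕ) (hf : s * f ^ N ∈ comb3 ⊤ x y z) (ht : s * t ^ N ∈ comb3 ⊤ x y z) :
    ∃ l : B, s * (D₁ f * D₂ t - D₁ t * D₂ f) = z * l ∧ l * f ^ N ∈ deltaIdeal D₁ D₂ ∧
      l * t ^ N ∈ deltaIdeal D₁ D₂ := by
  have key : ∀ w ∈ comb3 ⊤ x y z, ∃ δ ∈ deltaIdeal D₁ D₂,
      w * (D₁ f * D₂ t - D₁ t * D₂ f) = z * δ := by
    rintro _ ⟨a, -, b, -, c, -, rfl⟩
    refine ⟨a * (D₁ t * D₂ g - D₁ g * D₂ t) + b * (D₁ g * D₂ f - D₁ f * D₂ g) +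
      c * (D₁ f * D₂ t - D₁ t * D₂ f), ?_, ?_⟩
    · exact Ideal.add_mem _ (Ideal.add_mem _ (Ideal.mul_mem_left _ _ (delta_mem _ _ _ _))
        (Ideal.mul_mem_left _ _ (delta_mem _ _ _ _))) (Ideal.mul_mem_left _ _ (delta_mem _ _ _ _))
    · linear_combination (a * D₂ t - b * D₂ f) * h₁ - (a * D₁ t - b * D₁ f) * h₂
  obtain ⟨δ₁, m₁, e₁⟩ := key _ hf
  obtain ⟨δ₂, m₂, e₂⟩ := key _ ht
  have e : t ^ N * δ₁ = f ^ N * δ₂ := by
    apply mul_left_cancel₀ hz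
    linear_combination f ^ N * e₂ - t ^ N * e₁
  obtain ⟨l, hl⟩ := reg_pow f t hf0 hreg N N _ _ e
  have hfN : f ^ N ≠ 0 := pow_ne_zero N hf0
  refine ⟨l, ?_, ?_, ?_⟩
  · apply mul_left_cancel₀ hfN
    rw [hl] at e₁; linear_combination e₁
  · rw [mul_comm, ← hl]; exact m₁
  · have : l * t ^ N = δ₂ := by
      apply mul_left_cancel₀ hfN
      rw [hl] at e; linear_combination e
    rw [this]; exact m₂

end

end Crest.Agent.R278
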