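import Crest.Agent.R278.Gen

/-!
# Row 278: integer polynomials given by lists, the weight filtration, Nakayama
-/

set_option autoImplicit false

namespace Crest.Agent.R278

open MvPolynomial

abbrev Rz : Type := MvPolynomial (Fin 2) ℤ

/-- A polynomial as a list of terms `(i, j, c)`, meaning `c f^i t^j`. -/
abbrev Dat : Type := List (ℕ × ℕ × ℤ)

noncomputable def ofD : Dat → Rz
  | [] => 0
  | x :: l => C x.2.2 * X 0 ^ x.1 * X 1 ^ x.2.1 + ofD l

def dF (l : Dat) : Dat := l.map fun x => (x.1 - 1, x.2.1, (x.1 : ℤ) * x.2.2)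

def dT (l : Dat) : Dat := l.map fun x => (x.1, x.2.1 - 1, (x.2.1 : ℤ) * x.2.2)

/-- All terms have weight at least `n`. -/
def wtOK (n : ℕ) (l : Dat) : Bool := l.all fun x => Nat.ble n (x.1 + 3 * x.2.1)

/-- `low + t^10 (c - low(f, -1))`: equal to the constant `c` on the line `t = -1`. -/
def fixD (low : Dat) (c : ℤ) : Dat :=
  low ++ (0, 10, c) :: low.map fun x => (x.1, 10, if x.2.1 % 2 = 0 then -x.2.2 else x.2.2)

/-- Polynomials of weight at least `n` (`f` has weight `1`, `t` has weight `3`). -/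
noncomputable def W (n : ℕ) : Ideal Rz := Ideal.span {x | ∃ i j : ℕ, n ≤ i + 3 * j ∧ x = X 0 ^ i * X 1 ^ j}

theorem ofD_append (l l' : Dat) : ofD (l ++ l') = ofD l + ofD l' := by
  induction l with
  | nil => simp [ofD]
  | cons x l ih => simp [ofD, ih, add_assoc]

theorem pderiv_zero_ofD (l : Dat) : pderiv 0 (ofD l) = ofD (dF l) := by
  induction l with
  | nil => simp [ofD, dF]
  | cons x l ih =>
    have : dF (x :: l) = (x.1 - 1, x.2.1, (x.1 : ℤ) * x.2.2) :: dF l := rfl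
    rw [this, ofD, ofD, map_add, ih]
    congr 1
    simp [Derivation.leibniz, Derivation.leibniz_pow, pderiv_X]
    ring

theorem pderiv_one_ofD (l : Dat) : pderiv 1 (ofD l) = ofD (dT l) := by
  induction l with
  | nil => simp [ofD, dT]
  | cons x l ih =>
    have : dT (x :: l) = (x.1, x.2.1 - 1, (x.2.1 : ℤ) * x.2.2) :: dT l := rfl
    rw [this, ofD, ofD, map_add, ih]
    congr 1
    simp [Derivation.leibniz, Derivation.leibniz_pow, pderiv_X]
    ring

theorem wt_mon_mem_W {n i j : ℕ} (h : n ≤ i + 3 * j) : (X 0 ^ i * X 1 ^ j : Rz) ∈ W n :=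
  Ideal.subset_span ⟨i, j, h, rfl⟩

theorem ofD_mem_W {n : ℕ} {l : Dat} (h : wtOK n l = true) : ofD l ∈ W n := by
  induction l with
  | nil => exact zero_mem _
  | cons x l ih =>
    simp only [wtOK, List.all_cons, Bool.and_eq_true, Nat.ble_eq] at h
    rw [ofD, mul_assoc]
    exact add_mem (Ideal.mul_mem_left _ _ (wt_mon_mem_W h.1)) (ih (by simpa [wtOK] using h.2))

theorem map_fixD {A : Type*} [CommRing A] (ψ : Rz →+* A) (h : ψ (X 1) = -1) (low : Dat) (c : ℤ) :
    ψ (ofD (fixD low c)) = c := by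
  have hC : ∀ z : ℤ, ψ (C z) = z := fun z => by simp
  have key : ψ (ofD low) + ψ (ofD (low.map fun x =>
      (x.1, 10, if x.2.1 % 2 = 0 then -x.2.2 else x.2.2))) = 0 := by
    induction low with
    | nil => simp [ofD]
    | cons x l ih =>
      rw [List.map_cons, ofD, ofD, map_add, map_add, add_add_add_comm, ih, add_zero]
      simp only [map_mul, map_pow, h, hC]
      rcases Nat.even_or_odd x.2.1 with he | ho
      · rw [if_pos (Nat.even_iff.1 he), he.neg_one_pow]; push_cast; ring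
      · rw [if_neg (by have := Nat.odd_iff.1 ho; omega), ho.neg_one_pow]; ring
  rw [fixD, ofD_append, ofD, map_add, map_add, add_left_comm, key]
  simp only [map_mul, map_pow, h, hC]
  ring

theorem W_mono {m n : ℕ} (h : m ≤ n) : W n ≤ W m :=
  Ideal.span_mono fun _ ⟨i, j, hij, e⟩ => ⟨i, j, h.trans hij, e⟩

theorem W_one_le : W 1 ≤ Ideal.span {X 0, X 1} := by
  rw [W, Ideal.span_le]
  rintro _ ⟨i, j, hij, rfl⟩
  rcases Nat.eq_zero_or_pos i with rfl | hi
  · exact Ideal.mul_mem_left _ _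
      (Ideal.pow_mem_of_mem _ (Ideal.subset_span (by simp)) _ (by omega))
  · exact Ideal.mul_mem_right _ _ (Ideal.pow_mem_of_mem _ (Ideal.subset_span (by simp)) _ hi)

theorem constantCoeff_of_mem_W_one {x : Rz} (h : x ∈ W 1) : constantCoeff x = 0 := by
  have : Ideal.span {X 0, X 1} ≤ RingHom.ker (constantCoeff : Rz →+* ℤ) := by
    rw [Ideal.span_le]
    rintro _ (rfl | rfl) <;> simp
  exact this (W_one_le h)

/-- Write `x` as the sum of its monomials (`MvPolynomial.as_sum`, `monomial_eq`, `Finsupp.prod_fintype`). -/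
theorem mem_W_of_coeff {n : ℕ} {x : Rz} (h : ∀ m : Fin 2 →₀ ℕ, m 0 + 3 * m 1 < n → coeff m x = 0) :
    x ∈ W n := by
  rw [x.as_sum]
  refine Ideal.sum_mem _ fun m hm => ?_
  rw [monomial_eq, Finsupp.prod_fintype _ _ (by simp), Fin.prod_univ_two]
  refine Ideal.mul_mem_left _ _ (wt_mon_mem_W ?_)
  by_contra hc
  exact mem_support_iff.1 hm (h m (by omega))

/-- Nakayama's lemma for the filtration. Proof: view `B` as an `Rz`-module through `ρ` (`ρ.toAlgebra`).
`L` = span over `Rz` of the elements `ρ (X 0 ^ a * X 1 ^ b) * e k` with `j k ≤ a + 3 b`; it contains all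
`∑ ρ (x i) * e i` with `x i ∈ W (j i)`, and it is finitely generated (it lies in the span of the `e k`, and `Rz` is
Noetherian; or it is the image of the submodule `pi (W ∘ j)` of `ι → Rz`). `I = span {q, X 0, X 1}`.
`L ≤ J ⊔ I • L` on generators: if `1 ≤ a` and `j k + 1 ≤ a + 3 b`, or `1 ≤ b` and `j k + 3 ≤ a + 3 b`, the generator is
in `I • L`; otherwise `b ≤ (j k + 2) / 3` and `a = j k - 3 b` (`omega`) and `h` applies (elements of `W (n + 3)` times `e i`
are in `I • L` by span induction). `Submodule.exists_sub_one_mem_and_smul_le_of_fg_of_le_sup` (or pass to the quotient by `J`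
and use `Submodule.exists_sub_one_mem_and_smul_eq_zero_of_fg_of_le_smul`) gives `s` with
`s - 1 ∈ I`, so `constantCoeff s ≡ 1 mod q`. -/
theorem nakayama_W {B : Type*} [CommRing B] (ρ : Rz →+* B) {ι : Type*} [Fintype ι] (e : ι → B)
    (j : ι → ℕ) (J : Ideal B) (q : ℕ) (hq : 2 ≤ q)
    (h : ∀ (k : ι) (b : ℕ), b ≤ (j k + 2) / 3 → ∃ u r : ι → Rz, (∀ i, u i ∈ W (j i)) ∧
      (∀ i, r i ∈ W (j i + 3)) ∧
      ρ (X 0 ^ (j k - 3 * b) * X 1 ^ b) * e k + ∑ i, ρ ((q : ℤ) * u i + r i) * e i ∈ J) :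
    ∃ s : Rz, constantCoeff s ≠ 0 ∧
      ∀ x : ι → Rz, (∀ i, x i ∈ W (j i)) → ρ s * ∑ i, ρ (x i) * e i ∈ J := by
  let _inst : Algebra Rz B := ρ.toAlgebra
  have hs : ∀ (c : Rz) (z : B), c • z = ρ c * z := fun c z => rfl
  let J' : Submodule Rz B := J.restrictScalars Rz
  let g : ι → Rz →ₗ[Rz] (B ⧸ J') := fun k => J'.mkQ ∘ₗ LinearMap.toSpanSingleton Rz B (e k)
  have hg : ∀ k w, g k w = J'.mkQ (ρ w * e k) := fun k w => rfl
  let N : Submodule Rz (B ⧸ J') := ⨆ k, Submodule.map (g k) (W (j k))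
  have hN : ∀ k, ∀ w ∈ W (j k), g k w ∈ N := fun k w hw =>
    Submodule.mem_iSup_of_mem k (Submodule.mem_map_of_mem hw)
  let I : Ideal Rz := Ideal.span {(q : Rz), X 0, X 1}
  have hq' : (q : Rz) ∈ I := Ideal.subset_span (by simp)
  have h0 : (X 0 : Rz) ∈ I := Ideal.subset_span (by simp)
  have h1 : (X 1 : Rz) ∈ I := Ideal.subset_span (by simp)
  have a0 : ∀ k a b, j k ≤ a + 3 * b → g k (X 0 ^ (a + 1) * X 1 ^ b) ∈ I • N := by
    intro k a b hab
    rw [show (X 0 ^ (a + 1) * X 1 ^ b : Rz) = (X 0 : Rz) • (X 0 ^ a * X 1 ^ b) by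
      rw [smul_eq_mul]; ring, map_smul]
    exact Submodule.smul_mem_smul h0 (hN k _ (wt_mon_mem_W hab))
  have a1 : ∀ k a b, j k ≤ a + 3 * b → g k (X 0 ^ a * X 1 ^ (b + 1)) ∈ I • N := by
    intro k a b hab
    rw [show (X 0 ^ a * X 1 ^ (b + 1) : Rz) = (X 1 : Rz) • (X 0 ^ a * X 1 ^ b) by
      rw [smul_eq_mul]; ring, map_smul]
    exact Submodule.smul_mem_smul h1 (hN k _ (wt_mon_mem_W hab))
  have red : ∀ k n, (∀ a b, n ≤ a + 3 * b → g k (X 0 ^ a * X 1 ^ b) ∈ I • N) →
      ∀ w ∈ W n, g k w ∈ I • N := by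
    intro k n hn w hw
    induction hw using Submodule.span_induction with
    | mem w hw => obtain ⟨a, b, hab, rfl⟩ := hw; exact hn a b hab
    | zero => simp
    | add w w' _ _ h h' => rw [map_add]; exact add_mem h h'
    | smul c w _ h => rw [map_smul]; exact Submodule.smul_mem _ _ h
  have a3 : ∀ k, ∀ w ∈ W (j k + 3), g k w ∈ I • N := fun k => red k _ fun a b hab => by
    rcases b with _ | b
    · obtain ⟨a, rfl⟩ : ∃ a', a = a' + 1 := ⟨a - 1, by omega⟩
      exact a0 k a 0 (by omega)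
    · exact a1 k a b (by omega)
  have hle : N ≤ I • N := by
    refine iSup_le fun k => ?_
    rintro _ ⟨w, hw, rfl⟩
    refine red k _ (fun a b hab => ?_) w hw
    by_cases c0 : 1 ≤ a ∧ j k + 1 ≤ a + 3 * b
    · obtain ⟨a, rfl⟩ : ∃ a', a = a' + 1 := ⟨a - 1, by omega⟩
      exact a0 k a b (by omega)
    by_cases c1 : 1 ≤ b ∧ j k + 3 ≤ a + 3 * b
    · obtain ⟨b, rfl⟩ : ∃ b', b = b' + 1 := ⟨b - 1, by omega⟩
      exact a1 k a b (by omega)
    obtain ⟨u, r, hu, hr, hJ⟩ := h k b (by omega)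
    obtain rfl : a = j k - 3 * b := by omega
    have hz : g k (X 0 ^ (j k - 3 * b) * X 1 ^ b) + ∑ i, g i ((q : ℤ) * u i + r i) = 0 := by
      simp only [hg]
      rw [← map_sum, ← map_add]
      exact (Submodule.Quotient.mk_eq_zero _).2 hJ
    rw [eq_neg_of_add_eq_zero_left hz]
    refine neg_mem (Submodule.sum_mem _ fun i _ => ?_)
    rw [map_add, Int.cast_natCast, ← smul_eq_mul, map_smul]
    exact add_mem (Submodule.smul_mem_smul hq' (hN i _ (hu i))) (a3 i _ (hr i))
  have hfg : N.FG := Submodule.fg_iSup _ fun k => (IsNoetherian.noetherian _).map _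
  obtain ⟨s, hs1, hs2⟩ :=
    Submodule.exists_sub_one_mem_and_smul_eq_zero_of_fg_of_le_smul I N hfg hle
  refine ⟨s, fun hc => ?_, fun x hx => ?_⟩
  · have : I ≤ (Ideal.span {(q : ℤ)}).comap (constantCoeff : Rz →+* ℤ) := by
      rw [Ideal.span_le]
      rintro _ (rfl | rfl | rfl) <;> simp
    have h2 := this hs1
    rw [Ideal.mem_comap, map_sub, hc, map_one, Ideal.mem_span_singleton, zero_sub, dvd_neg] at h2
    have := Int.le_of_dvd one_pos h2
    omega
  · have := hs2 _ (Submodule.sum_mem N fun i (_ : i ∈ Finset.univ) => hN i _ (hx i))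
    simp only [hg] at this
    rw [← map_sum, ← map_smul] at this
    exact (Submodule.Quotient.mk_eq_zero _).1 this

end Crest.Agent.R278
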